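import Vale.Agent.P216.MathlibUsed

/-!
# P216, centralizers: malnormal infinite cyclic subgroups (algebra)
-/

set_option linter.all false

namespace Vale.Agent.P216.H949

/-- Centralizers of the powers of `a` are cyclic and no power of `a` is conjugate to its inverse:
the infinite cyclic subgroup generated by `a` is malnormal. -/
theorem malnormal_of {G : Type*} [Group G] (a : G) (hinf : ∀ n : ℤ, a ^ n = 1 → n = 0)
    (hC : ∀ k : ℕ, 1 ≤ k → ∀ b : G, a ^ k * b = b * a ^ k → b ∈ Subgroup.zpowers a)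
    (hrev : ∀ t : G, t * a * t⁻¹ ≠ a⁻¹) (t : G) (ht : t ∉ Subgroup.zpowers a) (m n : ℤ)
    (hm : m ≠ 0) : t * a ^ m * t⁻¹ ≠ a ^ n := by
  intro h
  have hC' : ∀ k : ℤ, k ≠ 0 → ∀ b : G, a ^ k * b = b * a ^ k → b ∈ Subgroup.zpowers a := by
    intro k hk b hb
    obtain ⟨i, rfl | rfl⟩ := Int.eq_nat_or_neg k
    · refine hC i (by omega) b ?_
      simpa only [zpow_natCast] using hb
    · refine hC i (by omega) b ?_
      rw [zpow_neg, zpow_natCast] at hb
      calc a ^ i * b = a ^ i * (b * (a ^ i)⁻¹) * a ^ i := by group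
        _ = a ^ i * ((a ^ i)⁻¹ * b) * a ^ i := by rw [hb]
        _ = b * a ^ i := by group
  have hn : n ≠ 0 := by
    rintro rfl
    rw [zpow_zero] at h
    apply hm
    apply hinf
    have := congrArg (fun z => t⁻¹ * z * t) h
    simpa [mul_assoc] using this
  have h1 : t * a * t⁻¹ ∈ Subgroup.zpowers a := by
    refine hC' n hn _ ?_
    rw [← h]
    have e1 : a ^ m * a = a * a ^ m := by rw [← zpow_add_one, ← zpow_one_add, add_comm]
    calc t * a ^ m * t⁻¹ * (t * a * t⁻¹) = t * (a ^ m * a) * t⁻¹ := by group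
      _ = t * (a * a ^ m) * t⁻¹ := by rw [e1]
      _ = t * a * t⁻¹ * (t * a ^ m * t⁻¹) := by group
  have h' : a ^ m = t⁻¹ * a ^ n * t := by rw [← h]; group
  have h2 : t⁻¹ * a * t ∈ Subgroup.zpowers a := by
    refine hC' m hm _ ?_
    rw [h']
    have e1 : a ^ n * a = a * a ^ n := by rw [← zpow_add_one, ← zpow_one_add, add_comm]
    calc t⁻¹ * a ^ n * t * (t⁻¹ * a * t) = t⁻¹ * (a ^ n * a) * t := by group
      _ = t⁻¹ * (a * a ^ n) * t := by rw [e1]
      _ = t⁻¹ * a * t * (t⁻¹ * a ^ n * t) := by group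
  obtain ⟨s, hs⟩ := Subgroup.mem_zpowers_iff.1 h1
  obtain ⟨r, hr⟩ := Subgroup.mem_zpowers_iff.1 h2
  have h3 : a ^ (s * r) = a := by
    rw [zpow_mul, hs, conj_zpow, hr]
    group
  have h4 : s * r = 1 := by
    have := hinf (s * r - 1) (by rw [zpow_sub_one, h3, mul_inv_cancel])
    omega
  rcases Int.eq_one_or_neg_one_of_mul_eq_one h4 with rfl | rfl
  · rw [zpow_one] at hs
    apply ht
    refine hC 1 le_rfl t ?_
    rw [pow_one]
    nth_rewrite 1 [hs]
    group
  · exact hrev t (by rw [← hs, zpow_neg_one])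

/-- Malnormality in terms of elements which commute. -/
theorem not_malnormal_of_commute {G : Type*} [Group G] (a : G)
    (h : ∀ t : G, t ∉ Subgroup.zpowers a → ∀ m n : ℤ, m ≠ 0 → t * a ^ m * t⁻¹ ≠ a ^ n) (t : G)
    (m : ℤ) (hm : m ≠ 0) (hc : t * a ^ m = a ^ m * t) : t ∈ Subgroup.zpowers a := by
  by_contra ht
  exact h t ht m m hm (by rw [hc, mul_inv_cancel_right])

end Vale.Agent.P216.H949
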