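import Mathlib.GroupTheory.Index
import Mathlib.GroupTheory.SpecificGroups.Cyclic
import Mathlib.GroupTheory.GroupAction.ConjAct
import Mathlib.Tactic

/-!
# Groups with an element which is the whole centralizer of each of its powers
-/

set_option linter.all false

namespace Vale.Agent.P216.H949

/-- Some element `a` of infinite order generates the centralizer of every power `a ^ k`,
`k ≥ 1`. -/
def SelfCentral (G : Type) [Group G] : Prop :=
  ∃ a : G, (∀ m : ℕ, 1 ≤ m → a ^ m ≠ 1) ∧
    ∀ k : ℕ, 1 ≤ k → ∀ h : G, h * a ^ k = a ^ k * h → h ∈ Subgroup.zpowers a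

/-- Some element different from `1` has only finitely many conjugates. -/
def HasFC (G : Type) [Group G] : Prop :=
  ∃ z : G, z ≠ 1 ∧ (Set.range fun g : G => g * z * g⁻¹).Finite

/-- Some subgroup of finite index is infinite cyclic. -/
def VirtZ (G : Type) [Group G] : Prop :=
  ∃ H : Subgroup G, H.FiniteIndex ∧ Nonempty (Multiplicative ℤ ≃* H)

theorem SelfCentral.congr {G G' : Type} [Group G] [Group G'] (e : G ≃* G') (h : SelfCentral G) :
    SelfCentral G' := by
  obtain ⟨a, h1, h2⟩ := h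
  refine ⟨e a, fun m hm hc => h1 m hm (e.injective (by rw [map_pow, hc, map_one])),
    fun k hk h hh => ?_⟩
  have h3 : e.symm h * a ^ k = a ^ k * e.symm h := by
    apply e.injective
    rw [map_mul, map_mul, map_pow, e.apply_symm_apply, hh]
  obtain ⟨z, hz⟩ := Subgroup.mem_zpowers_iff.1 (h2 k hk _ h3)
  refine Subgroup.mem_zpowers_iff.2 ⟨z, ?_⟩
  rw [← map_zpow, hz, e.apply_symm_apply]

theorem zpow_ne {G : Type} [Group G] {a : G} (h1 : ∀ m : ℕ, 1 ≤ m → a ^ m ≠ 1) {n : ℤ}
    (hn : n ≠ 0) : a ^ n ≠ 1 := by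
  intro h
  apply h1 n.natAbs (Int.natAbs_pos.2 hn)
  rcases Int.natAbs_eq n with h2 | h2
  · rw [h2, zpow_natCast] at h; exact h
  · rw [h2, zpow_neg, inv_eq_one, zpow_natCast] at h; exact h

theorem commute_natAbs {G : Type} [Group G] {a h : G} {n : ℤ} (hh : h * a ^ n = a ^ n * h) :
    h * a ^ n.natAbs = a ^ n.natAbs * h := by
  rcases Int.natAbs_eq n with h2 | h2
  · rw [h2, zpow_natCast] at hh
    simpa using hh
  · rw [h2, zpow_neg, zpow_natCast] at hh
    have h3 : Commute h (a ^ n.natAbs)⁻¹ := hh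
    have := h3.inv_right
    rw [inv_inv] at this
    exact this

/-- An element of finite conjugacy class in a self-central group: the group is virtually `ℤ`. -/
theorem virtZ_of_hasFC {G : Type} [Group G] (h : SelfCentral G) (hz : HasFC G) : VirtZ G := by
  obtain ⟨a, h1, h2⟩ := h
  obtain ⟨z, hz1, hfin⟩ := hz
  -- some power of `a` commutes with `z`
  obtain ⟨k, hk, hkz⟩ : ∃ k : ℕ, 1 ≤ k ∧ z * a ^ k = a ^ k * z := by
    have hni : ¬ Function.Injective fun i : ℕ => (⟨a ^ i * z * (a ^ i)⁻¹, ⟨a ^ i, rfl⟩⟩ :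
        Set.range fun g : G => g * z * g⁻¹) := by
      intro hi
      have := hfin.to_subtype
      exact not_injective_infinite_finite _ hi
    rw [Function.Injective] at hni
    push Not at hni
    obtain ⟨i, j, hij, hne⟩ := hni
    have hij' : a ^ i * z * (a ^ i)⁻¹ = a ^ j * z * (a ^ j)⁻¹ := congrArg Subtype.val hij
    wlog hlt : i < j generalizing i j
    · exact this j i hij.symm hne.symm hij'.symm (by omega)
    obtain ⟨d, rfl⟩ := Nat.exists_eq_add_of_lt hlt
    refine ⟨d + 1, by omega, ?_⟩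
    have e1 : a ^ (i + d + 1) = a ^ i * a ^ (d + 1) := by rw [← pow_add]; congr 1
    rw [e1, mul_inv_rev] at hij'
    have e2 : z = a ^ (d + 1) * z * (a ^ (d + 1))⁻¹ := by
      have e3 : a ^ i * z * (a ^ i)⁻¹ = a ^ i * (a ^ (d + 1) * z * (a ^ (d + 1))⁻¹) * (a ^ i)⁻¹ := by
        rw [hij']; group
      exact mul_left_cancel (mul_right_cancel e3)
    calc z * a ^ (d + 1) = a ^ (d + 1) * z * (a ^ (d + 1))⁻¹ * a ^ (d + 1) := by rw [← e2]
      _ = a ^ (d + 1) * z := by group
  obtain ⟨n, rfl⟩ := Subgroup.mem_zpowers_iff.1 (h2 k hk z hkz)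
  have hn : n ≠ 0 := by rintro rfl; exact hz1 (zpow_zero a)
  -- the centralizer has finite index
  have hc : (Subgroup.centralizer {a ^ n}).FiniteIndex := by
    have hinj : Function.Injective (fun q : G ⧸ Subgroup.centralizer {a ^ n} =>
        (Quotient.liftOn' q (fun g : G => (⟨g * a ^ n * g⁻¹, ⟨g, rfl⟩⟩ :
          Set.range fun g : G => g * a ^ n * g⁻¹)) (by
            intro g g' hgg
            rw [QuotientGroup.leftRel_apply, Subgroup.mem_centralizer_singleton_iff] at hgg
            apply Subtype.ext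
            show g * a ^ n * g⁻¹ = g' * a ^ n * g'⁻¹
            have e : g' = g * (g⁻¹ * g') := by group
            calc g * a ^ n * g⁻¹ = g * (a ^ n * (g⁻¹ * g')) * (g⁻¹ * g')⁻¹ * g⁻¹ := by group
              _ = g * ((g⁻¹ * g') * a ^ n) * (g⁻¹ * g')⁻¹ * g⁻¹ := by rw [hgg]
              _ = g' * a ^ n * g'⁻¹ := by group))) := by
      intro q q'
      induction q using QuotientGroup.induction_on with
      | H g =>
      induction q' using QuotientGroup.induction_on with
      | H g' =>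
      intro hgg
      have h5 : g * a ^ n * g⁻¹ = g' * a ^ n * g'⁻¹ := congrArg Subtype.val hgg
      rw [QuotientGroup.eq, Subgroup.mem_centralizer_singleton_iff]
      calc g⁻¹ * g' * a ^ n = g⁻¹ * (g' * a ^ n * g'⁻¹) * g' := by group
        _ = g⁻¹ * (g * a ^ n * g⁻¹) * g' := by rw [h5]
        _ = a ^ n * (g⁻¹ * g') := by group
    have := hfin.to_subtype
    have hf : Finite (G ⧸ Subgroup.centralizer {a ^ n}) := Finite.of_injective _ hinj
    exact Subgroup.finiteIndex_of_finite_quotient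
  have hle : Subgroup.centralizer {a ^ n} ≤ Subgroup.zpowers a := by
    intro h hh
    rw [Subgroup.mem_centralizer_singleton_iff] at hh
    exact h2 n.natAbs (Int.natAbs_pos.2 hn) h (commute_natAbs hh)
  refine ⟨Subgroup.zpowers a, Subgroup.finiteIndex_of_le hle, ⟨?_⟩⟩
  have hinj : Function.Injective (zpowersHom G a) := by
    rw [injective_iff_map_eq_one]
    intro x hx
    by_contra hne
    refine zpow_ne h1 (n := Multiplicative.toAdd x) (fun h0 => hne ?_) (by simpa using hx)
    exact Multiplicative.toAdd.injective h0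
  have hr : (zpowersHom G a).range = Subgroup.zpowers a := by
    ext y
    simp [Subgroup.mem_zpowers_iff, MonoidHom.mem_range]
  exact (MonoidHom.ofInjective hinj).trans (MulEquiv.subgroupCongr hr)

/-- A self-central group is not the direct product of two nontrivial groups. -/
theorem not_prod {A B : Type} [Group A] [Group B] [Nontrivial A] [Nontrivial B]
    (h : SelfCentral (A × B)) : False := by
  obtain ⟨⟨x, y⟩, h1, h2⟩ := h
  have hx : ((x, 1) : A × B) ∈ Subgroup.zpowers (x, y) := h2 1 le_rfl _ (by ext <;> simp)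
  have hy : ((1, y) : A × B) ∈ Subgroup.zpowers (x, y) := h2 1 le_rfl _ (by ext <;> simp)
  obtain ⟨n, hn⟩ := Subgroup.mem_zpowers_iff.1 hx
  obtain ⟨m, hm⟩ := Subgroup.mem_zpowers_iff.1 hy
  rw [Prod.pow_mk, Prod.mk.injEq] at hn hm
  -- `x ^ n = x`, `y ^ n = 1`, `x ^ m = 1`, `y ^ m = y`
  have hxm : m = 0 ∨ n = 0 := by
    by_contra hcon
    push Not at hcon
    -- `(x, y) ^ (n * m) = 1`
    refine zpow_ne h1 (n := n * m) (mul_ne_zero hcon.2 hcon.1) ?_
    rw [Prod.pow_mk]
    ext
    · show x ^ (n * m) = 1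
      rw [mul_comm, zpow_mul, hm.1, one_zpow]
    · show y ^ (n * m) = 1
      rw [zpow_mul, hn.2, one_zpow]
  rcases hxm with rfl | rfl
  · -- `y = 1`
    have hy1 : y = 1 := by rw [← hm.2, zpow_zero]
    subst hy1
    obtain ⟨b, hb⟩ := exists_ne (1 : B)
    obtain ⟨l, hl⟩ := Subgroup.mem_zpowers_iff.1 (h2 1 le_rfl ((1 : A), b) (by ext <;> simp))
    rw [Prod.pow_mk, Prod.mk.injEq, one_zpow] at hl
    exact hb hl.2.symm
  · have hx1 : x = 1 := by rw [← hn.1, zpow_zero]
    subst hx1
    obtain ⟨b, hb⟩ := exists_ne (1 : A)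
    obtain ⟨l, hl⟩ := Subgroup.mem_zpowers_iff.1 (h2 1 le_rfl (b, (1 : B)) (by ext <;> simp))
    rw [Prod.pow_mk, Prod.mk.injEq, one_zpow] at hl
    exact hb hl.1.symm

end Vale.Agent.P216.H949
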