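import Vale.Agent.P216.H949.Spec

/-!
# P216, centralizers: rows RC and RD (from RB)
-/

set_option linter.all false

open Set Filter Topology unitInterval

namespace Vale.Agent.P216.H949

open Vale.Agent.P216.L250 Vale.Agent.P216.H494 Vale.Agent.P216.H971B
open Vale.Agent.P216.H126B (Q RQ pthN pw)
open Path.Homotopic.Quotient (mk)

namespace X779

variable {M : Type} [MetricSpace M] {ρ : ℝ}

/-- The path `t ↦ f (u + (v - u) t)`. -/
def arc (f : C(ℝ, M)) (u v : ℝ) : Path (f u) (f v) where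
  toFun t := f (u + (v - u) * t)
  continuous_toFun := f.continuous.comp (by fun_prop)
  source' := by simp
  target' := by simp

theorem arc_apply (f : C(ℝ, M)) (u v : ℝ) (t : I) : arc f u v t = f (u + (v - u) * t) := rfl

/-- Concatenation of two arcs of one line. -/
theorem mk_arc (f : C(ℝ, M)) {a b c : M} {u v w : ℝ} (p : Path a b) (q : Path b c) (r : Path a c)
    (hp : ∀ t : I, p t = f (u + (v - u) * t)) (hq : ∀ t : I, q t = f (v + (w - v) * t))
    (hr : ∀ t : I, r t = f (u + (w - u) * t)) : (mk p).trans (mk q) = mk r := by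
  rw [← Path.Homotopic.Quotient.mk_trans, Path.Homotopic.Quotient.eq]
  let φ : Path u v := ⟨⟨fun t : I => u + (v - u) * t, by fun_prop⟩, by simp, by simp⟩
  let ψ : Path v w := ⟨⟨fun t : I => v + (w - v) * t, by fun_prop⟩, by simp, by simp⟩
  let χ : Path u w := ⟨⟨fun t : I => u + (w - u) * t, by fun_prop⟩, by simp, by simp⟩
  refine H126B.line_homotopic f _ _ (φ.trans ψ) χ (fun t => ?_) fun t => ?_
  · rw [Path.trans_apply, Path.trans_apply]
    split_ifs with ht
    · exact hp _
    · exact hq _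
  · exact hr t

/-- Paths in a ball of radius `ρ / 2` are homotopic. -/
theorem mk_ball [CompactSpace M] (h : LS.UniqSeg M ρ) {a b c : M} {p q : Path a b}
    (hp : ∀ t, dist (p t) c < ρ / 2) (hq : ∀ t, dist (q t) c < ρ / 2) : mk p = mk q := by
  rw [Path.Homotopic.Quotient.eq]
  refine H126B.homotopic_of_near h fun t => ?_
  have := dist_triangle_right (p t) (q t) c
  linarith [hp t, hq t]

theorem trans_ball {a b d c : M} {r : ℝ} {p : Path a b} {q : Path b d}
    (hp : ∀ t, dist (p t) c < r) (hq : ∀ t, dist (q t) c < r) (t : I) :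
    dist (p.trans q t) c < r := by
  rw [Path.trans_apply]
  split_ifs with ht
  · exact hp _
  · exact hq _

/-- The segment as a path. -/
theorem exists_seg [CompactSpace M] (h : LS.UniqSeg M ρ) {a b : M} (hab : dist a b < ρ) :
    ∃ p : Path a b, ∀ t, dist (p t) a ≤ dist a b := by
  have hc : Continuous (fun t : I => LS.seg a b (t : ℝ)) :=
    (LS.continuousOn_seg h).comp_continuous
      (f := fun t : I => (a, b, (t : ℝ))) (by fun_prop) fun t => ⟨hab, t.2⟩
  refine ⟨⟨⟨_, hc⟩, by simp, by simp⟩, fun t => ?_⟩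
  show dist (LS.seg a b (t : ℝ)) a ≤ dist a b
  rw [dist_comm, LS.dist_left_seg h hab t.2]
  exact mul_le_of_le_one_left dist_nonneg t.2.2

/-- Uniform continuity of the function of a loop. -/
theorem unif (g : LM M) {r : ℝ} (hr : 0 < r) :
    ∃ η > 0, ∀ s t : ℝ, |s - t| < η → dist (fn g s) (fn g t) < r := by
  have h1 := CompactSpace.uniformContinuous_of_continuous g.continuous
  obtain ⟨η, hη, hd⟩ := Metric.uniformContinuous_iff.1 h1 r hr
  refine ⟨η, hη, fun s t hst => hd ?_⟩
  refine lt_of_le_of_lt ?_ hst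
  rw [dist_eq_norm, ← AddCircle.coe_sub]
  exact QuotientAddGroup.norm_mk_le_norm

theorem lineMap (g : LM M) : ∃ f : C(ℝ, M), ∀ t, f t = fn g t :=
  ⟨⟨fn g, continuous_fn g⟩, fun _ => rfl⟩

/-- **RD.** -/
theorem rD (hB : RB) : RD := by
  intro M _ _ ρ hρ h g₀
  obtain ⟨η, hη, hf⟩ := unif g₀ (show 0 < ρ / 4 by linarith)
  obtain ⟨εB, hεB, hb⟩ := hB M g₀ η hη
  refine ⟨εB / 2, half_pos hεB, fun ε hε hε₀ a y g q q' h1 h2 => ?_⟩
  obtain ⟨u, z, p₁, p₂, e1, e2, e3, e4, rfl⟩ := h1
  obtain ⟨v, z', p₁', p₂', e1', e2', e3', e4', rfl⟩ := h2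
  obtain rfl : fn g₀ u = z := by rw [← p₁.target, e1]; simp
  obtain rfl : fn g₀ v = z' := by rw [← p₁'.target, e1']; simp
  obtain rfl : fn g₀ 0 = a := by rw [← p₁.source, e1]; simp
  have hd : dist (rot u g₀) (rot v g₀) < εB := by
    have := dist_triangle_left (rot u g₀) (rot v g₀) g
    linarith
  obtain ⟨w₀, hw₀, hu⟩ := hb u v hd
  have hper : rot (v - w₀) g₀ = g₀ := by
    have e : rot (-w₀) (rot w₀ g₀) = rot (-w₀) (rot v g₀) := by rw [hw₀]
    rw [rot_rot, rot_rot, neg_add_cancel, rot_zero] at e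
    rw [sub_eq_neg_add]
    exact e.symm
  have hper' : ∀ t, fn g₀ (t + (v - w₀)) = fn g₀ t := fun t => by
    rw [← fn_rot, hper]
  let p : Path (fn g₀ 0) (fn g₀ 0) := ⟨⟨fun t : I => fn g₀ ((v - w₀) * t),
    (continuous_fn g₀).comp (by fun_prop)⟩, by simp, by
      have := hper' 0
      rw [zero_add] at this
      simpa using this⟩
  refine ⟨v - w₀, p, hper, fun t => rfl, ?_⟩
  -- the short arc
  let r : Path (fn g₀ u) (fn g₀ v) := ⟨⟨fun t : I => fn g₀ (u + (w₀ - u) * t),
    (continuous_fn g₀).comp (by fun_prop)⟩, by simp, by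
      have := hper' w₀
      simpa using this.symm⟩
  have hr : ∀ t, dist (r t) (fn g₀ u) < ρ / 4 := fun t => by
    refine hf _ _ ?_
    rw [add_sub_cancel_left, abs_mul, abs_sub_comm]
    refine lt_of_le_of_lt (mul_le_of_le_one_right (abs_nonneg _) ?_) hu
    rw [abs_of_nonneg t.2.1]
    exact t.2.2
  let f : C(ℝ, M) := ⟨fn g₀, continuous_fn g₀⟩
  let m : Path (fn g₀ 0) (fn g₀ u) := ⟨⟨fun t : I => fn g₀ ((v - w₀) + (v - w₀ + u - (v - w₀)) * t),
    (continuous_fn g₀).comp (by fun_prop)⟩, by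
      have := hper' 0
      rw [zero_add] at this
      simpa using this, by
      have := hper' u
      rw [add_comm] at this
      simpa using this⟩
  have hm : m = p₁ := by
    ext t
    rw [e1]
    show fn g₀ ((v - w₀) + (v - w₀ + u - (v - w₀)) * t) = _
    rw [← hper' (u * t)]
    congr 1
    ring
  let m' : Path (fn g₀ 0) (fn g₀ u) := ⟨⟨fun t : I => fn g₀ (0 + (v - w₀ + u - 0) * t),
    (continuous_fn g₀).comp (by fun_prop)⟩, by simp, by
      have := hper' u
      rw [add_comm] at this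
      simpa using this⟩
  have k1 : (mk p).trans (mk p₁) = mk m' := by
    rw [← hm]
    exact mk_arc f p m m' (fun t => by
      show fn g₀ ((v - w₀) * t) = fn g₀ (0 + (v - w₀ - 0) * t)
      simp) (fun t => rfl) fun t => rfl
  have k2 : (mk m').trans (mk r) = mk p₁' := by
    refine mk_arc f m' r p₁' (u := 0) (v := v - w₀ + u) (w := v) (fun t => rfl) (fun t => ?_)
      fun t => ?_
    · show fn g₀ (u + (w₀ - u) * t) = fn g₀ (v - w₀ + u + (v - (v - w₀ + u)) * t)
      rw [← hper' (u + (w₀ - u) * t)]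
      congr 1
      ring
    · rw [e1']
      show fn g₀ (v * t) = fn g₀ (0 + (v - 0) * t)
      simp
  have k3 : (mk r).trans (mk p₂') = mk p₂ := by
    rw [← Path.Homotopic.Quotient.mk_trans]
    have hvu : dist (fn g₀ v) (fn g₀ u) < ρ / 4 := by
      have := hr 1
      rwa [r.target] at this
    refine mk_ball h (c := fn g₀ u) (trans_ball (fun t => by linarith [hr t]) fun t => ?_) fun t => by
      linarith [e2 t]
    have := dist_triangle (p₂' t) (fn g₀ v) (fn g₀ u)
    linarith [e2' t]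
  rw [← k3, ← k2, ← k1]
  simp only [Path.Homotopic.Quotient.trans_assoc]

/-- One step along the path. -/
theorem step [CompactSpace M] (h : LS.UniqSeg M ρ) (hρ : 0 < ρ) (g₀ : LM M) {η εB ε : ℝ}
    (hf : ∀ s t : ℝ, |s - t| < η → dist (fn g₀ s) (fn g₀ t) < ρ / 16)
    (hb : ∀ u v : ℝ, dist (rot u g₀) (rot v g₀) < εB → ∃ w, rot w g₀ = rot v g₀ ∧ |u - w| < η)
    (hε1 : ε ≤ εB / 3) (hε2 : ε ≤ ρ / 16) {a x y : M} {g g' : LM M} {q : Q a x} (p : Path x y)
    (hp : ∀ t, dist (p t) x < ρ / 8) (hg : dist g g' < εB / 3) (hy : fn g' 0 = y)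
    (hu : ∃ u, dist g' (rot u g₀) < ε) (hk : KS ρ ε g₀ g q) : KS ρ ε g₀ g' (q.trans (mk p)) := by
  obtain ⟨u, z, p₁, p₂, e1, e2, e3, e4, rfl⟩ := hk
  obtain ⟨u', hu'⟩ := hu
  obtain rfl : fn g₀ u = z := by rw [← p₁.target, e1]; simp
  obtain rfl : fn g₀ 0 = a := by rw [← p₁.source, e1]; simp
  subst e3
  subst hy
  have hd : dist (rot u g₀) (rot u' g₀) < εB := by
    have t1 := dist_triangle (rot u g₀) g (rot u' g₀)
    have t2 := dist_triangle g g' (rot u' g₀)
    rw [dist_comm (rot u g₀) g] at t1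
    linarith
  obtain ⟨w, hw, huw⟩ := hb u u' hd
  have hw' : dist g' (rot w g₀) < ε := by rw [hw]; exact hu'
  let f : C(ℝ, M) := ⟨fn g₀, continuous_fn g₀⟩
  let r : Path (fn g₀ u) (fn g₀ w) := arc f u w
  have hr : ∀ t, dist (r t) (fn g₀ u) < ρ / 16 := fun t => by
    refine hf _ _ ?_
    rw [add_sub_cancel_left, abs_mul, abs_sub_comm]
    refine lt_of_le_of_lt (mul_le_of_le_one_right (abs_nonneg _) ?_) huw
    rw [abs_of_nonneg t.2.1]
    exact t.2.2
  have hz : dist (fn g₀ w) (fn g₀ u) < ρ / 16 := by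
    have := hr 1
    rwa [r.target] at this
  have hwy : dist (fn g₀ w) (fn g' 0) < ε := by
    have := dist_fn_le (rot w g₀) g' 0
    rw [fn_rot, zero_add, dist_comm (rot w g₀)] at this
    exact this.trans_lt hw'
  have hux : dist (fn g 0) (fn g₀ u) < ε := by
    have := dist_fn_le g (rot u g₀) 0
    rw [fn_rot, zero_add] at this
    exact this.trans_lt e4
  obtain ⟨s, hs⟩ := exists_seg h (hwy.trans_le (by linarith) : dist (fn g₀ w) (fn g' 0) < ρ)
  refine ⟨w, fn g₀ w, arc f 0 w, s, fun t => ?_, fun t => ?_, rfl, hw', ?_⟩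
  · rw [arc_apply, sub_zero, zero_add]
    rfl
  · linarith [hs t]
  have k1 : (mk p₁).trans (mk r) = mk (arc f 0 w) := by
    refine mk_arc f p₁ r (arc f 0 w) (u := 0) (v := u) (w := w) (fun t => ?_) (fun t => rfl)
      fun t => rfl
    rw [e1, sub_zero, zero_add]
    rfl
  have k2 : (mk p₂).trans (mk p) = (mk r).trans (mk s) := by
    rw [← Path.Homotopic.Quotient.mk_trans, ← Path.Homotopic.Quotient.mk_trans]
    refine mk_ball h (c := fn g₀ u) (trans_ball (fun t => by linarith [e2 t]) fun t => ?_)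
      (trans_ball (fun t => by linarith [hr t]) fun t => ?_)
    · have := dist_triangle (p t) (fn g 0) (fn g₀ u)
      linarith [hp t]
    · have := dist_triangle (s t) (fn g₀ w) (fn g₀ u)
      linarith [hs t]
  rw [← k1, Path.Homotopic.Quotient.trans_assoc, Path.Homotopic.Quotient.trans_assoc, k2]

/-- **RC.** -/
theorem rC (hB : RB) : RC := by
  intro M _ _ ρ hρ h g₀
  obtain ⟨η, hη, hf⟩ := unif g₀ (show 0 < ρ / 16 by linarith)
  obtain ⟨εB, hεB, hb⟩ := hB M g₀ η hη
  refine ⟨min (εB / 3) (ρ / 16), by positivity, fun ε hε hε₀ a x y g g' Γ p q hΓ hnear hk => ?_⟩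
  have hε1 : ε ≤ εB / 3 := hε₀.trans (min_le_left _ _)
  have hε2 : ε ≤ ρ / 16 := hε₀.trans (min_le_right _ _)
  have hu := CompactSpace.uniformContinuous_of_continuous Γ.continuous
  obtain ⟨δ, hδ, hd⟩ := Metric.uniformContinuous_iff.1 hu (min (εB / 3) (ρ / 8)) (by positivity)
  obtain ⟨m, hm⟩ := exists_nat_gt (1 / δ)
  set n : ℕ := m + 1 with hn
  have hn0 : (0 : ℝ) < n := by positivity
  have hnδ : 1 / (n : ℝ) < δ := by
    rw [div_lt_iff₀ hδ] at hm
    rw [div_lt_iff₀ hn0, hn]
    push_cast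
    linarith
  have hclose : ∀ s t : ℝ, s ∈ Icc (0 : ℝ) 1 → t ∈ Icc (0 : ℝ) 1 → |s - t| < δ →
      dist (Γ.extend s) (Γ.extend t) < min (εB / 3) (ρ / 8) := by
    intro s t hs ht hst
    rw [Path.extend_apply _ hs, Path.extend_apply _ ht]
    exact hd (by rw [Subtype.dist_eq, Real.dist_eq]; exact hst)
  have hpe : ∀ s : ℝ, s ∈ Icc (0 : ℝ) 1 → p.extend s = fn (Γ.extend s) 0 := by
    intro s hs
    rw [Path.extend_apply _ hs, Path.extend_apply _ hs, hΓ]
  let F : C(ℝ, M) := ⟨p.extend, p.continuous_extend⟩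
  have key : ∀ k : ℕ, k ≤ n → ∀ (y' : M) (r : Path x y'),
      (∀ t : I, r t = p.extend (k / n * t)) →
      KS ρ ε g₀ (Γ.extend (k / n)) (q.trans (mk r)) := by
    intro k
    induction k with
    | zero =>
      intro _ y' r hr
      have h0 : ∀ t, r t = x := fun t => by rw [hr]; simp
      obtain rfl : y' = x := by rw [← r.target, h0]
      have e : r = Path.refl y' := by ext t; rw [h0]; rfl
      subst e
      rw [Path.Homotopic.Quotient.mk_refl, Path.Homotopic.Quotient.trans_refl]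
      simpa using hk
    | succ k ih =>
      intro hkn y' r hr
      have hk1 : ((k : ℝ) + 1) / n ≤ 1 := by
        rw [div_le_one hn0]
        exact_mod_cast hkn
      have hk2 : (k : ℝ) / n + 1 / n = ((k : ℝ) + 1) / n := by rw [add_div]
      have hk3 : (0 : ℝ) ≤ (k : ℝ) / n := by positivity
      have hk4 : (0 : ℝ) ≤ 1 / (n : ℝ) := by positivity
      have hr' : ∀ t : I, r t = p.extend (((k : ℝ) + 1) / n * t) := fun t => by
        rw [hr]
        push_cast
        rfl
      let r₀ : Path x (p.extend ((k : ℝ) / n)) := ⟨⟨fun t : I => p.extend ((k : ℝ) / n * t),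
        p.continuous_extend.comp (by fun_prop)⟩, by simp, by simp⟩
      let r₁ : Path (p.extend ((k : ℝ) / n)) y' := ⟨⟨fun t : I => p.extend ((k : ℝ) / n + 1 / n * t),
        p.continuous_extend.comp (by fun_prop)⟩, by simp, by
          show p.extend ((k : ℝ) / n + 1 / n * ((1 : I) : ℝ)) = y'
          rw [← r.target, hr', show ((1 : I) : ℝ) = 1 from rfl, mul_one, mul_one, hk2]⟩
      have e : (mk r₀).trans (mk r₁) = mk r := by
        refine mk_arc F r₀ r₁ r (u := 0) (v := (k : ℝ) / n) (w := ((k : ℝ) + 1) / n) (fun t => ?_)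
          (fun t => ?_) fun t => ?_
        · show p.extend ((k : ℝ) / n * t) = p.extend (0 + ((k : ℝ) / n - 0) * t)
          rw [sub_zero, zero_add]
        · show p.extend ((k : ℝ) / n + 1 / n * t) =
            p.extend ((k : ℝ) / n + (((k : ℝ) + 1) / n - (k : ℝ) / n) * t)
          rw [← hk2, add_sub_cancel_left]
        · rw [hr', sub_zero, zero_add]
          rfl
      rw [← e, ← Path.Homotopic.Quotient.trans_assoc]
      have hmem : ∀ t : I, (k : ℝ) / n + 1 / n * t ∈ Icc (0 : ℝ) 1 := fun t => by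
        have t1 : 1 / (n : ℝ) * t ≤ 1 / n := mul_le_of_le_one_right hk4 t.2.2
        have t2 : 0 ≤ 1 / (n : ℝ) * t := mul_nonneg hk4 t.2.1
        exact ⟨by linarith, by linarith⟩
      have hm0 : (k : ℝ) / n ∈ Icc (0 : ℝ) 1 := by simpa using hmem 0
      have hm1 : ((k : ℝ) + 1) / n ∈ Icc (0 : ℝ) 1 := ⟨by linarith, hk1⟩
      have ih' := ih (by omega) _ r₀ fun t => rfl
      have hy' : fn (Γ.extend (((k + 1 : ℕ) : ℝ) / n)) 0 = y' := by
        push_cast
        rw [← hpe _ hm1, ← r.target, hr']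
        simp
      refine step h hρ g₀ hf hb hε1 hε2 r₁ (fun t => ?_) ?_ hy' ?_ ih'
      · show dist (p.extend ((k : ℝ) / n + 1 / n * t)) (p.extend ((k : ℝ) / n)) < ρ / 8
        rw [hpe _ (hmem t), hpe _ hm0]
        refine (dist_fn_le _ _ _).trans_lt ((hclose _ _ (hmem t) hm0 ?_).trans_le (min_le_right _ _))
        rw [add_sub_cancel_left, abs_of_nonneg (mul_nonneg hk4 t.2.1)]
        exact (mul_le_of_le_one_right hk4 t.2.2).trans_lt hnδ
      · push_cast
        refine (hclose _ _ hm0 hm1 ?_).trans_le (min_le_left _ _)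
        rw [← hk2, abs_sub_comm, add_sub_cancel_left, abs_of_nonneg hk4]
        exact hnδ
      · push_cast
        rw [Path.extend_apply _ hm1]
        exact hnear _
  have := key n le_rfl y p fun t => by
    rw [div_self hn0.ne', one_mul, Path.extend_apply _ t.2]
  rw [div_self hn0.ne', Path.extend_one] at this
  exact this

end X779

end Vale.Agent.P216.H949
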