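import Vale.Agent.P216.H494.CritLoop

/-!
# P216, rows RA and RB (separation of circles of closed geodesics, periods)
-/

set_option linter.all false

open Set Topology Metric

namespace Vale.Agent.P216.H949

open Vale.Agent.P216.L250 Vale.Agent.P216.H494

section
variable {M : Type} [MetricSpace M] {G : GeoList M} {e a : ℝ}

/-- the circle of the closed geodesic `j` with orientation `e` and length `a` -/
def SS (G : GeoList M) (e a : ℝ) (j : G.ι) : Set (LM M) :=
  {g | ∃ b : ℝ, ∀ t, fn g t = G.c j (e * a * t + b)}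

theorem isCompact_SS (he : e = 1 ∨ e = -1) (ha : 0 < a) (j : G.ι) : IsCompact (SS G e a j) := by
  by_cases hper : Function.Periodic (G.c j) a
  · have hper' : ∀ b : ℝ, Function.Periodic (fun t => G.c j (e * a * t + b)) 1 := by
      intro b t
      show G.c j (e * a * (t + 1) + b) = _
      rcases he with rfl | rfl
      · rw [show (1 : ℝ) * a * (t + 1) + b = 1 * a * t + b + a by ring, hper]
      · rw [show (-1 : ℝ) * a * (t + 1) + b = -1 * a * t + b - a by ring, hper.sub_eq]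
    have hcont : ∀ b : ℝ, Continuous (fun t => G.c j (e * a * t + b)) := fun b =>
      (G.continuous_c j).comp (by fun_prop)
    let F : ℝ → LM M := fun b => ofFn _ (hcont b) (hper' b)
    have hF : LipschitzWith 1 F := by
      refine LipschitzWith.of_dist_le_mul fun b b' => ?_
      rw [NNReal.coe_one, one_mul, dist_le_iff dist_nonneg]
      intro t
      rw [fn_ofFn, fn_ofFn]
      refine (G.dist_le j _ _).trans (le_of_eq ?_)
      rw [Real.dist_eq]
      congr 1
      ring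
    have h2 : SS G e a j = F '' Icc 0 (G.ℓ j) := by
      ext g
      constructor
      · rintro ⟨b, hb⟩
        have hℓ := G.ℓ_pos j
        refine ⟨b - ⌊b / G.ℓ j⌋ * G.ℓ j, ⟨?_, ?_⟩, ?_⟩
        · have := Int.floor_le (b / G.ℓ j)
          rw [le_div_iff₀ hℓ] at this
          linarith
        · have := (Int.lt_floor_add_one (b / G.ℓ j)).le
          rw [div_le_iff₀ hℓ] at this
          linarith
        · refine ext_fn fun t => ?_
          rw [hb, fn_ofFn]
          rw [show e * a * t + (b - ⌊b / G.ℓ j⌋ * G.ℓ j) = e * a * t + b - ⌊b / G.ℓ j⌋ * G.ℓ j by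
            ring]
          exact (G.per j).sub_int_mul_eq _
      · rintro ⟨b, -, rfl⟩
        exact ⟨b, fun t => fn_ofFn _ _ _ t⟩
    rw [h2]
    exact isCompact_Icc.image hF.continuous
  · convert isCompact_empty (X := LM M) using 1
    rw [eq_empty_iff_forall_notMem]
    rintro g ⟨b, hb⟩
    apply hper
    have := KK_period he ha hb (r := 1) fun t => fn_periodic g t
    rwa [mul_one] at this

theorem SS_orbit (he : e = 1 ∨ e = -1) (ha : 0 < a) {j : G.ι} {g z : LM M}
    (hg : g ∈ SS G e a j) (hz : z ∈ SS G e a j) : ∃ θ, z = rot θ g := by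
  obtain ⟨b, hb⟩ := hg
  obtain ⟨b', hb'⟩ := hz
  have hea : e * a ≠ 0 := by
    rcases he with rfl | rfl
    · simpa using ha.ne'
    · simpa using ha.ne'
  refine ⟨(b' - b) / (e * a), ext_fn fun t => ?_⟩
  rw [fn_rot, hb, hb']
  congr 1
  rw [mul_add, mul_div_cancel₀ _ hea]
  ring

theorem SS_rot {j : G.ι} {g : LM M} (hg : g ∈ SS G e a j) (r : ℝ) : rot r g ∈ SS G e a j := by
  obtain ⟨b, h⟩ := hg
  refine ⟨e * a * r + b, fun t => ?_⟩
  rw [fn_rot, h]
  congr 1
  ring

theorem exists_sep (e e' : ℝ) (he : e = 1 ∨ e = -1) (he' : e' = 1 ∨ e' = -1) (ha : 0 < a)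
    (j j' : G.ι) {g : LM M} (hg : g ∈ SS G e a j) :
    ∃ ε > 0, ∀ z ∈ SS G e' a j', ∀ θ : ℝ, dist z (rot θ g) < ε → ∃ θ', z = rot θ' g := by
  by_cases hd : Disjoint (SS G e' a j') (SS G e a j)
  · obtain ⟨δ, hδ, h⟩ := hd.exists_thickenings (isCompact_SS he' ha j')
      (isCompact_SS he ha j).isClosed
    refine ⟨δ, hδ, fun z hz θ hlt => ?_⟩
    exact absurd (mem_thickening_iff.2 ⟨rot θ g, SS_rot hg θ, hlt⟩)
      (Set.disjoint_left.1 h (self_subset_thickening hδ _ hz))
  · obtain ⟨x, hx, hx'⟩ := Set.not_disjoint_iff.1 hd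
    refine ⟨1, one_pos, fun z hz θ _ => ?_⟩
    obtain ⟨θ₁, h₁⟩ := SS_orbit he' ha hx hz
    obtain ⟨θ₂, h₂⟩ := SS_orbit he ha hg hx'
    exact ⟨θ₁ + θ₂, by rw [h₁, h₂, rot_rot]⟩

theorem rA_core (ha : 0 < a) (g : LM M) (hg : g ∈ G.KK 1 a ∪ G.KK (-1) a) :
    ∃ ε > 0, ∀ z ∈ G.KK 1 a ∪ G.KK (-1) a, ∀ θ : ℝ, dist z (rot θ g) < ε → ∃ θ', z = rot θ' g := by
  obtain ⟨e, he, j, hj⟩ : ∃ e : ℝ, (e = 1 ∨ e = -1) ∧ ∃ j, g ∈ SS G e a j := by
    rcases hg with ⟨j, hj⟩ | ⟨j, hj⟩
    · exact ⟨1, Or.inl rfl, j, hj⟩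
    · exact ⟨-1, Or.inr rfl, j, hj⟩
  haveI := G.fin
  have key : ∀ p : G.ι × Bool, ∃ ε > 0, ∀ z ∈ SS G (if p.2 then 1 else -1) a p.1, ∀ θ : ℝ,
      dist z (rot θ g) < ε → ∃ θ', z = rot θ' g := fun p =>
    exists_sep e _ he (by cases p.2 <;> simp) ha j p.1 hj
  choose ε hε H using key
  haveI : Nonempty (G.ι × Bool) := ⟨(j, true)⟩
  obtain ⟨p₀, hp₀⟩ := Finite.exists_min ε
  refine ⟨ε p₀, hε p₀, fun z hz θ hlt => ?_⟩
  rcases hz with ⟨i, hi⟩ | ⟨i, hi⟩
  · exact H (i, true) z (by simpa [SS] using hi) θ (hlt.trans_le (hp₀ _))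
  · exact H (i, false) z (by simpa [SS] using hi) θ (hlt.trans_le (hp₀ _))

theorem continuous_rot (g : LM M) : Continuous fun x : ℝ => rot x g := by
  refine ContinuousMap.continuous_of_continuous_uncurry _ ?_
  have : Continuous fun p : ℝ × AddCircle (1 : ℝ) => g (p.2 + (p.1 : AddCircle (1 : ℝ))) :=
    g.continuous.comp (continuous_snd.add ((AddCircle.continuous_mk' 1).comp continuous_fst))
  exact this

theorem rot_int (n : ℤ) (g : LM M) : rot (n : ℝ) g = g := ext_fn fun t => by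
  rw [fn_rot]
  simpa using (fn_periodic g).int_mul n t

theorem rB_core (g : LM M) (η : ℝ) (hη : 0 < η) : ∃ ε > 0, ∀ u v : ℝ,
    dist (rot u g) (rot v g) < ε → ∃ w, rot w g = rot v g ∧ |u - w| < η := by
  set K : Set ℝ := {x | x ∈ Icc (0 : ℝ) 1 ∧ ∀ p, rot p g = g → η ≤ |x - p|} with hK
  have hKc : IsCompact K := by
    have h1 : K = Icc (0 : ℝ) 1 ∩ ⋂ (p : ℝ) (_ : rot p g = g), {x | η ≤ |x - p|} := by
      ext x
      simp [hK]
    rw [h1]
    refine isCompact_Icc.inter_right (isClosed_iInter fun p => isClosed_iInter fun _ => ?_)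
    exact isClosed_le continuous_const (by fun_prop)
  have hf : Continuous fun x : ℝ => dist g (rot x g) := continuous_const.dist (continuous_rot g)
  obtain ⟨ε, hε, H⟩ : ∃ ε > 0, ∀ x ∈ K, ε ≤ dist g (rot x g) := by
    rcases K.eq_empty_or_nonempty with h0 | hne
    · exact ⟨1, one_pos, fun x hx => by rw [h0] at hx; exact hx.elim⟩
    · obtain ⟨x₀, hx₀, hmin⟩ := hKc.exists_isMinOn hne hf.continuousOn
      refine ⟨dist g (rot x₀ g), ?_, fun x hx => hmin hx⟩
      refine dist_pos.2 fun h => ?_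
      have := hx₀.2 x₀ h.symm
      rw [sub_self, abs_zero] at this
      linarith
  refine ⟨ε, hε, fun u v huv => ?_⟩
  set n : ℤ := ⌊u - v⌋ with hn
  have h1 : dist g (rot (u - v - n) g) < ε := by
    have h2 : rot (u - v) g = rot (u - v - n) g := by
      conv_lhs => rw [show u - v = (u - v - n) + n by ring]
      rw [← rot_rot, rot_int]
    rw [← h2, dist_comm]
    have h3 := (isometry_rot (M := M) v).dist_eq (rot (u - v) g) g
    rw [rot_rot, show v + (u - v) = u by ring] at h3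
    rw [← h3]
    exact huv
  have h4 : (u - v - n) ∉ K := fun h => absurd (H _ h) (not_le.2 h1)
  have h5 : (u - v - n) ∈ Icc (0 : ℝ) 1 :=
    ⟨by linarith [Int.floor_le (u - v)], by linarith [Int.lt_floor_add_one (u - v)]⟩
  have h6 : ∃ p, rot p g = g ∧ |u - v - n - p| < η := by
    by_contra hcon
    push Not at hcon
    exact h4 ⟨h5, hcon⟩
  obtain ⟨p, hp, hlt⟩ := h6
  refine ⟨v + (n + p), ?_, ?_⟩
  · rw [← rot_rot, ← rot_rot, hp, rot_int]
  · rw [show u - (v + (n + p)) = u - v - n - p by ring]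
    exact hlt

end

end Vale.Agent.P216.H949
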