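import Vale.Agent.P216.H949.Spec
import Vale.Agent.P216.H949.RABCore

/-!
# P216, rows RA and RB
-/

set_option linter.all false

namespace Vale.Agent.P216.H949

theorem rA : RA := fun _ _ _ _ _ ha g hg => rA_core ha g hg

theorem rB : RB := fun _ _ g η hη => rB_core g η hη

end Vale.Agent.P216.H949
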