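import Vale.Agent.P216.H949.Spec
import Vale.Agent.P216.H494.Orbit

/-!
# P216, centralizers: the family (row RF)
-/

set_option linter.all false

open Set Topology unitInterval

namespace Vale.Agent.P216.H949

open Vale.Agent.P216.L250 Vale.Agent.P216.H494 Vale.Agent.P216.H971B
open Vale.Agent.P216.H126B (Q RQ pthN pw)
open Vale.Agent.P216.H250 (PF cat cat_of_le cat_of_lt cat_mem cat_assoc joinedIn_map)
open Path.Homotopic.Quotient (mk)

namespace RFx

variable {M : Type} [MetricSpace M]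

theorem tr_trans {T : ℝ} {x y z : M} {g g' g'' : LM M} {q : Q x y} {q' : Q y z}
    (h : Tr T g g' q) (h' : Tr T g' g'' q') : Tr T g g'' (q.trans q') := by
  obtain ⟨p, Γ, rfl, h1, h2⟩ := h
  obtain ⟨p', Γ', rfl, h1', h2'⟩ := h'
  refine ⟨p.trans p', Γ.trans Γ', Path.Homotopic.Quotient.mk_trans _ _, fun s => ?_, fun s => ?_⟩
  · rw [Path.trans_apply, Path.trans_apply]
    split_ifs
    · exact h1 _
    · exact h1' _
  · rw [Path.trans_apply]
    split_ifs
    · exact h2 _
    · exact h2' _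

variable {a b c : M} {R S V t t' A B T₁ : ℝ} {w w' x y v x' y' : ℝ → M}

/-- The path of a Moore path. -/
def pf (hw : w ∈ PF a b t) : Path a b where
  toFun s := w (s * t)
  continuous_toFun := (H250.PF.cont hw).comp (by fun_prop)
  source' := by
    show w (((0 : I) : ℝ) * t) = a
    rw [Set.Icc.coe_zero, zero_mul, H250.PF.zero hw]
  target' := by
    show w (((1 : I) : ℝ) * t) = b
    rw [Set.Icc.coe_one, one_mul, H250.PF.last hw]

theorem cat_add (hw : w ∈ PF a b t) (hw' : w' ∈ PF b c t') {u : ℝ} (hu : 0 ≤ u) :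
    cat t w w' (t + u) = w' u := by
  rcases hu.eq_or_lt with rfl | hu
  · rw [add_zero, cat_of_le le_rfl, H250.PF.last hw, H250.PF.zero hw']
  · rw [cat_of_lt (by linarith), add_sub_cancel_left]

theorem mk_cat (ht : 0 ≤ t) (ht' : 0 ≤ t') (hw : w ∈ PF a b t) (hw' : w' ∈ PF b c t') :
    mk (pf (cat_mem ht ht' hw hw')) = (mk (pf hw)).trans (mk (pf hw')) := by
  rw [← Path.Homotopic.Quotient.mk_trans, Path.Homotopic.Quotient.eq]
  let φ : Path (0 : ℝ) (t + t') := ⟨⟨fun s : I => (s : ℝ) * (t + t'), by fun_prop⟩, by simp, by simp⟩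
  let ψ₁ : Path (0 : ℝ) t := ⟨⟨fun s : I => (s : ℝ) * t, by fun_prop⟩, by simp, by simp⟩
  let ψ₂ : Path t (t + t') := ⟨⟨fun s : I => t + (s : ℝ) * t', by fun_prop⟩, by simp, by simp⟩
  refine H126B.line_homotopic ⟨cat t w w', H250.PF.cont (cat_mem ht ht' hw hw')⟩ _ _ φ
    (ψ₁.trans ψ₂) (fun s => rfl) fun s => ?_
  rw [Path.trans_apply, Path.trans_apply]
  split_ifs with hs
  · show w (_ * t) = cat t w w' (_ * t)
    rw [cat_of_le]
    exact mul_le_of_le_one_left ht (unitInterval.le_one _)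
  · show w' (_ * t') = cat t w w' (t + _ * t')
    rw [cat_add hw hw' (mul_nonneg (unitInterval.nonneg _) ht')]

section Compact

variable [CompactSpace M]

/-- The loop of a closed Moore path. -/
noncomputable def lo (R : ℝ) (f : ℝ → M) : LM M := MR.gM R (PS.mo f)

theorem fn_lo (hR : 0 ≤ R) (hw : w ∈ PF a a R) (τ : ℝ) : fn (lo R w) τ = w (R * Int.fract τ) := by
  rw [lo, MR.fn_gM hR (MV337.P_subset_FL (H250.mo_mem_P hw)), PS.Lip.mo_apply hw.1]

theorem fn_lo_Icc (hR : 0 ≤ R) (hw : w ∈ PF a a R) {τ : ℝ} (hτ : τ ∈ Icc (0 : ℝ) 1) :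
    fn (lo R w) τ = w (R * τ) := by
  rw [lo, MR.fn_gM_Icc hR (MV337.P_subset_FL (H250.mo_mem_P hw)) hτ, PS.Lip.mo_apply hw.1]

theorem lo_mem (hR : 0 ≤ R) (hw : w ∈ PF a a R) : lo R w ∈ XE M R :=
  MR.gM_mem hR (MV337.P_subset_FL (H250.mo_mem_P hw))

theorem tr_of_joinedIn (hR : 0 ≤ R) (h : JoinedIn (PF a a R) w w') :
    Tr R (lo R w) (lo R w') (Path.Homotopic.Quotient.refl a) := by
  obtain ⟨γ, hγ⟩ := h
  have hc : Continuous fun s => lo R (γ s) := by
    rw [← continuousOn_univ]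
    refine LS.continuousOn_of_pointwise hR (fun s _ => lo_mem hR (hγ s)) fun τ => ?_
    refine ContinuousOn.congr (f := fun s => γ s (R * Int.fract τ)) ?_ fun s _ => fn_lo hR (hγ s) τ
    exact ((continuous_apply _).comp γ.continuous).continuousOn
  refine ⟨Path.refl a, ⟨⟨fun s => lo R (γ s), hc⟩, by simp, by simp⟩, rfl, fun s => ?_,
    fun s => lo_mem hR (hγ s)⟩
  show a = fn (lo R (γ s)) 0
  rw [fn_lo hR (hγ s), Int.fract_zero, mul_zero, (hγ s).2.1 0 le_rfl]

theorem rot_lo (hS : 0 ≤ S) (hV : 0 ≤ V) (hR : 0 < S + V) (hw : w ∈ PF a b S) (hv : v ∈ PF b a V) :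
    rot (S / (S + V)) (lo (S + V) (cat S w v)) = lo (S + V) (cat V v w) := by
  have hW : cat S w v ∈ PF a a (S + V) := cat_mem hS hV hw hv
  have hW' : cat V v w ∈ PF b b (S + V) := by
    have := cat_mem hV hS hv hw
    rwa [add_comm] at this
  rw [← dist_le_zero]
  refine dist_le_of_Ico le_rfl fun t ht => ?_
  rw [fn_rot, fn_lo_Icc hR.le hW' ⟨ht.1, ht.2.le⟩, dist_le_zero]
  have hq0 : 0 ≤ S / (S + V) := by positivity
  have e0 : (S + V) * (t + S / (S + V)) = S + (S + V) * t := by field_simp; ring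
  have ht0 : 0 ≤ (S + V) * t := mul_nonneg hR.le ht.1
  have ht1 : (S + V) * t < S + V := by nlinarith [ht.2]
  rcases le_or_gt (t + S / (S + V)) 1 with h | h
  · rw [fn_lo_Icc hR.le hW ⟨add_nonneg ht.1 hq0, h⟩, e0, cat_add hw hv ht0, cat_of_le]
    have := mul_le_mul_of_nonneg_left h hR.le
    rw [e0] at this
    linarith
  · have e1 : fn (lo (S + V) (cat S w v)) (t + S / (S + V)) =
        fn (lo (S + V) (cat S w v)) (t + S / (S + V) - 1) := by
      have := fn_periodic (lo (S + V) (cat S w v)) (t + S / (S + V) - 1)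
      rwa [sub_add_cancel] at this
    have hq1 : S / (S + V) ≤ 1 := (div_le_one hR).2 (by linarith)
    rw [e1, fn_lo_Icc hR.le hW ⟨by linarith, by linarith [ht.2]⟩, mul_sub, e0, mul_one]
    have h2 := mul_lt_mul_of_pos_left h hR
    rw [e0, mul_one] at h2
    rw [cat_of_le (by linarith), cat_of_lt (by linarith)]
    congr 1
    ring

theorem tr_rot (hS : 0 ≤ S) (hV : 0 ≤ V) (hR : 0 < S + V) (hw : w ∈ PF a b S)
    (hv : v ∈ PF b a V) :
    Tr (S + V) (lo (S + V) (cat S w v)) (lo (S + V) (cat V v w)) (mk (pf hw)) := by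
  have hW : cat S w v ∈ PF a a (S + V) := cat_mem hS hV hw hv
  have hc := continuous_rot_of_mem hR.le (lo_mem hR.le hW)
  have e := rot_lo hS hV hR hw hv
  refine ⟨pf hw, ⟨⟨fun s : I => rot ((s : ℝ) * (S / (S + V))) (lo (S + V) (cat S w v)),
    hc.comp (by fun_prop)⟩, by simp, by simpa using e⟩, rfl, fun s => ?_,
    fun s => rot_mem (lo_mem hR.le hW) _⟩
  show w (s * S) = fn (rot ((s : ℝ) * (S / (S + V))) (lo (S + V) (cat S w v))) 0
  have hs0 := s.2.1
  have hs1 := s.2.2
  have hq0 : 0 ≤ S / (S + V) := by positivity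
  have hq1 : S / (S + V) ≤ 1 := (div_le_one hR).2 (by linarith)
  rw [fn_rot, zero_add, fn_lo_Icc hR.le hW ⟨mul_nonneg hs0 hq0, mul_le_one₀ hs1 hq0 hq1⟩]
  have e1 : (S + V) * ((s : ℝ) * (S / (S + V))) = s * S := by field_simp
  rw [e1, cat_of_le (mul_le_of_le_one_left hS hs1)]

/-- Two pairs of closed paths exchanged by `w` up to `T₁`. -/
theorem swap_add (hS : 0 ≤ S) (hA : 0 ≤ A) (hB : 0 ≤ B) (hT : S ≤ T₁) (hw : w ∈ PF a b S)
    (hx : x ∈ PF a a A) (hx' : x' ∈ PF b b A) (hy : y ∈ PF a a B) (hy' : y' ∈ PF b b B)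
    (h1 : JoinedIn (PF a b (A + T₁)) (cat A x w) (cat S w x'))
    (h2 : JoinedIn (PF a b (B + T₁)) (cat B y w) (cat S w y')) :
    JoinedIn (PF a b (A + B + T₁)) (cat (A + B) (cat A x y) w) (cat S w (cat A x' y')) := by
  rw [cat_assoc hB]
  have j1 : JoinedIn (PF a b (A + (B + T₁))) (cat A x (cat B y w)) (cat A x (cat S w y')) :=
    H250.JI.cat_right hA (by linarith) hx h2
  rw [← cat_assoc (w := x) (w' := w) (w'' := y') hS] at j1
  have j2 : JoinedIn (PF a b (A + T₁ + B)) (cat (A + S) (cat A x w) y')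
      (cat (A + T₁) (cat A x w) y') :=
    H250.JI.wait (by linarith) (by linarith) hB (cat_mem hA hS hx hw) hy'
  have j3 : JoinedIn (PF a b (A + T₁ + B)) (cat (A + T₁) (cat A x w) y')
      (cat (A + T₁) (cat S w x') y') := H250.JI.cat_left (by linarith) hB h1 hy'
  have j4 : JoinedIn (PF a b (A + T₁ + B)) (cat (S + A) (cat S w x') y')
      (cat (A + T₁) (cat S w x') y') :=
    H250.JI.wait (by linarith) (by linarith) hB (cat_mem hS hA hw hx') hy'
  rw [cat_assoc hA] at j4
  rw [show A + (B + T₁) = A + B + T₁ by ring] at j1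
  rw [show A + T₁ + B = A + B + T₁ by ring] at j2 j3 j4
  exact ((j1.trans j2).trans j3).trans j4.symm

theorem cat_cst (hx : x ∈ PF a b A) : cat A x (fun _ => b) = x := by
  funext u
  rcases le_or_gt u A with h | h
  · rw [cat_of_le h]
  · rw [cat_of_lt h, hx.2.2 u h.le]

/-- The path of loops from `x` to `x'` with base point path `w`. -/
theorem tr_swap (hS : 0 < S) (hA : 0 ≤ A) (hT : S ≤ T₁) (hw : w ∈ PF a b S)
    (hx : x ∈ PF a a A) (hx' : x' ∈ PF b b A)
    (h1 : JoinedIn (PF a b (A + T₁)) (cat A x w) (cat S w x')) :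
    Tr (A + T₁ + S) (lo (A + T₁ + S) x) (lo (A + T₁ + S) x') (mk (pf hw)) := by
  set r := H250.rev S w with hrdef
  have hr : r ∈ PF b a S := H250.rev_mem hw
  have hrr : H250.rev S r = w := by
    funext u
    show w (S - (S - u)) = w u
    rw [sub_sub_cancel]
  have s1 : JoinedIn (PF a a (S + S)) (fun _ => a) (cat S w r) := by
    have := H250.JI.spur hS.le hr
    rwa [hrr] at this
  have s2 : JoinedIn (PF b b (S + S)) (fun _ => b) (cat S r w) := H250.JI.spur hS.le hw
  have j1 : JoinedIn (PF a a (A + T₁ + S)) x (cat (A + S) (cat A x w) r) := by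
    have := H250.JI.cat_right hA (by linarith) hx s1
    rw [cat_cst hx, ← cat_assoc hS.le] at this
    exact this.mono (H250.PF.mono (by linarith))
  have j2 : JoinedIn (PF a a (A + T₁ + S)) (cat (A + S) (cat A x w) r)
      (cat (A + T₁) (cat A x w) r) :=
    H250.JI.wait (by linarith) (by linarith) hS.le (cat_mem hA hS.le hx hw) hr
  have j3 : JoinedIn (PF a a (A + T₁ + S)) (cat (A + T₁) (cat A x w) r)
      (cat (A + T₁) (cat S w x') r) := H250.JI.cat_left (by linarith) hS.le h1 hr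
  have j4 : JoinedIn (PF a a (A + T₁ + S)) (cat (S + A) (cat S w x') r)
      (cat (A + T₁) (cat S w x') r) :=
    H250.JI.wait (by linarith) (by linarith) hS.le (cat_mem hS.le hA hw hx') hr
  rw [cat_assoc hA] at j4
  have first := ((j1.trans j2).trans j3).trans j4.symm
  have hV0 := cat_mem hA hS.le hx' hr
  have hV : cat A x' r ∈ PF b a (A + T₁) := H250.PF.mono (by linarith) hV0
  have k1 : JoinedIn (PF b b (A + T₁ + S)) (cat (A + S) (cat A x' r) w)
      (cat (A + T₁) (cat A x' r) w) :=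
    H250.JI.wait (by linarith) (by linarith) hS.le hV0 hw
  have k2 : JoinedIn (PF b b (A + T₁ + S)) x' (cat (A + S) (cat A x' r) w) := by
    have := H250.JI.cat_right hA (by linarith) hx' s2
    rw [cat_cst hx', ← cat_assoc hS.le] at this
    exact this.mono (H250.PF.mono (by linarith))
  have last := (k2.trans k1).symm
  have hR : 0 ≤ A + T₁ + S := by linarith
  have mid := tr_rot hS.le (show 0 ≤ A + T₁ by linarith) (by linarith) hw hV
  rw [show S + (A + T₁) = A + T₁ + S by ring] at mid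
  have := tr_trans (tr_of_joinedIn hR first) (tr_trans mid (tr_of_joinedIn hR last))
  rwa [Path.Homotopic.Quotient.trans_refl, Path.Homotopic.Quotient.refl_trans] at this

end Compact

/-! ### The Moore path of an iterate -/

/-- The iterate of `c` as a Moore path. -/
noncomputable def cw (c : LM M) (L : ℝ) (m : ℕ) (u : ℝ) : M := fn c (max 0 (min (m : ℝ) (u / L)))

variable {c : LM M} {L : ℝ}

theorem cw_mem (hL : 0 < L) (hc : ∀ s t : ℝ, dist (fn c s) (fn c t) ≤ L * |s - t|) (m : ℕ) :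
    cw c L m ∈ PF (fn c 0) (fn c 0) (m * L) := by
  refine ⟨fun u v => (hc _ _).trans ?_, fun u hu => ?_, fun u hu => ?_⟩
  · have h1 : |max 0 (min (m : ℝ) (u / L)) - max 0 (min (m : ℝ) (v / L))| ≤ |u / L - v / L| := by
      refine (abs_max_sub_max_le_max _ _ _ _).trans ?_
      simp only [sub_self, abs_zero]
      refine max_le (abs_nonneg _) ((abs_min_sub_min_le_max _ _ _ _).trans ?_)
      simp
    calc L * |max 0 (min (m : ℝ) (u / L)) - max 0 (min (m : ℝ) (v / L))| ≤ L * |u / L - v / L| :=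
          mul_le_mul_of_nonneg_left h1 hL.le
      _ = |u - v| := by
          rw [← sub_div, abs_div, abs_of_pos hL]
          field_simp
  · show fn c (max 0 (min (m : ℝ) (u / L))) = fn c 0
    rw [max_eq_left ((min_le_right _ _).trans (div_nonpos_of_nonpos_of_nonneg hu hL.le))]
  · show fn c (max 0 (min (m : ℝ) (u / L))) = fn c 0
    rw [min_eq_left ((le_div_iff₀ hL).2 hu), max_eq_right (Nat.cast_nonneg m)]
    have := (fn_periodic c).nat_mul_eq m
    simpa using this

theorem cw_apply (hL : 0 < L) (m : ℕ) {t : ℝ} (ht : t ∈ Icc (0 : ℝ) 1) :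
    cw c L m (t * (m * L)) = fn c (m * t) := by
  have h0 : (0 : ℝ) ≤ m := Nat.cast_nonneg m
  show fn c (max 0 (min (m : ℝ) (t * (m * L) / L))) = _
  rw [show t * (m * L) / L = m * t by field_simp, min_eq_right (mul_le_of_le_one_right h0 ht.2),
    max_eq_right (mul_nonneg h0 ht.1)]

theorem cw_add (hL : 0 < L) (m m' : ℕ) :
    cw c L (m + m') = cat (m * L) (cw c L m) (cw c L m') := by
  funext u
  have h0 : (0 : ℝ) ≤ m := Nat.cast_nonneg m
  have h0' : (0 : ℝ) ≤ m' := Nat.cast_nonneg m'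
  rcases le_or_gt u (m * L) with h | h
  · have h1 : u / L ≤ m := (div_le_iff₀ hL).2 h
    rw [cat_of_le h]
    show fn c (max 0 (min (((m + m' : ℕ)) : ℝ) (u / L))) = fn c (max 0 (min (m : ℝ) (u / L)))
    rw [min_eq_right h1, min_eq_right (by push_cast; linarith)]
  · have h1 : m < u / L := (lt_div_iff₀ hL).2 h
    rw [cat_of_lt h]
    show fn c (max 0 (min (((m + m' : ℕ)) : ℝ) (u / L))) =
      fn c (max 0 (min (m' : ℝ) ((u - m * L) / L)))
    have e : (u - m * L) / L = u / L - m := by field_simp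
    rw [e, max_eq_right (le_min (Nat.cast_nonneg _) (by linarith)),
      max_eq_right (le_min h0' (by linarith))]
    have h2 : min (((m + m' : ℕ)) : ℝ) (u / L) = min (m' : ℝ) (u / L - m) + m := by
      rw [← min_add_add_right, sub_add_cancel]
      push_cast
      rw [add_comm]
    rw [h2]
    have := (fn_periodic c).nat_mul m (min (m' : ℝ) (u / L - m))
    simpa using this

theorem lo_cw [CompactSpace M] (hL : 0 < L)
    (hc : ∀ s t : ℝ, dist (fn c s) (fn c t) ≤ L * |s - t|) (m : ℕ) (hR : 0 < R) (h : m * L ≤ R) :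
    lo R (fun u => cw c L m (u * ((m * L) / R))) = iter m c := by
  have hm := (H250.JI.slow (by positivity) h hR (cw_mem hL hc m)).target_mem
  rw [← dist_le_zero]
  refine dist_le_of_Ico le_rfl fun t ht => ?_
  rw [fn_iter, fn_lo_Icc hR.le hm ⟨ht.1, ht.2.le⟩, dist_le_zero, ← cw_apply hL m ⟨ht.1, ht.2.le⟩]
  show cw c L m (R * t * ((m * L) / R)) = _
  congr 1
  field_simp

end RFx

open RFx in
/-- **The family, for two loops**: `β` exchanges the classes of `c ^ k` and `c' ^ k`. -/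
theorem rF' (M : Type) [MetricSpace M] [CompactSpace M] (ρ : ℝ) (hρ : 0 < ρ)
    (hU : LS.UniqSeg M ρ) (c c' : LM M) (L : ℝ) (hL : 0 < L)
    (hc : ∀ s t : ℝ, dist (fn c s) (fn c t) ≤ L * |s - t|)
    (hc' : ∀ s t : ℝ, dist (fn c' s) (fn c' t) ≤ L * |s - t|) (k : ℕ) (hk : 1 ≤ k)
    (β : Q (fn c 0) (fn c' 0)) (hβ : (mk (pthN c k)).trans β = β.trans (mk (pthN c' k))) :
    ∃ C : ℝ, 0 ≤ C ∧ ∀ j : ℕ, 1 ≤ j →
      Tr (((k * j : ℕ) : ℝ) * L + C) (iter (k * j) c) (iter (k * j) c') β := by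
  obtain ⟨S₀, hS₀, hR₀⟩ := H126B.exists_RQ hρ hU β
  obtain ⟨p, hp, hl⟩ := hR₀.mono (show S₀ ≤ S₀ + 1 by linarith)
  obtain ⟨S, hSdef⟩ : ∃ S, S = S₀ + 1 := ⟨_, rfl⟩
  rw [← hSdef] at hl
  have hS : 0 < S := by linarith
  -- the Moore path of `β`
  have hb : (fun u => p.extend (u / S)) ∈ PF (fn c 0) (fn c' 0) S := by
    refine ⟨fun u v => ?_, fun u hu => ?_, fun u hu => ?_⟩
    · show dist (p (projIcc 0 1 zero_le_one (u / S))) (p (projIcc 0 1 zero_le_one (v / S))) ≤ _
      refine (hl _ _).trans ?_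
      have h1 := abs_projIcc_sub_projIcc (h := (zero_le_one : (0 : ℝ) ≤ 1)) (c := u / S) (d := v / S)
      calc S * _ ≤ S * |u / S - v / S| := mul_le_mul_of_nonneg_left h1 hS.le
        _ = |u - v| := by
            rw [← sub_div, abs_div, abs_of_pos hS]
            field_simp
    · exact Path.extend_of_le_zero _ (div_nonpos_of_nonpos_of_nonneg hu hS.le)
    · exact Path.extend_of_one_le _ ((one_le_div hS).2 hu)
  obtain ⟨b, hbdef⟩ : ∃ b : ℝ → M, b = fun u => p.extend (u / S) := ⟨_, rfl⟩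
  rw [← hbdef] at hb
  have hbp : mk (pf hb) = β := by
    rw [← hp]
    congr 1
    ext s
    show b (s * S) = p s
    rw [hbdef]
    show p.extend (s * S / S) = p s
    rw [mul_div_cancel_right₀ _ hS.ne', Path.extend_apply _ s.2]
  have hkp : ∀ m : ℕ, mk (pf (cw_mem hL hc m)) = mk (pthN c m) := by
    intro m
    congr 1
    ext s
    exact cw_apply hL m s.2
  have hkp' : ∀ m : ℕ, mk (pf (cw_mem hL hc' m)) = mk (pthN c' m) := by
    intro m
    congr 1
    ext s
    exact cw_apply hL m s.2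
  have hkL : (0 : ℝ) ≤ k * L := by positivity
  -- one swap
  obtain ⟨T, hT, hj⟩ := H215.Z10c.joined_of_homotopy (t := k * L + S) hρ hU (by positivity)
    (cat_mem hkL hS.le (cw_mem hL hc k) hb)
    (by have := cat_mem hS.le hkL hb (cw_mem hL hc' k); rwa [add_comm] at this)
    (γ := pf (cat_mem hkL hS.le (cw_mem hL hc k) hb))
    (γ' := pf (cat_mem hS.le hkL hb (cw_mem hL hc' k))) (fun _ => rfl)
    (fun s => by
      show cat S b (cw c' L k) (s * (S + k * L)) = cat S b (cw c' L k) (s * (k * L + S))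
      rw [add_comm]) (by
      rw [← Path.Homotopic.Quotient.eq]
      have e1 := mk_cat hkL hS.le (cw_mem hL hc k) hb
      have e2 := mk_cat hS.le hkL hb (cw_mem hL hc' k)
      rw [hkp, hbp] at e1
      rw [hkp', hbp] at e2
      exact e1.trans (hβ.trans e2.symm))
  obtain ⟨T₁, hT₁⟩ : ∃ T₁, T₁ = T - k * L := ⟨_, rfl⟩
  have hT1S : S ≤ T₁ := by linarith
  rw [show T = k * L + T₁ by linarith] at hj
  -- all swaps
  have hall : ∀ j : ℕ, JoinedIn (PF (fn c 0) (fn c' 0) (((k * (j + 1) : ℕ) : ℝ) * L + T₁))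
      (cat (((k * (j + 1) : ℕ) : ℝ) * L) (cw c L (k * (j + 1))) b)
      (cat S b (cw c' L (k * (j + 1)))) := by
    intro j
    induction j with
    | zero => simpa using hj
    | succ j ih =>
      have h1 := swap_add hS.le hkL (by positivity) hT1S hb (cw_mem hL hc k) (cw_mem hL hc' k)
        (cw_mem hL hc (k * (j + 1))) (cw_mem hL hc' (k * (j + 1))) hj ih
      rw [← cw_add hL, ← cw_add hL] at h1
      have e : k * (j + 1 + 1) = k + k * (j + 1) := by ring
      have e' : ((k + k * (j + 1) : ℕ) : ℝ) * L = k * L + ((k * (j + 1) : ℕ) : ℝ) * L := by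
        push_cast
        ring
      rw [e, e']
      exact h1
  refine ⟨T₁ + S, by linarith, fun j hj1 => ?_⟩
  obtain ⟨j, rfl⟩ : ∃ i, j = i + 1 := ⟨j - 1, by omega⟩
  obtain ⟨m, hm⟩ : ∃ m, m = k * (j + 1) := ⟨_, rfl⟩
  have h1 := hall j
  rw [← hm] at h1 ⊢
  have hmL : (0 : ℝ) ≤ m * L := by positivity
  have hR : 0 < m * L + T₁ + S := by linarith
  have h2 := tr_swap hS hmL hT1S hb (cw_mem hL hc m) (cw_mem hL hc' m) h1
  have h3 := tr_of_joinedIn hR.le (H250.JI.slow hmL (by linarith) hR (cw_mem hL hc' m))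
  have h4 := tr_of_joinedIn hR.le (H250.JI.slow hmL (by linarith) hR (cw_mem hL hc m)).symm
  rw [lo_cw hL hc' m hR (by linarith)] at h3
  rw [lo_cw hL hc m hR (by linarith)] at h4
  have h5 := tr_trans h4 (tr_trans h2 h3)
  rw [Path.Homotopic.Quotient.trans_refl, Path.Homotopic.Quotient.refl_trans, hbp] at h5
  rw [← add_assoc]
  exact h5

theorem rF : RF := fun M _ _ ρ hρ hU c L hL hc k hk β hβ => rF' M ρ hρ hU c c L hL hc hc k hk β hβ

end Vale.Agent.P216.H949
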