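import Vale.Agent.P216.H949.Core
import Vale.Agent.P216.H949.RAB
import Vale.Agent.P216.H949.H779RCD
import Vale.Agent.P216.H949.RF

/-!
# P216, centralizers: all rows
-/

namespace Vale.Agent.P216.H949

theorem rE_all : RE := rE rA (X779.rC rB) (X779.rD rB)

end Vale.Agent.P216.H949
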