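import Vale.Agent.P216.H923B2.R1abs

/-!
# P216, centralizers: the arithmetic of lengths and classes, for every sharp index
-/

set_option linter.all false

namespace Vale.Agent.P216.H949.R1Sabs

open Vale.Agent.P216.H923B2.R1abs

variable {ι Ω : Type} [Finite ι]

/-- All but finitely many classes are classes of iterates of a sharp index. -/
theorem pigeon_all (o : Ω) (cl : ι → ℕ → Ω) (l : ι → ℝ) (mu : Ω → ℝ)
    (h1 : ∀ ω, ω ≠ o → ∃ i m, 1 ≤ m ∧ cl i m = ω ∧ mu ω = m * l i) :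
    {ω : Ω | ∀ i, {m : ℕ | 1 ≤ m ∧ mu (cl i m) = m * l i}.Infinite → ∀ m, 1 ≤ m →
      cl i m ≠ ω}.Finite := by
  have hfin : (⋃ j : ι, {ω : Ω | {m : ℕ | 1 ≤ m ∧ mu (cl j m) = m * l j}.Finite ∧
      ∃ m, (1 ≤ m ∧ mu (cl j m) = m * l j) ∧ cl j m = ω}).Finite := by
    refine Set.finite_iUnion fun j => ?_
    by_cases h : {m : ℕ | 1 ≤ m ∧ mu (cl j m) = m * l j}.Finite
    · refine (h.image (cl j)).subset ?_
      rintro ω ⟨-, m, hm, rfl⟩
      exact ⟨m, hm, rfl⟩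
    · refine Set.finite_empty.subset ?_
      rintro ω ⟨h', -⟩
      exact h h'
  refine (hfin.union (Set.finite_singleton o)).subset ?_
  intro ω hω
  by_cases h : ω = o
  · exact Or.inr h
  · left
    obtain ⟨i, m, hm, hcl, hmu⟩ := h1 ω h
    refine Set.mem_iUnion.2 ⟨i, ?_, m, ⟨hm, by rw [hcl, hmu]⟩, hcl⟩
    by_contra hcon
    exact hω i hcon m hm hcl

/-- **The arithmetic half of R1**, for every sharp index. -/
theorem r1_all (cl : ι → ℕ → Ω) (l : ι → ℝ) (mu : Ω → ℝ)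
    (hl : ∀ i, 0 < l i)
    (h2 : ∀ i m, 1 ≤ m → mu (cl i m) ≤ m * l i)
    (h3 : ∀ i m, 1 ≤ m → ∀ r, ∃ C : ℝ, ∀ q : ℕ, mu (cl i (q * m + r)) ≤ q * mu (cl i m) + C)
    (h4 : ∀ i j m n, 1 ≤ m → 1 ≤ n → cl i m = cl j n → ∀ k, 1 ≤ k →
      cl i (k * m) = cl j (k * n))
    (i : ι) (hi : {m : ℕ | 1 ≤ m ∧ mu (cl i m) = m * l i}.Infinite) :
    (∀ m, 1 ≤ m → mu (cl i m) = m * l i) ∧ ∀ C : ℝ, ∃ m0 : ℕ, ∀ m ≥ m0, 1 ≤ m →
      ∀ j n, 1 ≤ n → cl j n = cl i m → n * l j ≤ m * l i ∨ m * l i + C < n * l j := by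
  have hsh := sharp cl l mu hl h2 h3 i hi
  refine ⟨hsh, fun C => ?_⟩
  -- for each `j` a bound
  have key : ∀ j, ∃ m0 : ℕ, ∀ m ≥ m0, 1 ≤ m → ∀ n, 1 ≤ n → cl j n = cl i m →
      n * l j ≤ m * l i ∨ m * l i + C < n * l j := by
    intro j
    by_cases hex : ∃ m n, 1 ≤ m ∧ 1 ≤ n ∧ cl j n = cl i m ∧ (m : ℝ) * l i < n * l j
    · obtain ⟨a, b, ha, hb, hab, hlt⟩ := hex
      -- ratio
      have ha0 : (0 : ℝ) < a := by exact_mod_cast ha
      have hb0 : (0 : ℝ) < b := by exact_mod_cast hb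
      set δ : ℝ := (b * l j - a * l i) / a with hδ
      have hδ0 : 0 < δ := div_pos (by linarith) ha0
      obtain ⟨m0, hm0⟩ := exists_nat_gt (C / δ)
      refine ⟨m0, fun m hm hm1 n hn hnm => Or.inr ?_⟩
      have e1 : cl i (n * a) = cl j (n * b) := h4 i j a b ha hb hab.symm n hn
      have e2 : cl j (b * n) = cl i (b * m) := h4 j i n m hn hm1 hnm b hb
      have e3 : cl i (n * a) = cl i (b * m) := by rw [e1, ← e2, mul_comm]
      have e4 := hsh (n * a) (Nat.one_le_iff_ne_zero.2 (by positivity))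
      have e5 := hsh (b * m) (Nat.one_le_iff_ne_zero.2 (by positivity))
      rw [e3, e5] at e4
      have e6 : ((b * m : ℕ) : ℝ) = ((n * a : ℕ) : ℝ) := mul_right_cancel₀ (hl i).ne' e4
      push_cast at e6
      -- `n = b m / a`
      have e7 : (n : ℝ) = b * m / a := by
        rw [eq_div_iff ha0.ne']
        exact e6.symm
      have e8 : (n : ℝ) * l j = m * l i + m * δ := by
        rw [e7, hδ]
        field_simp
        ring
      rw [e8]
      have e9 : C < m0 * δ := by rwa [div_lt_iff₀ hδ0] at hm0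
      have e10 : (m0 : ℝ) * δ ≤ m * δ := by
        apply mul_le_mul_of_nonneg_right _ hδ0.le
        exact_mod_cast hm
      linarith
    · refine ⟨0, fun m _ hm1 n hn hnm => Or.inl ?_⟩
      by_contra hlt
      push Not at hlt
      exact hex ⟨m, n, hm1, hn, hnm, hlt⟩
  choose m0 hm0 using key
  obtain ⟨K, hK⟩ := (Set.finite_range m0).bddAbove
  exact ⟨K, fun m hm hm1 j n hn hnm => hm0 j m ((hK (Set.mem_range_self j)).trans hm) hm1 n hn hnm⟩

end Vale.Agent.P216.H949.R1Sabs
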