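import Vale.Agent.P216.H923B2.R1
import Vale.Agent.P216.H949.R1Sabs

/-!
# P216, centralizers: all straight closed geodesics
-/

set_option linter.all false

open Set Filter Topology

namespace Vale.Agent.P216.H949

open Vale.Agent.P216.L250 Vale.Agent.P216.H494 Vale.Agent.P216.H971B Vale.Agent.P216.H923B2

variable {M : Type} [MetricSpace M]

/-- `c` is a straight closed geodesic of length `L`: all iterates are shortest in their classes, and
there is no closed geodesic of the class of `c ^ m` with length in `(m L, m L + C]`, `m` large. -/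
def Straight (G : GeoList M) (c : LM M) (L : ℝ) : Prop :=
  (∀ m : ℕ, 1 ≤ m → ∀ x, Joined x (iter m c) → ∀ T, 0 ≤ T → x ∈ XE M T → m * L ≤ T) ∧
    ∀ C : ℝ, ∃ m0 : ℕ, ∀ m ≥ m0, ∀ a : ℝ, m * L < a → a ≤ m * L + C →
      ∀ x ∈ Geo1 G a, ¬ Joined x (iter m c)

/-- **R1 for all straight geodesics of the list.** -/
theorem r1S_of [CompactSpace M] [PathConnectedSpace M] {ρ : ℝ} (hρ : 0 < ρ)
    (h : LS.UniqSeg M ρ) (G : GeoList M) (hC : CGoal M G) (hcb : ConjBound M)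
    (hfin : FinGoal M) :
    {ω : ZerothHomotopy (LM M) | ∀ i : G.ι, Straight G (gam G i true) (G.ℓ i) → ∀ (b : Bool)
      (m : ℕ), 1 ≤ m → (Quotient.mk _ (iter m (gam G i b)) : ZerothHomotopy (LM M)) ≠ ω}.Finite := by
  -- the classes
  let cls : LM M → ZerothHomotopy (LM M) := fun g => Quotient.mk _ g
  have hcls : ∀ g g' : LM M, cls g = cls g' ↔ Joined g g' := fun g g' => Quotient.eq
  -- the minimal length
  choose mu' hmu0 hmu1 hmu2 using fun c : LM M => V893.Dsc.exists_mu hρ h c (hfin c)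
  let mu : ZerothHomotopy (LM M) → ℝ := fun ω => mu' ω.out
  have hout : ∀ g : LM M, Joined (cls g).out g := fun g => (hcls _ _).1 (Quotient.out_eq _)
  have m0 : ∀ ω, 0 ≤ mu ω := fun ω => hmu0 _
  have m1 : ∀ g, ∃ x ∈ XE M (mu (cls g)), Joined x g := by
    intro g
    obtain ⟨x, hx, hj⟩ := hmu1 (cls g).out
    exact ⟨x, hx, hj.trans (hout g)⟩
  have m2 : ∀ g x, Joined x g → ∀ T, 0 ≤ T → x ∈ XE M T → mu (cls g) ≤ T := fun g x hx T hT hxT =>
    hmu2 _ x (hx.trans (hout g).symm) T hT hxT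
  obtain ⟨x₀⟩ := (inferInstance : Nonempty M)
  let o : ZerothHomotopy (LM M) := cls (ContinuousMap.const _ x₀)
  have hconst : (ContinuousMap.const (AddCircle (1 : ℝ)) x₀ : LM M) ∈ XE M 0 := by
    rw [mem_XE]
    refine ⟨fun _ => 0, fun s t hst => ?_, fun t => by simp⟩
    show dist x₀ x₀ ^ 2 ≤ _
    simp
  have := G.fin
  let cl : G.ι × Bool → ℕ → ZerothHomotopy (LM M) := fun i m => cls (iter m (gam G i.1 i.2))
  have hlip : ∀ (i : G.ι) (b : Bool) (n : ℕ) (s t : ℝ), dist (fn (iter n (gam G i b)) s)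
      (fn (iter n (gam G i b)) t) ≤ (n * G.ℓ i) * |s - t| := fun i b n s t =>
    KK_dist_le (sg_or b) (mul_nonneg n.cast_nonneg (G.ℓ_pos i).le) (iter_gam_mem_KK G i b n) s t
  have h1 : ∀ ω, ω ≠ o → ∃ i m, 1 ≤ m ∧ cl i m = ω ∧ mu ω = m * G.ℓ i.1 := by
    intro ω hω
    obtain ⟨c, rfl⟩ := Quotient.exists_rep ω
    have hpos : 0 < mu (cls c) := by
      rcases (m0 (cls c)).lt_or_eq with h1 | h1
      · exact h1
      · exfalso
        apply hω
        obtain ⟨x, hx, hj⟩ := m1 c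
        rw [← h1] at hx
        exact (hcls _ _).2 (hj.symm.trans (V893.Dsc.joined_of_XE_zero hx hconst))
    obtain ⟨i, b, n, hn, ha, hj⟩ := hC c (mu (cls c)) hpos (m1 c) fun x hx T hT hxT =>
      m2 c x hx T hT hxT
    exact ⟨(i, b), n, hn, (hcls _ _).2 hj, ha⟩
  have h2 : ∀ (i : G.ι × Bool) m, 1 ≤ m → mu (cl i m) ≤ m * G.ℓ i.1 := by
    intro i m hm
    exact m2 _ _ (Joined.refl _) _ (mul_nonneg m.cast_nonneg (G.ℓ_pos i.1).le)
      (iter_gam_mem_XE G i.1 i.2 m)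
  have h3 : ∀ (i : G.ι × Bool) m, 1 ≤ m → ∀ r, ∃ C : ℝ, ∀ q : ℕ,
      mu (cl i (q * m + r)) ≤ q * mu (cl i m) + C := by
    intro i m hm r
    -- a Lipschitz shortest loop
    obtain ⟨x, hxj, hxL⟩ : ∃ x : LM M, Joined x (iter m (gam G i.1 i.2)) ∧
        ∀ s t, dist (fn x s) (fn x t) ≤ mu (cl i m) * |s - t| := by
      rcases (m0 (cl i m)).lt_or_eq with h1 | h1
      · obtain ⟨j, b, n, hn, ha, hj⟩ := hC (iter m (gam G i.1 i.2)) _ h1
          (m1 _) fun x hx T hT hxT => m2 _ x hx T hT hxT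
        refine ⟨_, hj, fun s t => ?_⟩
        rw [ha]
        exact hlip j b n s t
      · obtain ⟨x, hx, hj⟩ := m1 (iter m (gam G i.1 i.2))
        refine ⟨x, hj, fun s t => ?_⟩
        have hx' : x ∈ XE M 0 := by rw [h1]; exact hx
        rw [V893.Dsc.XE_zero hx' s t, dist_self]
        exact mul_nonneg (m0 _) (abs_nonneg _)
    have hg : ∀ s t, dist (fn (gam G i.1 i.2) s) (fn (gam G i.1 i.2) t) ≤
        G.ℓ i.1 * |s - t| := fun s t =>
      KK_dist_le (sg_or i.2) (G.ℓ_pos i.1).le (gam_mem_KK G i.1 i.2) s t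
    obtain ⟨C, hC0, hC1⟩ := hcb x (gam G i.1 i.2) m hm (mu (cl i m)) (G.ℓ i.1) (m0 _) hxL hg
      hxj r
    refine ⟨C, fun q => ?_⟩
    obtain ⟨y, hy1, hy2⟩ := hC1 q
    exact m2 _ y hy1 _ (add_nonneg (mul_nonneg q.cast_nonneg (m0 _)) hC0) hy2
  have h4 : ∀ (i j : G.ι × Bool) m n, 1 ≤ m → 1 ≤ n → cl i m = cl j n → ∀ k, 1 ≤ k →
      cl i (k * m) = cl j (k * n) := by
    intro i j m n hm hn hij k hk
    have h1 := joined_iter k ((hcls _ _).1 hij)
    rw [iter_iter, iter_iter] at h1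
    have h2 := (hcls _ _).2 h1
    rw [mul_comm m k, mul_comm n k] at h2
    exact h2
  have hP := R1Sabs.pigeon_all o cl (fun i => G.ℓ i.1) mu h1
  refine hP.subset ?_
  intro ω hω ib hib m hm
  obtain ⟨i, b⟩ := ib
  obtain ⟨hsharp, hgap⟩ := R1Sabs.r1_all cl (fun i => G.ℓ i.1) mu (fun i => G.ℓ_pos i.1) h2 h3 h4
    (i, b) hib
  refine hω i ?_ b m hm
  -- the statement for `gam G i b`
  have hL := G.ℓ_pos i
  have s1 : ∀ m : ℕ, 1 ≤ m → ∀ x, Joined x (iter m (gam G i b)) → ∀ T, 0 ≤ T → x ∈ XE M T →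
      m * G.ℓ i ≤ T := by
    intro m hm x hx T hT hxT
    have h1 := m2 _ x hx T hT hxT
    have h2 : mu (cls (iter m (gam G i b))) = m * G.ℓ i := hsharp m hm
    rwa [h2] at h1
  have s2 : ∀ C : ℝ, ∃ m0 : ℕ, ∀ m ≥ m0, ∀ a : ℝ, m * G.ℓ i < a → a ≤ m * G.ℓ i + C →
      ∀ x ∈ Geo1 G a, ¬ Joined x (iter m (gam G i b)) := by
    intro C
    obtain ⟨m0, hm0⟩ := hgap C
    refine ⟨max m0 1, fun m hm a ha1 ha2 x hx hj => ?_⟩
    have ha : 0 < a := lt_of_le_of_lt (mul_nonneg m.cast_nonneg hL.le) ha1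
    obtain ⟨j, b', n, hn, han, hjn⟩ := geo_joined G ha hx
    have h1 : cl (j, b') n = cl (i, b) m := (hcls _ _).2 (hjn.trans hj)
    rcases hm0 m ((le_max_left _ _).trans hm) ((le_max_right _ _).trans hm) (j, b') n hn h1
      with h2 | h2
    · have h3 : (n : ℝ) * G.ℓ j ≤ m * G.ℓ i := h2
      rw [← han] at h3
      linarith
    · have h3 : (m : ℝ) * G.ℓ i + C < n * G.ℓ j := h2
      rw [← han] at h3
      linarith
  -- orientation
  rcases b with _ | _
  · refine ⟨fun m hm x hx T hT hxT => ?_, fun C => ?_⟩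
    · have h1 := joined_rev hx
      rw [rev_iter, rev_gam] at h1
      exact s1 m hm _ h1 T hT (rev_mem_XE hxT)
    · obtain ⟨m0, hm0⟩ := s2 C
      refine ⟨m0, fun m hm a ha1 ha2 x hx hj => ?_⟩
      have h1 := joined_rev hj
      rw [rev_iter, rev_gam] at h1
      exact hm0 m hm a ha1 ha2 _ (rev_mem_Geo1 hx) h1
  · exact ⟨s1, s2⟩

end Vale.Agent.P216.H949
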