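import Vale.Agent.P216.H949.Main
import Vale.Agent.P216.H949.R1S

/-!
# P216, centralizers: the core statement for one straight prime closed geodesic
-/

set_option linter.all false

open Set Topology unitInterval

namespace Vale.Agent.P216.H949

open Vale.Agent.P216.L250 Vale.Agent.P216.H494 Vale.Agent.P216.H971B
open Vale.Agent.P216.H126B (Q RQ pthN pw)
open Path.Homotopic.Quotient (mk)

theorem iter_mem_Geo1 {M : Type} [MetricSpace M] {G : GeoList M} {L : ℝ} {c : LM M}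
    (hc : c ∈ Geo1 G L) (m : ℕ) : iter m c ∈ Geo1 G (m * L) := by
  rcases hc with h | h
  · exact Or.inl (iter_mem_KK h m)
  · exact Or.inr (iter_mem_KK h m)

theorem Geo1_dist_le {M : Type} [MetricSpace M] {G : GeoList M} {L : ℝ} {c : LM M} (hL : 0 < L)
    (hc : c ∈ Geo1 G L) (s t : ℝ) : dist (fn c s) (fn c t) ≤ L * |s - t| := by
  rcases hc with h | h
  · exact KK_dist_le (Or.inl rfl) hL.le h s t
  · exact KK_dist_le (Or.inr rfl) hL.le h s t

/-- The class of `c` in the fundamental group at `c 0`. -/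
noncomputable def acl {M : Type} [MetricSpace M] (c : LM M) : FundamentalGroup M (fn c 0) :=
  cls (pthN c 1)

theorem cls_pthN {M : Type} [MetricSpace M] (c : LM M) (k : ℕ) : cls (pthN c k) = acl c ^ k := by
  have h := fun z : ℤ => mk_Pz (⟨fn c, continuous_fn c⟩ : C(ℝ, M)) (fn_periodic c)
    (x := fn c 0) rfl z
  have e1 : ∀ k : ℕ, cls (pthN c k) = cls (Pz (⟨fn c, continuous_fn c⟩ : C(ℝ, M)) (fn_periodic c)
      (x := fn c 0) rfl (k : ℤ)) := by
    intro k
    refine congrArg cls (Path.ext (funext fun t => ?_))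
    rw [H126B.pthN_apply, Pz_apply]
    show fn c (k * t) = fn c (((k : ℤ) : ℝ) * t)
    rw [Int.cast_natCast]
  have e2 := e1 1
  rw [show ((1 : ℕ) : ℤ) = 1 from rfl] at e2
  rw [acl, e1, h, e2]
  exact zpow_natCast _ k

/-- Infinite order. -/
theorem core0 {M : Type} [MetricSpace M] {G : GeoList M} {c : LM M} {L : ℝ} (hL : 0 < L)
    (hs : Straight G c L) {m : ℕ} (hm : 1 ≤ m) : acl c ^ m ≠ 1 := by
  intro h1
  rw [← cls_pthN] at h1
  have h2 : (pthN c m).Homotopic (Path.refl (fn c 0)) := Path.Homotopic.Quotient.eq.1 h1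
  have h3 := H126B.joined_lp h2
  rw [H126B.lp_pthN, H126B.lp_eq (Path.refl (fn c 0)) (ContinuousMap.const _ (fn c 0))
    (fun t => rfl)] at h3
  have h4 := hs.1 m hm _ h3.symm 0 le_rfl (const_mem _)
  have h5 : 0 < (m : ℝ) * L := mul_pos (by exact_mod_cast hm) hL
  linarith

/-- **K1.** -/
theorem core1 (hF : RF) (hE : RE) {M : Type} [MetricSpace M] [CompactSpace M] {ρ : ℝ}
    (hρ : 0 < ρ) (h : LS.UniqSeg M ρ) {G : GeoList M} {c : LM M} {L : ℝ} (hL : 0 < L)
    (hc : c ∈ Geo1 G L) (hs : Straight G c L) (hprime : ∀ w : ℝ, rot w c = c → ∃ z : ℤ, w = z)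
    {k : ℕ} (hk : 1 ≤ k) {β : FundamentalGroup M (fn c 0)}
    (hβ : β * acl c ^ k = acl c ^ k * β) : β ∈ Subgroup.zpowers (acl c) := by
  obtain ⟨hmin, hgap⟩ := hs
  have hcomm : (mk (pthN c k)).trans β = β.trans (mk (pthN c k)) := by
    show β * cls (pthN c k) = cls (pthN c k) * β
    rw [cls_pthN]
    exact hβ
  obtain ⟨C, hC, hTr⟩ := hF M ρ hρ h c L hL (Geo1_dist_le hL hc) k hk β hcomm
  obtain ⟨m0, hm0⟩ := hgap (C + 1)
  set i : ℕ := max m0 1 with hi
  have hi1 : 1 ≤ i := le_max_right _ _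
  set m : ℕ := k * i with hm
  have hm1 : 1 ≤ m := Nat.mul_pos hk hi1
  have hmm : m0 ≤ m := (le_max_left m0 1).trans (Nat.le_mul_of_pos_left _ hk)
  have hmp : (0 : ℝ) < m := by exact_mod_cast hm1
  have ha : 0 < (m : ℝ) * L := mul_pos hmp hL
  obtain ⟨w, p, hw, hp, hpβ⟩ := hE M ρ hρ h G (m * L) (m * L + (C + 1)) (iter m c) ha
    (by linarith) (iter_mem_Geo1 hc m)
    (V893.Dsc.r2bGoal M ρ hρ h G (iter m c) _ ha fun x hx T' hT' hxT =>
      hmin m hm1 x hx T' hT' hxT)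
    (fun a' ha1 ha2 x hx => hm0 m hmm a' ha1 ha2 x hx) (fn c 0) β
    ((hTr i hi1).mono (by positivity) (by linarith))
  have hw' : rot (m * w) c = c := by
    refine ext_fn fun t => ?_
    have := congrArg (fun g => fn g (t / m)) hw
    simp only [fn_rot, fn_iter] at this
    rw [fn_rot]
    rw [mul_add, mul_div_cancel₀ _ hmp.ne'] at this
    exact this
  obtain ⟨z, hz⟩ := hprime _ hw'
  have e := mk_Pz (⟨fn c, continuous_fn c⟩ : C(ℝ, M)) (fn_periodic c) (x := fn c 0) rfl z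
  have e1 : cls (Pz (⟨fn c, continuous_fn c⟩ : C(ℝ, M)) (fn_periodic c) (x := fn c 0) rfl 1) =
      acl c := by
    rw [acl]
    refine congrArg cls (Path.ext (funext fun t => ?_))
    rw [H126B.pthN_apply, Pz_apply]
    show fn c (((1 : ℤ) : ℝ) * t) = fn c (((1 : ℕ) : ℝ) * t)
    simp
  rw [e1] at e
  refine Subgroup.mem_zpowers_iff.2 ⟨z, ?_⟩
  rw [← e, ← hpβ]
  refine congrArg mk (Path.ext (funext fun t => ?_))
  rw [Pz_apply, hp, fn_iter]
  show fn c (z * t) = fn c (m * (w * t))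
  rw [← hz, mul_assoc]

end Vale.Agent.P216.H949
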