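import Vale.Agent.P216.H949.Alg

/-!
# P216, centralizers: the malnormal subgroups can be chosen pairwise non-commensurable (algebra)
-/

set_option linter.all false

namespace Vale.Agent.P216.H949

/-- Two malnormal infinite cyclic subgroups with conjugate nontrivial elements are conjugate. -/
theorem conj_zpowers {G : Type*} [Group G] {a b : G} (ha : ∀ n : ℤ, a ^ n = 1 → n = 0)
    (hMa : ∀ t : G, t ∉ Subgroup.zpowers a → ∀ m n : ℤ, m ≠ 0 → t * a ^ m * t⁻¹ ≠ a ^ n)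
    (hMb : ∀ t : G, t ∉ Subgroup.zpowers b → ∀ m n : ℤ, m ≠ 0 → t * b ^ m * t⁻¹ ≠ b ^ n)
    {t : G} {m n : ℤ} (hm : m ≠ 0) (h : t * a ^ m * t⁻¹ = b ^ n) :
    ∃ e : ℤ, t * a * t⁻¹ = b ^ e := by
  have hn : n ≠ 0 := by
    rintro rfl
    rw [zpow_zero] at h
    apply hm
    apply ha
    have := congrArg (fun z => t⁻¹ * z * t) h
    simpa [mul_assoc] using this
  have e1 : a ^ m * a = a * a ^ m := by rw [← zpow_add_one, ← zpow_one_add, add_comm]
  have h1 : (t * a * t⁻¹) * b ^ n = b ^ n * (t * a * t⁻¹) := by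
    rw [← h]
    calc t * a * t⁻¹ * (t * a ^ m * t⁻¹) = t * (a * a ^ m) * t⁻¹ := by group
      _ = t * (a ^ m * a) * t⁻¹ := by rw [e1]
      _ = t * a ^ m * t⁻¹ * (t * a * t⁻¹) := by group
  obtain ⟨e, he⟩ := Subgroup.mem_zpowers_iff.1
    (not_malnormal_of_commute b hMb (t * a * t⁻¹) n hn h1)
  exact ⟨e, he.symm⟩

/-- A finite family of malnormal infinite cyclic subgroups contains a subfamily which covers the
same conjugacy classes up to finitely many and such that nontrivial powers of different members are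
never conjugate. -/
theorem family {G : Type*} [Group G] {A : Set G} (hA : A.Finite)
    (hM : ∀ a ∈ A, (∀ n : ℤ, a ^ n = 1 → n = 0) ∧
      ∀ t, t ∉ Subgroup.zpowers a → ∀ m n : ℤ, m ≠ 0 → t * a ^ m * t⁻¹ ≠ a ^ n)
    (hc : {c : ConjClasses G | ∀ a ∈ A, ∀ n : ℤ, ConjClasses.mk (a ^ n) ≠ c}.Finite) :
    ∃ B ⊆ A, (∀ a ∈ B, ∀ b ∈ B, a ≠ b → ∀ (t : G) (m n : ℤ), m ≠ 0 → t * a ^ m * t⁻¹ ≠ b ^ n) ∧
      {c : ConjClasses G | ∀ a ∈ B, ∀ n : ℤ, ConjClasses.mk (a ^ n) ≠ c}.Finite := by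
  classical
  have hex : ∃ k : ℕ, ∃ B ⊆ A,
      {c : ConjClasses G | ∀ a ∈ B, ∀ n : ℤ, ConjClasses.mk (a ^ n) ≠ c}.Finite ∧ B.ncard = k :=
    ⟨_, A, subset_rfl, hc, rfl⟩
  obtain ⟨B, hBA, hBc, hBk⟩ := Nat.find_spec hex
  refine ⟨B, hBA, fun a ha b hb hab t m n hm h => ?_, hBc⟩
  have hBf : B.Finite := hA.subset hBA
  obtain ⟨e, he⟩ := conj_zpowers (hM a (hBA ha)).1 (hM a (hBA ha)).2 (hM b (hBA hb)).2 hm h
  -- the classes of the powers of `a` are classes of powers of `b`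
  have key : ∀ i : ℤ, ConjClasses.mk (a ^ i) = ConjClasses.mk (b ^ (e * i)) := by
    intro i
    rw [ConjClasses.mk_eq_mk_iff_isConj, isConj_iff]
    refine ⟨t, ?_⟩
    rw [zpow_mul, ← he, conj_zpow]
  have hlt : (B \ {a}).ncard < B.ncard := Set.ncard_diff_singleton_lt_of_mem ha hBf
  rw [hBk] at hlt
  refine Nat.find_min hex hlt ⟨B \ {a}, Set.diff_subset.trans hBA, hBc.subset ?_, rfl⟩
  intro c hc' x hx i
  by_cases hxa : x = a
  · subst hxa
    rw [key]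
    exact hc' b ⟨hb, fun h => hab h.symm⟩ _
  · exact hc' x ⟨hx, hxa⟩ i

end Vale.Agent.P216.H949
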