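import Vale.Agent.P216.H949.Grp2
import Vale.Agent.P216.H949.H779Fam
import Vale.Agent.P216.H159.Cor

/-!
# P216: groups almost covered by malnormal infinite cyclic subgroups
-/

set_option linter.all false

namespace Vale.Agent.P216.H949

/-- Auxiliary form of `MalnormallyCovered`. -/
def Cov0 (G : Type) [Group G] : Prop :=
  ∃ A : Set G, A.Finite ∧ (∀ a ∈ A, Mal a) ∧
    {c : ConjClasses G | ∀ a ∈ A, ∀ n : ℤ, ConjClasses.mk (a ^ n) ≠ c}.Finite

/-- All but finitely many conjugacy classes of `G` meet one of finitely many infinite cyclic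
malnormal subgroups, no two of which contain conjugate nontrivial elements. -/
def MalnormallyCovered (G : Type) [Group G] : Prop :=
  ∃ A : Set G, A.Finite ∧ (∀ a ∈ A, Mal a) ∧
    (∀ a ∈ A, ∀ b ∈ A, a ≠ b → ∀ (t : G) (m n : ℤ), m ≠ 0 → t * a ^ m * t⁻¹ ≠ b ^ n) ∧
    {c : ConjClasses G | ∀ a ∈ A, ∀ n : ℤ, ConjClasses.mk (a ^ n) ≠ c}.Finite

/-- The powers of `x` lie in infinitely many conjugacy classes. -/
def ClassInfinite {G : Type} [Group G] (x : G) : Prop :=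
  (Set.range fun n : ℕ => ConjClasses.mk (x ^ n)).Infinite

variable {G : Type} [Group G]

theorem Cov0.family (h : Cov0 G) : MalnormallyCovered G := by
  obtain ⟨A, hA, hm, hf⟩ := h
  obtain ⟨B, hBA, h1, h2⟩ := H949.family hA hm hf
  exact ⟨B, hA.subset hBA, fun a ha => hm a (hBA ha), h1, h2⟩

theorem MalnormallyCovered.cov0 (h : MalnormallyCovered G) : Cov0 G := by
  obtain ⟨A, hA, hm, -, hf⟩ := h
  exact ⟨A, hA, hm, hf⟩

theorem Cov0.exists_mal (h : Cov0 G)
    (hi : Infinite (ConjClasses G)) : ∃ a : G, Mal a := by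
  obtain ⟨A, hA, hm, hf⟩ := h
  by_contra hne
  have hA0 : A = ∅ := by
    by_contra hA0
    obtain ⟨a, ha⟩ := Set.nonempty_iff_ne_empty.2 hA0
    exact hne ⟨a, hm a ha⟩
  subst hA0
  have : (Set.univ : Set (ConjClasses G)).Finite := hf.subset fun c _ a ha => absurd ha (by simp)
  exact Set.infinite_univ this

/-- An element of infinite class behaviour is a power of a malnormal one. -/
theorem Cov0.exists_root (h : Cov0 G) {x : G} (hx : ClassInfinite x) :
    ∃ y : G, Mal y ∧ ∃ n : ℤ, n ≠ 0 ∧ x = y ^ n := by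
  obtain ⟨A, hA, hm, hf⟩ := h
  obtain ⟨a, ha, t, n, hn, hxe⟩ := conj_into hm hf (fun g hg => by
    simp only [Set.mem_setOf_eq] at hg
    push Not at hg
    obtain ⟨a, ha, n, hn⟩ := hg
    obtain ⟨t, ht⟩ := isConj_iff.1 (ConjClasses.mk_eq_mk_iff_isConj.1 hn)
    exact ⟨a, ha, t, n, ht.symm⟩) hx
  refine ⟨t * a * t⁻¹, ?_, n, hn, ?_⟩
  · have h1 := hm a ha
    refine ⟨fun m hm1 => h1.1 m ?_, fun s hs m n' hm1 he => ?_⟩
    · rw [conj_zpow] at hm1
      have := congrArg (fun z => t⁻¹ * z * t) hm1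
      simpa [mul_assoc] using this
    · rw [conj_zpow, conj_zpow] at he
      refine hs ?_
      have h3 : (t⁻¹ * s * t) * a ^ m * (t⁻¹ * s * t)⁻¹ = a ^ n' := by
        have := congrArg (fun z => t⁻¹ * z * t) he
        simp only [mul_assoc, inv_mul_cancel_left, inv_mul_cancel, mul_one, mul_inv_rev,
          inv_inv] at this ⊢
        exact this
      obtain ⟨j, hj⟩ := Subgroup.mem_zpowers_iff.1 (h1.mem hm1 h3)
      refine Subgroup.mem_zpowers_iff.2 ⟨j, ?_⟩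
      rw [conj_zpow, hj]
      group
  · rw [conj_zpow]
    exact hxe

/-- The explicit consequences of `MalnormallyCovered`. -/
theorem not_malnormallyCovered
    (h : (Infinite (ConjClasses G) ∧ ¬ IsCyclic G ∧
        ∃ z : G, z ≠ 1 ∧ (Set.range fun g : G => g * z * g⁻¹).Finite) ∨
      (Infinite (ConjClasses G) ∧ ∃ (A B : Type) (_ : Group A) (_ : Group B),
        Nontrivial A ∧ Nontrivial B ∧ Nonempty (G ≃* A × B)) ∨
      (¬ IsCyclic G ∧ ∃ (N : Subgroup G) (x z : G), N.Normal ∧ x ∈ N ∧ ClassInfinite x ∧ z ≠ 1 ∧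
        ∀ y ∈ N, z * y = y * z) ∨
      (∃ (x t : G) (m n : ℤ), ClassInfinite x ∧ m ≠ 0 ∧ t * x ^ m * t⁻¹ = x ^ n ∧
        ¬ ∃ y : G, x ∈ Subgroup.zpowers y ∧ t ∈ Subgroup.zpowers y)) :
    ¬ Cov0 G := by
  intro hG
  rcases h with ⟨hi, hc, z, hz, hf⟩ | ⟨hi, A, B, _, _, hA, hB, ⟨e⟩⟩ |
    ⟨hc, N, x, z, hN, hx, hxi, hz, hzc⟩ | ⟨x, t, m, n, hx, hm, ht, hy⟩
  · obtain ⟨a, ha⟩ := hG.exists_mal hi
    have h1 := ha.fc hz hf
    refine hc ⟨a, fun x => ?_⟩
    have h2 : x ∈ Subgroup.zpowers a := by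
      rw [h1]
      trivial
    exact h2
  · obtain ⟨a, ha⟩ := hG.exists_mal hi
    exact ha.selfC.prod e (exists_ne 1) (exists_ne 1)
  · obtain ⟨y, hy1, k, hk, rfl⟩ := hG.exists_root hxi
    have h1 := hy1.normal N hN hz hzc hk hx
    refine hc ⟨y, fun x => ?_⟩
    have h2 : x ∈ Subgroup.zpowers y := by
      rw [h1]
      trivial
    exact h2
  · obtain ⟨y, hy1, k, hk, rfl⟩ := hG.exists_root hx
    refine hy ⟨y, Subgroup.mem_zpowers_iff.2 ⟨k, rfl⟩, ?_⟩
    rw [← zpow_mul, ← zpow_mul] at ht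
    exact hy1.mem (mul_ne_zero hk hm) ht

end Vale.Agent.P216.H949
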