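import Mathlib

/-!
# P216, centralizers: the group theoretic consequences
-/

set_option linter.all false

namespace Vale.Agent.P216.H949

variable {G : Type*} [Group G]

/-- the centralizers of all powers of `a` are `⟨a⟩` -/
def SelfC (a : G) : Prop := (∀ m : ℤ, a ^ m = 1 → m = 0) ∧
  ∀ k : ℕ, 1 ≤ k → ∀ g : G, g * a ^ k = a ^ k * g → ∃ m : ℤ, g = a ^ m

theorem SelfC.zpow {a : G} (h : SelfC a) {k : ℤ} (hk : k ≠ 0) {g : G}
    (hg : g * a ^ k = a ^ k * g) : ∃ m : ℤ, g = a ^ m := by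
  rcases lt_or_gt_of_ne hk with h1 | h1
  · obtain ⟨n, hn⟩ : ∃ n : ℕ, k = -(n : ℤ) := ⟨(-k).toNat, by omega⟩
    subst hn
    have hn1 : 1 ≤ n := by omega
    refine h.2 n hn1 g ?_
    rw [zpow_neg, zpow_natCast] at hg
    have e1 : a ^ n * (g * (a ^ n)⁻¹) * a ^ n = a ^ n * ((a ^ n)⁻¹ * g) * a ^ n := by rw [hg]
    have e2 : a ^ n * (g * (a ^ n)⁻¹) * a ^ n = a ^ n * g := by group
    have e3 : a ^ n * ((a ^ n)⁻¹ * g) * a ^ n = g * a ^ n := by group
    rw [e2, e3] at e1
    exact e1.symm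
  · obtain ⟨n, hn⟩ : ∃ n : ℕ, k = (n : ℤ) := ⟨k.toNat, by omega⟩
    subst hn
    rw [zpow_natCast] at hg
    exact h.2 n (by omega) g hg

/-- (1) an element with finitely many conjugates is trivial unless `⟨a⟩` has finite index -/
theorem SelfC.fc {a : G} (h : SelfC a) {x : G} (hx : x ≠ 1)
    (hfin : (Set.range fun g : G => g * x * g⁻¹).Finite) : (Subgroup.zpowers a).FiniteIndex := by
  -- the centralizer of x has finite index
  have hC : (Subgroup.centralizer ({x} : Set G)).FiniteIndex := by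
    have : Finite (G ⧸ Subgroup.centralizer ({x} : Set G)) := by
      have hf : Finite (Set.range fun g : G => g * x * g⁻¹) := hfin
      refine Finite.of_injective (β := Set.range fun g : G => g * x * g⁻¹)
        (fun q => Quotient.liftOn' q (fun g => ⟨g * x * g⁻¹, g, rfl⟩) ?_) ?_
      · intro g g' hgg
        have h1 : g⁻¹ * g' ∈ Subgroup.centralizer ({x} : Set G) := QuotientGroup.leftRel_apply.1 hgg
        rw [Subgroup.mem_centralizer_singleton_iff] at h1
        apply Subtype.ext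
        show g * x * g⁻¹ = g' * x * g'⁻¹
        have h2 : g' = g * (g⁻¹ * g') := by group
        have h3 : g' * x * g'⁻¹ = g * ((g⁻¹ * g') * x * (g⁻¹ * g')⁻¹) * g⁻¹ := by group
        rw [h3, h1]
        group
      · intro q q'
        induction q using Quotient.inductionOn' with | _ g => ?_
        induction q' using Quotient.inductionOn' with | _ g' => ?_
        intro hqq
        have h1 : g * x * g⁻¹ = g' * x * g'⁻¹ := congrArg Subtype.val hqq
        apply Quotient.sound'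
        rw [QuotientGroup.leftRel_apply, Subgroup.mem_centralizer_singleton_iff]
        have h2 : g⁻¹ * g' * x = g⁻¹ * (g' * x * g'⁻¹) * g' := by group
        rw [h2, ← h1]
        group
    exact Subgroup.finiteIndex_of_finite_quotient
  -- some power of a commutes with x
  obtain ⟨n, hn0, _, hn⟩ := Subgroup.exists_pow_mem_of_index_ne_zero hC.index_ne_zero a
  rw [Subgroup.mem_centralizer_singleton_iff] at hn
  obtain ⟨m, hm⟩ := h.2 n hn0 x hn.symm
  have hm0 : m ≠ 0 := by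
    rintro rfl
    exact hx (by rw [hm, zpow_zero])
  have hle : Subgroup.centralizer ({x} : Set G) ≤ Subgroup.zpowers a := by
    intro g hg
    rw [Subgroup.mem_centralizer_singleton_iff] at hg
    rw [hm] at hg
    obtain ⟨r, hr⟩ := h.zpow hm0 hg
    exact ⟨r, hr.symm⟩
  exact Subgroup.finiteIndex_of_le hle

/-- (2) a central element is trivial unless `G = ⟨a⟩` -/
theorem SelfC.center {a : G} (h : SelfC a) {x : G} (hx : x ≠ 1) (hc : ∀ g : G, g * x = x * g) :
    ∀ g : G, ∃ m : ℤ, g = a ^ m := by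
  obtain ⟨m, hm⟩ := h.2 1 le_rfl x (hc _).symm
  have hm0 : m ≠ 0 := by
    rintro rfl
    exact hx (by rw [hm, zpow_zero])
  intro g
  have hg := hc g
  rw [hm] at hg
  exact h.zpow hm0 hg

/-- (3) a nontrivial finite normal subgroup forces `⟨a⟩` to have finite index -/
theorem SelfC.finite_normal {a : G} (h : SelfC a) (N : Subgroup G) (hN : N.Normal)
    (hf : (N : Set G).Finite) (hne : N ≠ ⊥) : (Subgroup.zpowers a).FiniteIndex := by
  obtain ⟨x, hx, hx1⟩ := (Subgroup.ne_bot_iff_exists_ne_one (H := N)).1 hne |>.elim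
    (fun y hy => (⟨y.1, y.2, fun e => hy (Subtype.ext e)⟩ : ∃ x : G, x ∈ N ∧ x ≠ 1))
  refine h.fc hx1 (hf.subset ?_)
  rintro _ ⟨g, rfl⟩
  exact hN.conj_mem x hx g

/-- (4) `G` is not a direct product of two nontrivial groups -/
theorem SelfC.prod {H K : Type*} [Group H] [Group K] {a : G} (h : SelfC a) (e : G ≃* H × K)
    (hH : ∃ x : H, x ≠ 1) (hK : ∃ y : K, y ≠ 1) : False := by
  -- the two coordinates of `a`
  obtain ⟨x, y, hxy⟩ : ∃ x y, e a = (x, y) := ⟨(e a).1, (e a).2, rfl⟩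
  have hz : ∀ m : ℤ, e (a ^ m) = (x ^ m, y ^ m) := by
    intro m
    rw [map_zpow, hxy]
    rfl
  have key : ∀ g : G, g * a = a * g → ∃ m : ℤ, g = a ^ m := by
    intro g hg
    exact h.2 1 le_rfl g (by rw [pow_one]; exact hg)
  -- elements commuting with both coordinates
  have key2 : ∀ (u : H) (v : K), u * x = x * u → v * y = y * v →
      ∃ m : ℤ, u = x ^ m ∧ v = y ^ m := by
    intro u v hu hv
    obtain ⟨m, hm⟩ := key (e.symm (u, v)) (by
      apply e.injective
      rw [map_mul, map_mul, e.apply_symm_apply, hxy, Prod.mk_mul_mk, Prod.mk_mul_mk, hu, hv])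
    refine ⟨m, ?_⟩
    have h1 : e (e.symm (u, v)) = e (a ^ m) := by rw [← hm]
    rw [e.apply_symm_apply, hz] at h1
    exact ⟨congrArg Prod.fst h1, congrArg Prod.snd h1⟩
  obtain ⟨m, hm1, hm2⟩ := key2 x 1 rfl (by rw [one_mul, mul_one])
  obtain ⟨n, hn1, hn2⟩ := key2 1 y (by rw [one_mul, mul_one]) rfl
  -- `x ^ n = 1`, `y ^ m = 1`, `x = x ^ m`, `y = y ^ n`
  have hmn : a ^ (m * n) = 1 := by
    apply e.injective
    rw [hz, map_one]
    apply Prod.ext
    · show x ^ (m * n) = 1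
      rw [mul_comm, zpow_mul, ← hn1, one_zpow]
    · show y ^ (m * n) = 1
      rw [zpow_mul, ← hm2, one_zpow]
  have h0 := h.1 _ hmn
  rcases mul_eq_zero.1 h0 with h1 | h1
  · -- m = 0 : x = 1
    have hx1 : x = 1 := by rw [hm1, h1, zpow_zero]
    obtain ⟨u, hu⟩ := hH
    obtain ⟨r, hr1, _⟩ := key2 u 1 (by rw [hx1, mul_one, one_mul]) (by rw [one_mul, mul_one])
    exact hu (by rw [hr1, hx1, one_zpow])
  · have hy1 : y = 1 := by rw [hn2, h1, zpow_zero]
    obtain ⟨v, hv⟩ := hK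
    obtain ⟨r, _, hr2⟩ := key2 1 v (by rw [one_mul, mul_one]) (by rw [hy1, mul_one, one_mul])
    exact hv (by rw [hr2, hy1, one_zpow])

/-- (5) conjugate powers of `a` are equal or inverse -/
theorem SelfC.conj {a : G} (h : SelfC a) {g : G} {k l : ℤ} (hk : k ≠ 0)
    (hg : g * a ^ k * g⁻¹ = a ^ l) : l = k ∨ l = -k := by
  have hl : l ≠ 0 := by
    rintro rfl
    rw [zpow_zero] at hg
    have h1 : a ^ k = 1 := by
      have e1 : a ^ k = g⁻¹ * (g * a ^ k * g⁻¹) * g := by group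
      rw [e1, hg]; group
    exact hk (h.1 _ h1)
  -- `g a g⁻¹` commutes with `a ^ l`, `g⁻¹ a g` commutes with `a ^ k`
  obtain ⟨r, hr⟩ := h.zpow (k := l) (g := g * a * g⁻¹) hl (by
    rw [← hg]
    have e1 : g * a * g⁻¹ * (g * a ^ k * g⁻¹) = g * (a * a ^ k) * g⁻¹ := by group
    have e2 : g * a ^ k * g⁻¹ * (g * a * g⁻¹) = g * (a ^ k * a) * g⁻¹ := by group
    rw [e1, e2, (Commute.refl a).zpow_right k |>.eq])
  have hg' : g⁻¹ * a ^ l * g = a ^ k := by
    rw [← hg]; group
  obtain ⟨s, hs⟩ := h.zpow (k := k) (g := g⁻¹ * a * g) hk (by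
    rw [← hg']
    have e1 : g⁻¹ * a * g * (g⁻¹ * a ^ l * g) = g⁻¹ * (a * a ^ l) * g := by group
    have e2 : g⁻¹ * a ^ l * g * (g⁻¹ * a * g) = g⁻¹ * (a ^ l * a) * g := by group
    rw [e1, e2, (Commute.refl a).zpow_right l |>.eq])
  -- `r * s = 1`
  have h1 : a ^ (r * s) = a := by
    have e1 : g * (g⁻¹ * a * g) * g⁻¹ = a := by group
    have e2 : g * a ^ s * g⁻¹ = (g * a * g⁻¹) ^ s := (conj_zpow (i := s)).symm
    rw [hs, e2, hr, ← zpow_mul] at e1
    exact e1
  have h2 : r * s = 1 := by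
    have h3 : a ^ (r * s - 1) = 1 := by rw [zpow_sub, h1, zpow_one, mul_inv_cancel]
    have := h.1 _ h3
    omega
  have h4 : a ^ (r * k) = a ^ l := by
    rw [zpow_mul, ← hr, conj_zpow, hg]
  have h5 : r * k - l = 0 := h.1 _ (by rw [zpow_sub, h4, mul_inv_cancel])
  rcases Int.isUnit_iff.1 (IsUnit.of_mul_eq_one s h2) with h6 | h6
  · left; rw [h6] at h5; omega
  · right; rw [h6] at h5; omega

/-- (6) the property passes to subgroups: if `a ^ r` lies in `H`, `r ≥ 1` least, then `a ^ r` has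
the property in `H` -/
theorem SelfC.sub {a : G} (h : SelfC a) (H : Subgroup G) {r : ℕ} (hr : 1 ≤ r) (hrH : a ^ r ∈ H)
    (hmin : ∀ m : ℤ, a ^ m ∈ H → (r : ℤ) ∣ m) : SelfC (⟨a ^ r, hrH⟩ : H) := by
  refine ⟨fun m hm => ?_, fun k hk g hg => ?_⟩
  · have h1 : (a ^ r) ^ m = 1 := by
      have := congrArg Subtype.val hm
      simpa using this
    rw [← zpow_natCast, ← zpow_mul] at h1
    have h2 := h.1 _ h1
    rcases mul_eq_zero.1 h2 with h3 | h3
    · omega
    · exact h3
  · have h1 : (g : G) * (a ^ r) ^ k = (a ^ r) ^ k * g := by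
      have := congrArg Subtype.val hg
      simpa using this
    rw [← pow_mul] at h1
    obtain ⟨m, hm⟩ := h.2 (r * k) (Nat.mul_pos hr hk) _ h1
    obtain ⟨n, hn⟩ := hmin m (by rw [← hm]; exact g.2)
    refine ⟨n, Subtype.ext ?_⟩
    rw [hm, hn]
    simp [zpow_mul]

end Vale.Agent.P216.H949
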