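import Vale.Agent.P216.H126B.Homot2
import Vale.Agent.P216.H923B2.R7
import Vale.Agent.P216.V893.Mu893
import Vale.Agent.P216.H949.Alg
import Vale.Agent.P216.H949.R1S

/-!
# P216, centralizers: the passage to the fundamental group
-/

set_option linter.all false

open Set Topology unitInterval CategoryTheory

namespace Vale.Agent.P216.H949

open Vale.Agent.P216.L250 Vale.Agent.P216.H494 Vale.Agent.P216.H971B Vale.Agent.P216.H923B2
open Vale.Agent.P216.H126B (Q RQ pthN pw pthN_apply mk_pthN lp_pthN joined_lp)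
open Path.Homotopic.Quotient (mk)

variable {M : Type} [MetricSpace M]

/-- The change of base point. -/
noncomputable def cje {x y : M} (e : Q x y) : FundamentalGroup M y ≃* FundamentalGroup M x where
  toFun s := Path.Homotopic.Quotient.trans e (Path.Homotopic.Quotient.trans s e.symm)
  invFun s := Path.Homotopic.Quotient.trans e.symm (Path.Homotopic.Quotient.trans s e)
  left_inv s := by
    show e.symm.trans ((e.trans (Path.Homotopic.Quotient.trans s e.symm)).trans e) = s
    rw [Path.Homotopic.Quotient.trans_assoc, Path.Homotopic.Quotient.trans_assoc,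
      Path.Homotopic.Quotient.symm_trans, Path.Homotopic.Quotient.trans_refl,
      ← Path.Homotopic.Quotient.trans_assoc, Path.Homotopic.Quotient.symm_trans,
      Path.Homotopic.Quotient.refl_trans]
  right_inv s := by
    show e.trans ((e.symm.trans (Path.Homotopic.Quotient.trans s e)).trans e.symm) = s
    rw [Path.Homotopic.Quotient.trans_assoc, Path.Homotopic.Quotient.trans_assoc,
      Path.Homotopic.Quotient.trans_symm, Path.Homotopic.Quotient.trans_refl,
      ← Path.Homotopic.Quotient.trans_assoc, Path.Homotopic.Quotient.trans_symm,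
      Path.Homotopic.Quotient.refl_trans]
  map_mul' s t := by
    show e.trans (Path.Homotopic.Quotient.trans (Path.Homotopic.Quotient.trans t s) e.symm) =
      (e.trans (Path.Homotopic.Quotient.trans t e.symm)).trans
        (e.trans (Path.Homotopic.Quotient.trans s e.symm))
    simp only [Path.Homotopic.Quotient.trans_assoc]
    congr 2
    rw [← Path.Homotopic.Quotient.trans_assoc e.symm, Path.Homotopic.Quotient.symm_trans,
      Path.Homotopic.Quotient.refl_trans]

/-- The class of a closed geodesic, at its base point. -/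
noncomputable def el (c : LM M) : FundamentalGroup M (fn c 0) := mk (pthN c 1)

theorem el_pow (c : LM M) (k : ℕ) : el c ^ k = (mk (pthN c k) : FundamentalGroup M (fn c 0)) := by
  rw [mk_pthN]
  induction k with
  | zero => rfl
  | succ n ih =>
    rw [pow_succ', ih]
    rfl

/-- The class of a free loop in terms of a based loop. -/
theorem cls_eq_mk [PathConnectedSpace M] (x₀ : M) (g : LM M) {y : M} (α : Path y y)
    (hα : ∀ t : I, α t = fn g t) (e : Q x₀ y) :
    R7.cls x₀ g = ConjClasses.mk (cje e (mk α : FundamentalGroup M y)) := by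
  obtain rfl : fn g 0 = y := by
    rw [← α.source, hα]
    rfl
  have h1 : R7.lp g = mk α := by
    show mk (R7.std.map g.continuous) = mk α
    congr 1
    ext t
    exact (hα t).symm
  rw [R7.cls, ConjClasses.mk_eq_mk_iff_isConj, h1]
  exact R7.cj_conj _ (e : FundamentalGroupoid.mk x₀ ⟶ FundamentalGroupoid.mk (fn g 0)) (mk α)
    (mk α) (𝟙 _) (by rw [Category.comp_id, Category.id_comp])

theorem cls_iter [PathConnectedSpace M] (x₀ : M) (c : LM M) (e : Q x₀ (fn c 0)) (k : ℕ) :
    R7.cls x₀ (iter k c) = ConjClasses.mk (cje e (el c) ^ k) := by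
  rw [cls_eq_mk x₀ (iter k c) (pthN c k) (fun t => by rw [pthN_apply, fn_iter]) e, ← map_pow,
    el_pow]

theorem cls_iter_rev [PathConnectedSpace M] (x₀ : M) (c : LM M) (e : Q x₀ (fn c 0)) (k : ℕ) :
    R7.cls x₀ (iter k (L250.rev c)) = ConjClasses.mk ((cje e (el c) ^ k)⁻¹) := by
  rw [cls_eq_mk x₀ (iter k (L250.rev c)) (pthN c k).symm (fun t => ?_) e, ← map_pow,
    el_pow, ← map_inv]
  · rfl
  · show pthN c k (σ t) = _
    rw [pthN_apply, unitInterval.coe_symm_eq, fn_iter, fn_rev]
    have h1 := (fn_periodic c).nat_mul k (-(k * (t : ℝ)))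
    rw [mul_one] at h1
    rw [← h1]
    congr 1
    ring

/-- Infinite order. -/
theorem el_inf [CompactSpace M] {c : LM M} {L : ℝ} (hL : 0 < L)
    (h : ∀ m : ℕ, 1 ≤ m → ∀ x, Joined x (iter m c) → ∀ T, 0 ≤ T → x ∈ XE M T → m * L ≤ T)
    (n : ℤ) (hn : el c ^ n = 1) : n = 0 := by
  by_contra h0
  obtain ⟨k, hk, hk1⟩ : ∃ k : ℕ, 1 ≤ k ∧ el c ^ k = 1 := by
    obtain ⟨i, rfl | rfl⟩ := Int.eq_nat_or_neg n
    · exact ⟨i, by omega, by rwa [zpow_natCast] at hn⟩
    · exact ⟨i, by omega, by rwa [zpow_neg, zpow_natCast, inv_eq_one] at hn⟩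
  rw [el_pow] at hk1
  have h1 : (pthN c k).Homotopic (Path.refl _) := Path.Homotopic.Quotient.eq.1 hk1
  have h2 := joined_lp h1
  rw [lp_pthN] at h2
  have h3 : H126B.lp (Path.refl (fn c 0)) ∈ XE M 0 := by
    rw [mem_XE]
    refine ⟨fun _ => 0, fun s t hst => ?_, fun t => by simp⟩
    have h4 : H126B.lp (Path.refl (fn c 0)) = ContinuousMap.const _ (fn c 0) :=
      H126B.lp_eq _ _ fun t => rfl
    rw [h4]
    show dist (fn c 0) (fn c 0) ^ 2 ≤ _
    simp
  have h4 := h k hk _ h2.symm 0 le_rfl h3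
  have h5 : (0 : ℝ) < k * L := mul_pos (by exact_mod_cast hk) hL
  linarith

/-- The two geometric inputs: centralizers of powers, and no power conjugate to its inverse. -/
def Core (c : LM M) : Prop :=
  (∀ k : ℕ, 1 ≤ k → ∀ β : Q (fn c 0) (fn c 0),
    (mk (pthN c k)).trans β = β.trans (mk (pthN c k)) →
      ∃ n : ℕ, β = mk (pthN c n) ∨ β = (mk (pthN c n)).symm) ∧
  ∀ τ : Q (fn c 0) (fn c 0), (mk (pthN c 1)).trans τ ≠ τ.trans (mk (pthN c 1)).symm

/-- The subgroup of the class of a straight prime closed geodesic is malnormal. -/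
theorem el_malnormal [CompactSpace M] {c : LM M} {L : ℝ} (hL : 0 < L)
    (h : ∀ m : ℕ, 1 ≤ m → ∀ x, Joined x (iter m c) → ∀ T, 0 ≤ T → x ∈ XE M T → m * L ≤ T)
    (hc : Core c) {x₀ : M} (e : Q x₀ (fn c 0)) :
    (∀ n : ℤ, cje e (el c) ^ n = 1 → n = 0) ∧
      ∀ t : FundamentalGroup M x₀, t ∉ Subgroup.zpowers (cje e (el c)) → ∀ m n : ℤ, m ≠ 0 →
        t * cje e (el c) ^ m * t⁻¹ ≠ cje e (el c) ^ n := by
  have hinf := el_inf hL h
  have hC : ∀ k : ℕ, 1 ≤ k → ∀ b : FundamentalGroup M (fn c 0), el c ^ k * b = b * el c ^ k →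
      b ∈ Subgroup.zpowers (el c) := by
    intro k hk b hb
    rw [el_pow] at hb
    obtain ⟨n, hn | hn⟩ := hc.1 k hk b hb.symm
    · rw [Subgroup.mem_zpowers_iff]
      refine ⟨n, ?_⟩
      rw [zpow_natCast, el_pow]
      exact hn.symm
    · rw [Subgroup.mem_zpowers_iff]
      refine ⟨-n, ?_⟩
      rw [zpow_neg, zpow_natCast, el_pow]
      exact hn.symm
  have hrev : ∀ t : FundamentalGroup M (fn c 0), t * el c * t⁻¹ ≠ (el c)⁻¹ := by
    intro t ht
    refine hc.2 t ?_
    have h1 : t * el c = (el c)⁻¹ * t := by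
      rw [← ht]
      group
    exact h1
  have key := malnormal_of (el c) hinf hC hrev
  refine ⟨fun n hn => ?_, fun t ht m n hm hh => ?_⟩
  · apply hinf
    rw [← map_zpow] at hn
    exact (cje e).map_eq_one_iff.1 hn
  · obtain ⟨s, rfl⟩ := (cje e).surjective t
    refine key s (fun hs => ht ?_) m n hm ?_
    · obtain ⟨j, rfl⟩ := Subgroup.mem_zpowers_iff.1 hs
      exact Subgroup.mem_zpowers_iff.2 ⟨j, by rw [map_zpow]⟩
    · apply (cje e).injective
      rw [map_mul, map_mul, map_inv, map_zpow, map_zpow]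
      exact hh

/-- **The final statement, from the two rows.** -/
theorem final_of_core [CompactSpace M] [PathConnectedSpace M] (G : GeoList M)
    (hfin : {ω : ZerothHomotopy (LM M) | ∀ i : G.ι, Straight G (gam G i true) (G.ℓ i) →
      ∀ (b : Bool) (m : ℕ), 1 ≤ m →
        (Quotient.mk _ (iter m (gam G i b)) : ZerothHomotopy (LM M)) ≠ ω}.Finite)
    (hcore : ∀ i : G.ι, Straight G (gam G i true) (G.ℓ i) → Core (gam G i true)) (x₀ : M) :
    ∃ A : Set (FundamentalGroup M x₀), A.Finite ∧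
      (∀ a ∈ A, (∀ n : ℤ, a ^ n = 1 → n = 0) ∧ ∀ t, t ∉ Subgroup.zpowers a → ∀ m n : ℤ, m ≠ 0 →
        t * a ^ m * t⁻¹ ≠ a ^ n) ∧
      {c : ConjClasses (FundamentalGroup M x₀) | ∀ a ∈ A, ∀ n : ℤ,
        ConjClasses.mk (a ^ n) ≠ c}.Finite := by
  have := G.fin
  let e : ∀ i : G.ι, Q x₀ (fn (gam G i true) 0) := fun i => mk (PathConnectedSpace.somePath _ _)
  let f : G.ι → FundamentalGroup M x₀ := fun i => cje (e i) (el (gam G i true))
  refine ⟨f '' {i | Straight G (gam G i true) (G.ℓ i)}, (Set.toFinite _).image _, ?_, ?_⟩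
  · rintro _ ⟨i, hi, rfl⟩
    exact el_malnormal (G.ℓ_pos i) hi.1 (hcore i hi) (e i)
  · let F : ZerothHomotopy (LM M) → ConjClasses (FundamentalGroup M x₀) :=
      Quotient.lift (R7.cls x₀) fun _ _ h => R7.cls_eq x₀ h
    refine (hfin.image F).subset ?_
    intro cc hcc
    obtain ⟨g, rfl⟩ := R7.cls_surjective x₀ cc
    refine ⟨Quotient.mk _ g, ?_, rfl⟩
    intro i hi b m hm heq
    have h1 : R7.cls x₀ (iter m (gam G i b)) = R7.cls x₀ g := congrArg F heq
    rcases b with _ | _
    · have h2 : gam G i false = L250.rev (gam G i true) := (H923B2.rev_gam G i true).symm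
      rw [h2, cls_iter_rev x₀ _ (e i)] at h1
      refine hcc (f i) ⟨i, hi, rfl⟩ (-m) ?_
      rw [zpow_neg, zpow_natCast]
      exact h1
    · rw [cls_iter x₀ _ (e i)] at h1
      refine hcc (f i) ⟨i, hi, rfl⟩ m ?_
      rw [zpow_natCast]
      exact h1

end Vale.Agent.P216.H949
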