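import Vale.Agent.P216.H949.Grp

/-!
# P216, malnormal infinite cyclic subgroups: the group theoretic consequences
-/

set_option linter.all false

namespace Vale.Agent.P216.H949

variable {G : Type*} [Group G]

/-- `a` has infinite order and `⟨a⟩` is malnormal -/
def Mal (a : G) : Prop := (∀ m : ℤ, a ^ m = 1 → m = 0) ∧
  ∀ t : G, t ∉ Subgroup.zpowers a → ∀ m n : ℤ, m ≠ 0 → t * a ^ m * t⁻¹ ≠ a ^ n

theorem Mal.selfC {a : G} (h : Mal a) : SelfC a := by
  refine ⟨h.1, fun k hk g hg => ?_⟩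
  by_contra hcon
  have h1 : g ∉ Subgroup.zpowers a := by
    rintro ⟨m, hm⟩
    exact hcon ⟨m, hm.symm⟩
  refine h.2 g h1 (k : ℤ) (k : ℤ) (by omega) ?_
  rw [zpow_natCast, hg]
  group

/-- malnormality from self-centralizing and no inversion of a power -/
theorem Mal.of_selfC {a : G} (h : SelfC a)
    (hinv : ∀ (t : G) (k : ℕ), 1 ≤ k → t * a ^ k * t⁻¹ ≠ (a ^ k)⁻¹) : Mal a := by
  refine ⟨h.1, fun t ht m n hm he => ?_⟩
  rcases h.conj hm he with h1 | h1
  · -- `t` commutes with `a ^ m`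
    rw [h1] at he
    have h2 : t * a ^ m = a ^ m * t := by
      calc t * a ^ m = (t * a ^ m * t⁻¹) * t := by group
        _ = a ^ m * t := by rw [he]
    obtain ⟨r, hr⟩ := h.zpow hm h2
    exact ht ⟨r, hr.symm⟩
  · -- `t` inverts `a ^ m`
    rw [h1] at he
    rcases lt_or_gt_of_ne hm with h2 | h2
    · obtain ⟨k, hk⟩ : ∃ k : ℕ, m = -(k : ℤ) := ⟨(-m).toNat, by omega⟩
      subst hk
      rw [neg_neg, zpow_neg, zpow_natCast] at he
      refine hinv t k (by omega) ?_
      have h3 := congrArg (fun x => x⁻¹) he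
      simp only [mul_inv_rev, inv_inv] at h3
      rw [← h3]
      group
    · obtain ⟨k, hk⟩ : ∃ k : ℕ, m = (k : ℤ) := ⟨m.toNat, by omega⟩
      subst hk
      rw [zpow_neg, zpow_natCast] at he
      exact hinv t k (by omega) he

/-- a malnormal infinite cyclic subgroup of finite index is the whole group -/
theorem Mal.top {a : G} (h : Mal a) (hf : (Subgroup.zpowers a).FiniteIndex) :
    Subgroup.zpowers a = ⊤ := by
  rw [eq_top_iff]
  intro t _
  by_contra ht
  obtain ⟨n, hn0, _, hn⟩ :=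
    Subgroup.exists_pow_mem_of_index_ne_zero hf.index_ne_zero (t * a * t⁻¹)
  obtain ⟨r, hr⟩ := hn
  refine h.2 t ht (n : ℤ) r (by omega) ?_
  rw [zpow_natCast]
  have e1 : t * a ^ n * t⁻¹ = (t * a * t⁻¹) ^ n := (conj_pow (i := n)).symm
  rw [e1]
  exact hr.symm

/-- (1) a nontrivial element with finitely many conjugates: `G = ⟨a⟩` -/
theorem Mal.fc {a : G} (h : Mal a) {x : G} (hx : x ≠ 1)
    (hfin : (Set.range fun g : G => g * x * g⁻¹).Finite) : Subgroup.zpowers a = ⊤ :=
  h.top (h.selfC.fc hx hfin)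

/-- (2) a nontrivial finite normal subgroup is impossible -/
theorem Mal.finite_normal {a : G} (h : Mal a) (N : Subgroup G) (hN : N.Normal)
    (hf : (N : Set G).Finite) : N = ⊥ := by
  by_contra hne
  have h1 := h.top (h.selfC.finite_normal N hN hf hne)
  obtain ⟨x, hx, hx1⟩ := (Subgroup.ne_bot_iff_exists_ne_one (H := N)).1 hne |>.elim
    (fun y hy => (⟨y.1, y.2, fun e => hy (Subtype.ext e)⟩ : ∃ x : G, x ∈ N ∧ x ≠ 1))
  obtain ⟨m, hm⟩ : x ∈ Subgroup.zpowers a := by rw [h1]; trivial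
  have hm' : a ^ m = x := hm
  have hm0 : m ≠ 0 := by
    rintro rfl
    exact hx1 (by rw [← hm', zpow_zero])
  -- the powers of `x` are infinitely many elements of `N`
  have hinj : Function.Injective (fun k : ℤ => x ^ k) := by
    intro k l hkl
    have h2 : a ^ (m * (k - l)) = 1 := by
      rw [zpow_mul, hm', zpow_sub]
      have : x ^ k = x ^ l := hkl
      rw [this, mul_inv_cancel]
    rcases mul_eq_zero.1 (h.1 _ h2) with h3 | h3
    · exact absurd h3 hm0
    · omega
  have hinf := Set.infinite_range_of_injective hinj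
  exact hinf (hf.subset (by rintro _ ⟨k, rfl⟩; exact N.zpow_mem hx k))

/-- (3) a nontrivial central element: `G = ⟨a⟩` -/
theorem Mal.center {a : G} (h : Mal a) {x : G} (hx : x ≠ 1) (hc : ∀ g : G, g * x = x * g) :
    Subgroup.zpowers a = ⊤ := by
  rw [eq_top_iff]
  intro g _
  obtain ⟨m, hm⟩ := h.selfC.center hx hc g
  exact ⟨m, hm.symm⟩

/-- (4) a nontrivial normal abelian subgroup: `G = ⟨a⟩` or it meets no conjugate of `⟨a⟩`; here
the case of a normal subgroup containing a power of `a`: it is self-normalizing only if `G = ⟨a⟩` -/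
theorem Mal.normal_abelian {a : G} (h : Mal a) (N : Subgroup G) (hN : N.Normal)
    (hab : ∀ x ∈ N, ∀ y ∈ N, x * y = y * x) {k : ℤ} (hk : k ≠ 0) (hkN : a ^ k ∈ N) :
    Subgroup.zpowers a = ⊤ := by
  rw [eq_top_iff]
  intro t _
  by_contra ht
  -- `N ≤ ⟨a⟩`, and `t a ^ k t⁻¹ ∈ N`
  have h1 : t * a ^ k * t⁻¹ ∈ N := hN.conj_mem _ hkN t
  obtain ⟨m, hm⟩ := h.selfC.zpow hk (hab _ h1 _ hkN)
  exact h.2 t ht k m hk hm

/-- (5) every subgroup that is commensurated-like (`t a ^ m t⁻¹ = a ^ n` with `m ≠ 0`) is inside -/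
theorem Mal.mem {a : G} (h : Mal a) {t : G} {m n : ℤ} (hm : m ≠ 0)
    (ht : t * a ^ m * t⁻¹ = a ^ n) : t ∈ Subgroup.zpowers a := by
  by_contra hcon
  exact h.2 t hcon m n hm ht

/-- the summary: if almost all conjugacy classes meet finitely many malnormal infinite cyclic
subgroups, then every element whose powers lie in infinitely many classes is conjugate into one of
them, and its centralizer is infinite cyclic -/
theorem conj_into {A : Set G} (hA : ∀ a ∈ A, Mal a) {E : Set (ConjClasses G)} (hE : E.Finite)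
    (hcov : ∀ g : G, ConjClasses.mk g ∉ E → ∃ a ∈ A, ∃ (t : G) (m : ℤ), g = t * a ^ m * t⁻¹)
    {g : G} (hg : (Set.range fun n : ℕ => ConjClasses.mk (g ^ n)).Infinite) :
    ∃ a ∈ A, ∃ (t : G) (m : ℤ), m ≠ 0 ∧ g = t * a ^ m * t⁻¹ := by
  -- some power `n ≥ 1` avoids `E`
  obtain ⟨n, hn1, hn⟩ : ∃ n : ℕ, 1 ≤ n ∧ ConjClasses.mk (g ^ n) ∉ E := by
    by_contra hcon
    push Not at hcon
    apply hg
    refine ((hE.union (Set.finite_singleton (ConjClasses.mk (g ^ 0)))).subset ?_)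
    rintro _ ⟨n, rfl⟩
    rcases Nat.eq_zero_or_pos n with h | h
    · right; rw [h]; rfl
    · left; exact hcon n h
  obtain ⟨a, ha, t, m, hm⟩ := hcov _ hn
  have hm0 : m ≠ 0 := by
    rintro rfl
    -- then `g ^ n = 1`, the powers of `g` are finitely many
    have h1 : g ^ n = 1 := by rw [hm]; group
    apply hg
    have h2 : (Set.range fun k : ℕ => ConjClasses.mk (g ^ k)) ⊆
        (fun k : ℕ => ConjClasses.mk (g ^ k)) '' (Finset.range n : Set ℕ) := by
      rintro _ ⟨k, rfl⟩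
      refine ⟨k % n, ?_, ?_⟩
      · simp only [Finset.coe_range, Set.mem_Iio]
        exact Nat.mod_lt _ hn1
      · show ConjClasses.mk (g ^ (k % n)) = ConjClasses.mk (g ^ k)
        congr 1
        conv_rhs => rw [← Nat.div_add_mod k n, pow_add, pow_mul, h1, one_pow, one_mul]
    exact ((Finset.finite_toSet _).image _).subset h2
  -- `t⁻¹ g t` commutes with `a ^ m`
  have h3 : (t⁻¹ * g * t) * a ^ m = a ^ m * (t⁻¹ * g * t) := by
    have e1 : a ^ m = t⁻¹ * g ^ n * t := by rw [hm]; group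
    rw [e1]
    have e2 : t⁻¹ * g * t * (t⁻¹ * g ^ n * t) = t⁻¹ * (g * g ^ n) * t := by group
    have e3 : t⁻¹ * g ^ n * t * (t⁻¹ * g * t) = t⁻¹ * (g ^ n * g) * t := by group
    rw [e2, e3, ← pow_succ, ← pow_succ']
  obtain ⟨r, hr⟩ := (hA a ha).selfC.zpow hm0 h3
  have h4 : g = t * a ^ r * t⁻¹ := by rw [← hr]; group
  refine ⟨a, ha, t, r, ?_, h4⟩
  rintro rfl
  apply hg
  have h5 : g = 1 := by rw [h4]; group
  refine (Set.finite_singleton (ConjClasses.mk (1 : G))).subset ?_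
  rintro _ ⟨k, rfl⟩
  show ConjClasses.mk (g ^ k) = _
  rw [h5, one_pow]

end Vale.Agent.P216.H949
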