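import Vale.Agent.P216.H126B.Homot2
import Vale.Agent.P216.H215.Z10c

/-!
# P216, row RF, step (i): commuting classes give commuting paths with bounded excess
-/

set_option linter.all false

open Set Topology unitInterval

namespace Vale.Agent.P216.H949.H83

open Vale.Agent.P216.L250 Vale.Agent.P216.H250
open Vale.Agent.P216.H126B (Q RQ pthN pw)
open Path.Homotopic.Quotient (mk)

variable {M : Type} [MetricSpace M]

/-- The path `c ^ m` by arc length. -/
noncomputable def W (c : LM M) (L : ℝ) (m : ℕ) (u : ℝ) : M := fn c (max 0 (min m (u / L)))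

theorem fn_nat (c : LM M) (m : ℕ) : fn c m = fn c 0 := by
  have := (fn_periodic c).nat_mul_eq m
  simpa using this

theorem fn_add_nat (c : LM M) (m : ℕ) (x : ℝ) : fn c (x + m) = fn c x := by
  have := (fn_periodic c).nat_mul m x
  simpa using this

theorem W_mem {c : LM M} {L : ℝ} (hL : 0 < L)
    (hc : ∀ s t : ℝ, dist (fn c s) (fn c t) ≤ L * |s - t|) (m : ℕ) :
    W c L m ∈ PF (fn c 0) (fn c 0) ((m : ℝ) * L) := by
  refine ⟨fun u v => ?_, fun u hu => ?_, fun u hu => ?_⟩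
  · unfold W
    refine (hc _ _).trans ?_
    have h1 : |max 0 (min (m : ℝ) (u / L)) - max 0 (min (m : ℝ) (v / L))| ≤ |u / L - v / L| := by
      refine (abs_max_sub_max_le_max _ _ _ _).trans ?_
      simp only [sub_self, abs_zero]
      refine max_le (abs_nonneg _) ((abs_min_sub_min_le_max _ _ _ _).trans ?_)
      simp
    calc L * |max 0 (min (m : ℝ) (u / L)) - max 0 (min (m : ℝ) (v / L))| ≤ L * |u / L - v / L| :=
          mul_le_mul_of_nonneg_left h1 hL.le
      _ = |u - v| := by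
          rw [← sub_div, abs_div, abs_of_pos hL]
          field_simp
  · unfold W
    rw [max_eq_left]
    exact (min_le_right _ _).trans (div_nonpos_of_nonpos_of_nonneg hu hL.le)
  · unfold W
    have h1 : (m : ℝ) ≤ u / L := by rwa [le_div_iff₀ hL]
    rw [min_eq_left h1, max_eq_right (Nat.cast_nonneg m), fn_nat]

theorem W_add {c : LM M} {L : ℝ} (hL : 0 < L) (m n : ℕ) :
    W c L (m + n) = cat ((m : ℝ) * L) (W c L m) (W c L n) := by
  funext u
  rcases le_or_gt u ((m : ℝ) * L) with h | h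
  · rw [cat_of_le h]
    have h1 : u / L ≤ m := by rwa [div_le_iff₀ hL]
    unfold W
    rw [min_eq_right h1, min_eq_right]
    push_cast
    linarith [(Nat.cast_nonneg n : (0 : ℝ) ≤ n)]
  · rw [cat_of_lt h]
    have h1 : (m : ℝ) < u / L := by rwa [lt_div_iff₀ hL]
    unfold W
    have h2 : (u - (m : ℝ) * L) / L = u / L - m := by field_simp
    rw [h2]
    have h3 : max 0 (min (n : ℝ) (u / L - m)) = min (n : ℝ) (u / L - m) :=
      max_eq_right (le_min (Nat.cast_nonneg n) (by linarith))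
    have h4 : max 0 (min ((m + n : ℕ) : ℝ) (u / L)) = min ((m + n : ℕ) : ℝ) (u / L) :=
      max_eq_right (le_min (Nat.cast_nonneg _) (by linarith [(Nat.cast_nonneg m : (0 : ℝ) ≤ m)]))
    rw [h3, h4, ← fn_add_nat c m (min (n : ℝ) (u / L - m)), min_add]
    congr 2
    · push_cast
      ring
    · ring

theorem cat_of_ge {a b c : M} {t t' u : ℝ} {w w' : ℝ → M} (hw : w ∈ PF a b t)
    (hw' : w' ∈ PF b c t') (h : t ≤ u) : cat t w w' u = w' (u - t) := by
  rcases h.eq_or_lt with rfl | h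
  · rw [cat_of_le le_rfl, PF.last hw, sub_self, PF.zero hw']
  · exact cat_of_lt h

/-- The class of the product is the class of the concatenation. -/
theorem cat_homotopic {a b d : M} {s t : ℝ} (hs : 0 ≤ s) (ht : 0 ≤ t) {w w' : ℝ → M}
    (hw : w ∈ PF a b s) (hw' : w' ∈ PF b d t) (p : Path a b) (q : Path b d)
    (hp : ∀ x : I, p x = w (s * x)) (hq : ∀ x : I, q x = w' (t * x)) (γ : Path a d)
    (hγ : ∀ x : I, γ x = cat s w w' (x * (s + t))) : γ.Homotopic (p.trans q) := by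
  have hc : Continuous (cat s w w') := PF.cont (cat_mem hs ht hw hw')
  let φ : Path (0 : ℝ) (s + t) := ⟨⟨fun x : I => (x : ℝ) * (s + t), by fun_prop⟩, by simp, by simp⟩
  let ψ₁ : Path (0 : ℝ) s := ⟨⟨fun x : I => s * (x : ℝ), by fun_prop⟩, by simp, by simp⟩
  let ψ₂ : Path (s : ℝ) (s + t) := ⟨⟨fun x : I => s + t * (x : ℝ), by fun_prop⟩, by simp, by simp⟩
  refine H126B.line_homotopic ⟨cat s w w', hc⟩ _ _ φ (ψ₁.trans ψ₂) (fun x => hγ x) fun x => ?_
  rw [Path.trans_apply, Path.trans_apply]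
  split_ifs with hx
  · rw [hp]
    show w (s * (2 * (x : ℝ))) = cat s w w' (s * (2 * (x : ℝ)))
    rw [cat_of_le]
    have : (2 : ℝ) * x ≤ 1 := by linarith
    nlinarith
  · rw [hq]
    show w' (t * (2 * (x : ℝ) - 1)) = cat s w w' (s + t * (2 * (x : ℝ) - 1))
    have h1 : (0 : ℝ) ≤ 2 * x - 1 := by linarith
    rw [cat_of_ge hw hw' (by nlinarith), add_sub_cancel_left]

/-- The path of an element of `PF`. -/
noncomputable def toPath {a b : M} {t : ℝ} {w : ℝ → M} (hw : w ∈ PF a b t) : Path a b where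
  toFun s := w (s * t)
  continuous_toFun := (PF.cont hw).comp (by fun_prop)
  source' := by
    show w (((0 : I) : ℝ) * t) = a
    rw [Set.Icc.coe_zero, zero_mul]
    exact hw.2.1 0 le_rfl
  target' := by
    show w (((1 : I) : ℝ) * t) = b
    rw [Set.Icc.coe_one, one_mul]
    exact hw.2.2 t le_rfl

/-- A Lipschitz representative as an element of `PF`. -/
theorem exists_PF [CompactSpace M] {ρ : ℝ} (hρ : 0 < ρ) (h : LS.UniqSeg M ρ) {a b : M}
    (β : Q a b) : ∃ (S : ℝ) (w : ℝ → M) (p : Path a b), 0 < S ∧ w ∈ PF a b S ∧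
      (∀ t : I, p t = w (S * t)) ∧ mk p = β := by
  obtain ⟨T, hT, p, hp, hl⟩ := H126B.exists_RQ hρ h β
  have hS : 0 < T + 1 := by linarith
  refine ⟨T + 1, fun u => p.extend (u / (T + 1)), p, hS, ⟨fun u v => ?_, fun u hu => ?_,
    fun u hu => ?_⟩, fun t => ?_, hp⟩
  · show dist (p (projIcc 0 1 zero_le_one (u / (T + 1)))) (p (projIcc 0 1 zero_le_one (v / (T + 1))))
      ≤ |u - v|
    refine (hl _ _).trans ?_
    have h1 : |((projIcc (0 : ℝ) 1 zero_le_one (u / (T + 1)) : I) : ℝ) -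
        ((projIcc (0 : ℝ) 1 zero_le_one (v / (T + 1)) : I) : ℝ)| ≤ |u / (T + 1) - v / (T + 1)| := by
      rw [coe_projIcc, coe_projIcc]
      refine (abs_max_sub_max_le_max _ _ _ _).trans ?_
      simp only [sub_self, abs_zero]
      refine max_le (abs_nonneg _) ((abs_min_sub_min_le_max _ _ _ _).trans ?_)
      simp
    have h2 : |u / (T + 1) - v / (T + 1)| = |u - v| / (T + 1) := by
      rw [← sub_div, abs_div, abs_of_pos hS]
    rw [h2] at h1
    calc T * _ ≤ (T + 1) * (|u - v| / (T + 1)) :=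
          mul_le_mul (by linarith) h1 (abs_nonneg _) hS.le
      _ = |u - v| := by field_simp
  · show p.extend (u / (T + 1)) = a
    exact Path.extend_of_le_zero p (div_nonpos_of_nonpos_of_nonneg hu hS.le)
  · show p.extend (u / (T + 1)) = b
    exact Path.extend_of_one_le p ((one_le_div hS).2 hu)
  · show p t = p.extend ((T + 1) * t / (T + 1))
    rw [mul_div_cancel_left₀ _ hS.ne', Path.extend_apply _ t.2]

/-- **Step (i)**, two loops. -/
theorem rf1_two [CompactSpace M] {ρ : ℝ} (hρ : 0 < ρ) (h : LS.UniqSeg M ρ) (c c1 : LM M) {L : ℝ}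
    (hL : 0 < L) (hc : ∀ s t : ℝ, dist (fn c s) (fn c t) ≤ L * |s - t|)
    (hc1 : ∀ s t : ℝ, dist (fn c1 s) (fn c1 t) ≤ L * |s - t|) (k : ℕ) (hk : 1 ≤ k)
    (β : Q (fn c 0) (fn c1 0)) (hβ : (mk (pthN c k)).trans β = β.trans (mk (pthN c1 k))) :
    ∃ (S T₁ : ℝ) (b : ℝ → M) (p : Path (fn c 0) (fn c1 0)), 0 < S ∧ 0 ≤ T₁ ∧
      b ∈ PF (fn c 0) (fn c1 0) S ∧ (∀ t : I, p t = b (S * t)) ∧ mk p = β ∧
      ∀ j : ℕ, 1 ≤ j → JoinedIn (PF (fn c 0) (fn c1 0) (((k * j : ℕ) : ℝ) * L + T₁))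
        (cat (((k * j : ℕ) : ℝ) * L) (W c L (k * j)) b) (cat S b (W c1 L (k * j))) := by
  obtain ⟨S, b, p, hS, hb, hpb, hpβ⟩ := exists_PF hρ h β
  have hkL : 0 ≤ (k : ℝ) * L := by positivity
  have hWk := W_mem hL hc k
  have hWk1 := W_mem hL hc1 k
  have m1 : cat ((k : ℝ) * L) (W c L k) b ∈ PF (fn c 0) (fn c1 0) ((k : ℝ) * L + S) :=
    cat_mem hkL hS.le hWk hb
  have m2 : cat S b (W c1 L k) ∈ PF (fn c 0) (fn c1 0) ((k : ℝ) * L + S) := by
    rw [add_comm]
    exact cat_mem hS.le hkL hb hWk1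
  have hpk : ∀ (c : LM M) (x : I), pthN c k x = W c L k ((k : ℝ) * L * x) := by
    intro c x
    rw [H126B.pthN_apply]
    unfold W
    have e : (k : ℝ) * L * x / L = k * x := by field_simp
    have h0 : (0 : ℝ) ≤ x := x.2.1
    have h1 : (x : ℝ) ≤ 1 := x.2.2
    rw [e, min_eq_right (mul_le_of_le_one_right (Nat.cast_nonneg k) h1),
      max_eq_right (by positivity)]
  have hh : (toPath m1).Homotopic (toPath m2) := by
    have h1 := cat_homotopic hkL hS.le hWk hb (pthN c k) p (hpk c) hpb (toPath m1) (fun x => rfl)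
    have h2 := cat_homotopic hS.le hkL hb hWk1 p (pthN c1 k) hpb (hpk c1) (toPath m2)
      (fun x => by
        show cat S b (W c1 L k) (x * ((k : ℝ) * L + S)) = cat S b (W c1 L k) (x * (S + (k : ℝ) * L))
        rw [add_comm S])
    refine h1.trans (Path.Homotopic.trans ?_ h2.symm)
    rw [← Path.Homotopic.Quotient.eq, Path.Homotopic.Quotient.mk_trans,
      Path.Homotopic.Quotient.mk_trans, hpβ]
    exact hβ
  obtain ⟨T, hT, hJ⟩ := H215.Z10c.joined_of_homotopy hρ h (by linarith) m1 m2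
    (γ := toPath m1) (γ' := toPath m2) (fun _ => rfl) (fun _ => rfl) hh
  refine ⟨S, T - (k : ℝ) * L, b, p, hS, by linarith, hb, hpb, hpβ, fun j hj => ?_⟩
  set T₁ := T - (k : ℝ) * L with hT₁
  have hST : S ≤ T₁ := by linarith
  have hJ1 : JoinedIn (PF (fn c 0) (fn c1 0) ((k : ℝ) * L + T₁))
      (cat ((k : ℝ) * L) (W c L k) b) (cat S b (W c1 L k)) := by
    rw [show (k : ℝ) * L + T₁ = T by rw [hT₁]; ring]
    exact hJ
  induction j, hj using Nat.le_induction with
  | base =>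
    rw [mul_one]
    exact hJ1
  | succ j hj ih =>
    set m : ℕ := k * j with hm
    have hmk : k * (j + 1) = m + k := by rw [hm]; ring
    rw [hmk]
    have hmL : 0 ≤ (m : ℝ) * L := by positivity
    have hcast : (((m + k : ℕ) : ℝ)) * L = (m : ℝ) * L + (k : ℝ) * L := by push_cast; ring
    rw [W_add hL m k, W_add hL m k, hcast]
    have hWm := W_mem hL hc m
    have hWm1 := W_mem hL hc1 m
    have e1 : cat ((m : ℝ) * L + (k : ℝ) * L) (cat ((m : ℝ) * L) (W c L m) (W c L k)) b =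
        cat ((m : ℝ) * L) (W c L m) (cat ((k : ℝ) * L) (W c L k) b) := cat_assoc hkL
    have s1 : JoinedIn (PF (fn c 0) (fn c1 0) ((m : ℝ) * L + ((k : ℝ) * L + T₁)))
        (cat ((m : ℝ) * L) (W c L m) (cat ((k : ℝ) * L) (W c L k) b))
        (cat ((m : ℝ) * L) (W c L m) (cat S b (W c1 L k))) :=
      JI.cat_right hmL (by linarith) hWm hJ1
    have e2 : cat ((m : ℝ) * L) (W c L m) (cat S b (W c1 L k)) =
        cat ((m : ℝ) * L + S) (cat ((m : ℝ) * L) (W c L m) b) (W c1 L k) :=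
      (cat_assoc hS.le).symm
    have s2 : JoinedIn (PF (fn c 0) (fn c1 0) (((m : ℝ) * L + T₁) + (k : ℝ) * L))
        (cat ((m : ℝ) * L + S) (cat ((m : ℝ) * L) (W c L m) b) (W c1 L k))
        (cat ((m : ℝ) * L + T₁) (cat ((m : ℝ) * L) (W c L m) b) (W c1 L k)) :=
      JI.wait (by linarith) (by linarith) hkL (cat_mem hmL hS.le hWm hb) hWk1
    have s3 : JoinedIn (PF (fn c 0) (fn c1 0) (((m : ℝ) * L + T₁) + (k : ℝ) * L))
        (cat ((m : ℝ) * L + T₁) (cat ((m : ℝ) * L) (W c L m) b) (W c1 L k))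
        (cat ((m : ℝ) * L + T₁) (cat S b (W c1 L m)) (W c1 L k)) :=
      JI.cat_left (by linarith) hkL ih hWk1
    have s4 : JoinedIn (PF (fn c 0) (fn c1 0) (((m : ℝ) * L + T₁) + (k : ℝ) * L))
        (cat (S + (m : ℝ) * L) (cat S b (W c1 L m)) (W c1 L k))
        (cat ((m : ℝ) * L + T₁) (cat S b (W c1 L m)) (W c1 L k)) :=
      JI.wait (by linarith) (by linarith) hkL (cat_mem hS.le hmL hb hWm1) hWk1
    have e3 : cat (S + (m : ℝ) * L) (cat S b (W c1 L m)) (W c1 L k) =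
        cat S b (cat ((m : ℝ) * L) (W c1 L m) (W c1 L k)) := cat_assoc hmL
    have eT : (m : ℝ) * L + (k : ℝ) * L + T₁ = ((m : ℝ) * L + T₁) + (k : ℝ) * L := by ring
    have eT' : (m : ℝ) * L + ((k : ℝ) * L + T₁) = ((m : ℝ) * L + T₁) + (k : ℝ) * L := by ring
    rw [eT, e1, ← e3]
    rw [eT', e2] at s1
    exact ((s1.trans s2).trans s3).trans s4.symm

end Vale.Agent.P216.H949.H83
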