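import Vale.Agent.P216.H126B.Homot2
import Vale.Agent.P216.H971B.Props

/-!
# P216, centralizers: reversed closed geodesics
-/

set_option linter.all false

open Set Topology unitInterval

namespace Vale.Agent.P216.H949

open Vale.Agent.P216.L250 Vale.Agent.P216.H494 Vale.Agent.P216.H971B
open Vale.Agent.P216.H126B (Q RQ pthN pw pthN_apply)
open Path.Homotopic.Quotient (mk)

/-- A closed geodesic is not a rotation of its reverse. -/
theorem rev_ne_rot {M : Type*} [MetricSpace M] {G : GeoList M} {e a : ℝ} (he : e = 1 ∨ e = -1)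
    (ha : 0 < a) {g : LM M} (hg : g ∈ G.KK e a) (θ : ℝ) : L250.rev g ≠ rot θ g := by
  intro h
  obtain ⟨j, b, hj⟩ := hg
  have h1 : ∀ t : ℝ, fn g (-t) = fn g (t + θ) := fun t => by rw [← fn_rev, h, fn_rot]
  obtain ⟨δ, hδ, hd⟩ := G.geo j (e * a * (θ / 2) + b)
  have h2 : ∀ s : ℝ, G.c j (e * a * (θ / 2) + b - s) = G.c j (e * a * (θ / 2) + b + s) := by
    intro s
    have h3 := h1 (e * (s / a) - θ / 2)
    rw [hj, hj] at h3
    have hee := sgn_mul_self he
    have e1 : e * a * -(e * (s / a) - θ / 2) + b = e * a * (θ / 2) + b - s := by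
      field_simp
      linear_combination (-s * 2) * hee
    have e2 : e * a * (e * (s / a) - θ / 2 + θ) + b = e * a * (θ / 2) + b + s := by
      field_simp
      linear_combination (s * 2) * hee
    rwa [e1, e2] at h3
  have h3 := hd (e * a * (θ / 2) + b - δ / 2) (e * a * (θ / 2) + b + δ / 2)
    (by rw [sub_sub_cancel_left, abs_neg, abs_of_pos (half_pos hδ)]; linarith)
    (by rw [add_sub_cancel_left, abs_of_pos (half_pos hδ)]; linarith)
  rw [h2, dist_self, one_mul, eq_comm, abs_eq_zero] at h3
  linarith

theorem fn_rev_zero {M : Type*} [MetricSpace M] (g : LM M) : fn (L250.rev g) 0 = fn g 0 := by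
  rw [fn_rev, neg_zero]

/-- An element which conjugates the class of `c ^ k` into its inverse, as a path from the base
point of `c` to the base point of the reversed loop. -/
theorem exists_rev_class {M : Type} [MetricSpace M] (c : LM M) (k : ℕ)
    (τ : Q (fn c 0) (fn c 0))
    (h : (mk (pthN c k)).trans τ = τ.trans (mk (pthN c k)).symm) :
    ∃ β : Q (fn c 0) (fn (L250.rev c) 0),
      (mk (pthN c k)).trans β = β.trans (mk (pthN (L250.rev c) k)) := by
  have key : ∀ (y : M) (q : Path y y), y = fn c 0 → (∀ t : I, q t = fn c (-(k * t))) →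
      ∃ β : Q (fn c 0) y, (mk (pthN c k)).trans β = β.trans (mk q) := by
    rintro y q rfl hq
    refine ⟨τ, ?_⟩
    have e : q = (pthN c k).symm := by
      ext t
      rw [hq]
      show _ = pthN c k (σ t)
      rw [pthN_apply, unitInterval.coe_symm_eq]
      have h1 := (fn_periodic c).nat_mul k (-(k * (t : ℝ)))
      rw [mul_one] at h1
      rw [← h1]
      congr 1
      ring
    rw [h, e]
    rfl
  exact key _ (pthN (L250.rev c) k) (fn_rev_zero c) fun t => by rw [pthN_apply, fn_rev]

end Vale.Agent.P216.H949
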