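import Vale.Agent.P216.H949.All
import Vale.Agent.P216.H949.Rev
import Vale.Agent.P216.H949.Grp104
import Vale.Agent.P216.H975.Rev
import Vale.Agent.P216.H949.Fin

/-!
# P216, centralizers: no power of a straight closed geodesic is conjugate to its inverse
-/

set_option linter.all false

open Set Topology unitInterval Bundle Manifold
open scoped ContDiff

namespace Vale.Agent.P216.H949

open Vale.Agent.P216.L250 Vale.Agent.P216.H494 Vale.Agent.P216.H971B Vale.Agent.P216.H923B2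
open Vale.Agent.P216.H126B (Q RQ pthN pw)
open Path.Homotopic.Quotient (mk)

/-- **K2.** -/
theorem core2 {M : Type} [MetricSpace M] [CompactSpace M] {ρ : ℝ}
    (hρ : 0 < ρ) (h : LS.UniqSeg M ρ) {G : GeoList M} {c : LM M} {L : ℝ} (hL : 0 < L)
    (hc : c ∈ Geo1 G L) (hs : Straight G c L) (τ : Q (fn c 0) (fn c 0)) :
    (mk (pthN c 1)).trans τ ≠ τ.trans (mk (pthN c 1)).symm := by
  intro hτ
  obtain ⟨hmin, hgap⟩ := hs
  obtain ⟨β, hβ⟩ := exists_rev_class c 1 τ hτ
  have hc' : L250.rev c ∈ Geo1 G L := rev_mem_Geo1 hc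
  obtain ⟨C, hC, hTr⟩ := rF' M ρ hρ h c (L250.rev c) L hL (Geo1_dist_le hL hc)
    (Geo1_dist_le hL hc') 1 le_rfl β hβ
  obtain ⟨m0, hm0⟩ := hgap (C + 1)
  set i : ℕ := max m0 1 with hi
  have hi1 : 1 ≤ i := le_max_right _ _
  set m : ℕ := 1 * i with hm
  have hm1 : 1 ≤ m := by omega
  have hmm : m0 ≤ m := by omega
  have hmp : (0 : ℝ) < m := by exact_mod_cast hm1
  have ha : 0 < (m : ℝ) * L := mul_pos hmp hL
  obtain ⟨p, Γ, h1, h2, h3⟩ := (hTr i hi1).mono (T' := m * L + (C + 1)) (by positivity)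
    (by linarith)
  have hg₀ := iter_mem_Geo1 hc m
  obtain ⟨θ, hθ⟩ := H975.same_circle hρ h G ha (by linarith) hg₀ (iter_mem_Geo1 hc' m)
    (V893.Dsc.r2bGoal M ρ hρ h G (iter m c) _ ha fun x hx T' hT' hxT =>
      hmin m hm1 x hx T' hT' hxT)
    (fun a' ha1 ha2 x hx => hm0 m hmm a' ha1 ha2 x hx) (rA M G (m * L) ha _ hg₀) Γ h3
  rw [← rev_iter] at hθ
  rcases hg₀ with hg | hg
  · exact rev_ne_rot (Or.inl rfl) ha hg θ hθ
  · exact rev_ne_rot (Or.inr rfl) ha hg θ hθ

/-- The straight prime closed geodesics satisfy both statements. -/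
theorem core_gam {M : Type} [MetricSpace M] [CompactSpace M] {ρ : ℝ}
    (hρ : 0 < ρ) (h : LS.UniqSeg M ρ) (G : GeoList M) (i : G.ι)
    (hs : Straight G (gam G i true) (G.ℓ i)) : Core (gam G i true) := by
  have hL := G.ℓ_pos i
  have hc : gam G i true ∈ Geo1 G (G.ℓ i) := Or.inl (gam_mem_KK G i true)
  refine ⟨fun k hk β hβ => ?_, core2 hρ h hL hc hs⟩
  have hβ' : FundamentalGroup.fromPath β * acl (gam G i true) ^ k =
      acl (gam G i true) ^ k * FundamentalGroup.fromPath β := by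
    rw [← cls_pthN]
    exact hβ
  obtain ⟨z, hz⟩ := Subgroup.mem_zpowers_iff.1 (core1 rF rE_all hρ h hL hc hs (fun w hw => by
    have hper : Function.Periodic (G.c i) (G.ℓ i * w) := by
      refine KK_period (Or.inl rfl) hL (g := gam G i true) (b := 0) (fun t => ?_) fun t => ?_
      · rw [fn_gam]
        congr 1
        simp [sg]
      · have := congrArg (fun g => fn g t) hw
        simpa [fn_rot] using this
    obtain ⟨z, hz⟩ := G.prime i _ hper
    exact ⟨z, mul_left_cancel₀ hL.ne' (hz.trans (mul_comm _ _))⟩) hk hβ')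
  refine ⟨z.natAbs, ?_⟩
  rcases Int.natAbs_eq z with h2 | h2
  · left
    have h3 := cls_pthN (gam G i true) z.natAbs
    have h4 : acl (gam G i true) ^ z = acl (gam G i true) ^ z.natAbs := by
      rw [← zpow_natCast, ← h2]
    exact (hz.symm.trans (h4.trans h3.symm))
  · right
    have h3 := cls_pthN (gam G i true) z.natAbs
    have h4 : acl (gam G i true) ^ z = (acl (gam G i true) ^ z.natAbs)⁻¹ := by
      rw [← zpow_natCast, ← zpow_neg, ← h2]
    exact (hz.symm.trans (h4.trans (congrArg (fun x => x⁻¹) h3.symm)))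

/-- **Riemannian form.** -/
theorem final_riem
    {E : Type} [NormedAddCommGroup E] [NormedSpace ℝ E] [FiniteDimensional ℝ E]
    {M : Type} [MetricSpace M] [CompactSpace M] [ChartedSpace E M] [IsManifold 𝓘(ℝ, E) ∞ M]
    [RiemannianBundle (fun x : M => TangentSpace 𝓘(ℝ, E) x)]
    [IsContMDiffRiemannianBundle 𝓘(ℝ, E) ∞ E (fun x : M => TangentSpace 𝓘(ℝ, E) x)]
    [IsRiemannianManifold 𝓘(ℝ, E) M] (x₀ : M)
    (hfin : (primeClosedGeodesicImages M).Finite) :
    Cov0 (FundamentalGroup M x₀) := by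
  have : PathConnectedSpace M := ⟨⟨x₀⟩, H126U.joined_of_riemannian E⟩
  obtain ⟨ρ, hρ, hs, _⟩ := Geo.exists_uniqSeg E M
  obtain ⟨G⟩ := exists_geoList (nonBranching_of_riemannian (E := E) (M := M)) hfin
  have hcb : ConjBound M := fun x g m hm K Lg hK hx hg hj r =>
    H126B.conj_bound hρ hs x g m hm K Lg hK hx hg hj r
  have hf : FinGoal M := fun c => H126B.exists_fin hρ hs c
  exact final_of_core G (r1S_of hρ hs G (cGoal hρ hs G) hcb hf)
    (fun i hi => core_gam hρ hs G i hi) x₀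

end Vale.Agent.P216.H949
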