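import Vale.Agent.P216.H949.RE
import Vale.Agent.P216.H949.AlgC
import Vale.Agent.P216.H923B2.R1
import Vale.Agent.P216.H923B2.R7
import Vale.Agent.P216.V893.R2b
import Vale.Agent.P216.Spine.Main
import Vale.Agent.P216.H126U.U5

/-!
# P216, centralizers of straight closed geodesics: the theorem from the rows
-/

set_option linter.all false

open Set Topology unitInterval Bundle Manifold
open scoped ContDiff

namespace Vale.Agent.P216.H949

open Vale.Agent.P216.L250 Vale.Agent.P216.H494 Vale.Agent.P216.H971B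
open Vale.Agent.P216.H126B (Q RQ pthN pw)
open Path.Homotopic.Quotient (mk)

/-- **R1**. -/
theorem r1 : H971B.R1Goal :=
  H923B2.r1Goal_of
    (fun _M _ _ _ρ hρ h x g m hm K Lg hK hx hg hj r =>
      H126B.conj_bound hρ h x g m hm K Lg hK hx hg hj r)
    (fun _M _ _ _ρ hρ h c => H126B.exists_fin hρ h c)

section

variable {M : Type} [MetricSpace M]

/-- The closed path `t ↦ f (z t)` of a periodic `f`. -/
noncomputable def Pz (f : C(ℝ, M)) (hf : Function.Periodic f 1) {x : M} (hx : f 0 = x) (z : ℤ) :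
    Path x x where
  toFun t := f (z * t)
  continuous_toFun := by fun_prop
  source' := by simp [hx]
  target' := by
    have := hf.int_mul_eq z
    rw [mul_one] at this
    show f ((z : ℝ) * ((1 : I) : ℝ)) = x
    rw [show ((1 : I) : ℝ) = 1 from rfl, mul_one, this, hx]

theorem Pz_apply (f : C(ℝ, M)) (hf : Function.Periodic f 1) {x : M} (hx : f 0 = x) (z : ℤ)
    (t : I) : Pz f hf hx z t = f (z * t) := rfl

theorem mk_Pz_add (f : C(ℝ, M)) (hf : Function.Periodic f 1) {x : M} (hx : f 0 = x) (z w : ℤ) :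
    mk (Pz f hf hx (z + w)) = (mk (Pz f hf hx w)).trans (mk (Pz f hf hx z)) := by
  rw [← Path.Homotopic.Quotient.mk_trans, Path.Homotopic.Quotient.eq]
  let φ : Path (0 : ℝ) ((w : ℝ) + z) := ⟨⟨fun t : I => ((w : ℝ) + z) * t, by fun_prop⟩,
    by simp, by simp⟩
  let ψ₁ : Path (0 : ℝ) w := ⟨⟨fun t : I => (w : ℝ) * t, by fun_prop⟩, by simp, by simp⟩
  let ψ₂ : Path (w : ℝ) ((w : ℝ) + z) := ⟨⟨fun t : I => (w : ℝ) + z * t, by fun_prop⟩,
    by simp, by simp⟩
  refine H126B.line_homotopic f _ _ φ (ψ₁.trans ψ₂) (fun t => ?_) fun t => ?_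
  · rw [Pz_apply]
    show _ = f (((w : ℝ) + z) * t)
    push_cast
    rw [add_comm (z : ℝ)]
  · rw [Path.trans_apply, Path.trans_apply]
    split_ifs with ht
    · rfl
    · rw [Pz_apply]
      show f ((z : ℝ) * (2 * (t : ℝ) - 1)) = f ((w : ℝ) + z * (2 * (t : ℝ) - 1))
      have := hf.int_mul w (z * (2 * (t : ℝ) - 1))
      rw [mul_one, add_comm] at this
      rw [this]

/-- The class of a closed path, as an element of the fundamental group. -/
noncomputable def cls {x : M} (p : Path x x) : FundamentalGroup M x :=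
  FundamentalGroup.fromPath (mk p)

/-- `z ↦ [t ↦ f (z t)]` -/
noncomputable def phi (f : C(ℝ, M)) (hf : Function.Periodic f 1) {x : M} (hx : f 0 = x) :
    Multiplicative ℤ →* FundamentalGroup M x where
  toFun z := cls (Pz f hf hx z.toAdd)
  map_one' := by
    show mk (Pz f hf hx 0) = Path.Homotopic.Quotient.refl x
    rw [← Path.Homotopic.Quotient.mk_refl]
    congr 1
    ext t
    rw [Pz_apply]
    simp [hx]
  map_mul' z w := mk_Pz_add f hf hx z.toAdd w.toAdd

theorem mk_Pz (f : C(ℝ, M)) (hf : Function.Periodic f 1) {x : M} (hx : f 0 = x) (z : ℤ) :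
    cls (Pz f hf hx z) = cls (Pz f hf hx 1) ^ z :=
  MonoidHom.apply_mint _ (phi f hf hx) z

theorem const_mem (x : M) : (ContinuousMap.const (AddCircle (1 : ℝ)) x : LM M) ∈ XE M 0 := by
  rw [mem_XE]
  refine ⟨fun _ => 0, fun s t hst => ?_, fun t => by simp⟩
  show dist x x ^ 2 ≤ _
  simp

theorem Tr.mono {T T' : ℝ} (h0 : 0 ≤ T) (hT : T ≤ T') {x y : M} {g g' : LM M} {q : Q x y}
    (h : Tr T g g' q) : Tr T' g g' q := by
  obtain ⟨p, Γ, h1, h2, h3⟩ := h
  exact ⟨p, Γ, h1, h2, fun s => XE_mono h0 hT (h3 s)⟩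

end

/-- **Metric form.** -/
theorem selfCentral_metric (hF : RF) (hE : RE) (M : Type) [MetricSpace M] [CompactSpace M]
    [PathConnectedSpace M] (ρ : ℝ) (hρ : 0 < ρ) (h : LS.UniqSeg M ρ) (G : GeoList M) (x₀ : M)
    (hπ : Infinite (ConjClasses (FundamentalGroup M x₀))) :
    SelfCentral (FundamentalGroup M x₀) := by
  obtain ⟨c, L, hL, hcK, hmin, hgap⟩ := r1 M ρ hρ h G (H923B2.r7Goal M x₀ hπ)
  refine SelfCentral.congr
    (FundamentalGroup.fundamentalGroupMulEquivOfPathConnected (fn c 0) x₀) ?_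
  have hcK' := hcK
  obtain ⟨j, b, hcb⟩ := hcK'
  have hper : Function.Periodic (G.c j) L := by
    have := KK_period (Or.inl rfl) hL hcb (r := 1) fun t => fn_periodic c t
    rwa [mul_one] at this
  obtain ⟨n', hn'⟩ := G.prime j L hper
  have hℓ := G.ℓ_pos j
  have hn0 : 0 < n' := by
    by_contra hcon
    push Not at hcon
    have : (n' : ℝ) ≤ 0 := by exact_mod_cast hcon
    nlinarith
  obtain ⟨n, rfl⟩ := Int.eq_ofNat_of_zero_le hn0.le
  have hn : 1 ≤ n := by exact_mod_cast hn0
  have hLn : L = n * G.ℓ j := by simpa using hn'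
  let f : C(ℝ, M) := ⟨fun u => G.c j (b + G.ℓ j * u), (G.continuous_c j).comp (by fun_prop)⟩
  have hf : Function.Periodic f 1 := by
    intro u
    show G.c j (b + G.ℓ j * (u + 1)) = G.c j (b + G.ℓ j * u)
    rw [mul_add, mul_one, ← add_assoc]
    exact G.per j _
  have hcf : ∀ t, fn c t = f (n * t) := by
    intro t
    rw [hcb]
    show _ = G.c j (b + G.ℓ j * (n * t))
    rw [hLn]
    congr 1
    ring
  have hx : f 0 = fn c 0 := by rw [hcf, mul_zero]
  set A : FundamentalGroup M (fn c 0) := cls (Pz f hf hx 1) with hA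
  have hAz : ∀ z : ℤ, cls (Pz f hf hx z) = A ^ z := mk_Pz f hf hx
  have hpth : ∀ k : ℕ, cls (pthN c k) = A ^ (n * k) := by
    intro k
    rw [← zpow_natCast, ← hAz]
    congr 1
    ext t
    rw [H126B.pthN_apply, hcf, Pz_apply]
    congr 1
    push_cast
    ring
  have hLip : ∀ s t : ℝ, dist (fn c s) (fn c t) ≤ L * |s - t| := fun s t =>
    KK_dist_le (Or.inl rfl) hL.le hcK s t
  refine ⟨A, fun m hm hA1 => ?_, fun k hk β hβ => ?_⟩
  · have h1 : cls (pthN c m) = 1 := by
      rw [hpth, mul_comm, pow_mul, hA1]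
      exact one_pow n
    have h2 : (pthN c m).Homotopic (Path.refl (fn c 0)) := Path.Homotopic.Quotient.eq.1 h1
    have h3 := H126B.joined_lp h2
    rw [H126B.lp_pthN, H126B.lp_eq (Path.refl (fn c 0)) (ContinuousMap.const _ (fn c 0))
      (fun t => rfl)] at h3
    have h4 := hmin m hm _ h3.symm 0 le_rfl (const_mem _)
    have h5 : 0 < (m : ℝ) * L := mul_pos (by exact_mod_cast hm) hL
    linarith
  · have hcomm : (mk (pthN c k)).trans β = β.trans (mk (pthN c k)) := by
      show β * cls (pthN c k) = cls (pthN c k) * β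
      rw [hpth, mul_comm n k, pow_mul]
      exact (show Commute β (A ^ k) from hβ).pow_right n
    obtain ⟨C, hC, hTr⟩ := hF M ρ hρ h c L hL hLip k hk β hcomm
    obtain ⟨m0, hm0⟩ := hgap (C + 1)
    set i : ℕ := max m0 1 with hi
    have hi1 : 1 ≤ i := le_max_right _ _
    set m : ℕ := k * i with hm
    have hm1 : 1 ≤ m := Nat.mul_pos hk hi1
    have hmm : m0 ≤ m := (le_max_left m0 1).trans (Nat.le_mul_of_pos_left _ hk)
    have hmp : (0 : ℝ) < m := by exact_mod_cast hm1
    have ha : 0 < (m : ℝ) * L := mul_pos hmp hL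
    have hg₀ : iter m c ∈ G.KK 1 (m * L) := iter_mem_KK hcK m
    obtain ⟨w, p, hw, hp, hpβ⟩ := hE M ρ hρ h G (m * L) (m * L + (C + 1)) (iter m c) ha
      (by linarith) (Or.inl hg₀)
      (V893.Dsc.r2bGoal M ρ hρ h G (iter m c) _ ha fun x hx T' hT' hxT =>
        hmin m hm1 x hx T' hT' hxT)
      (fun a' ha1 ha2 x hx => hm0 m hmm a' ha1 ha2 x hx) (fn c 0) β
      ((hTr i hi1).mono (by positivity) (by linarith))
    have h1 : ∀ t, fn (iter m c) t = G.c j (1 * (m * L) * t + b) := by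
      intro t
      rw [fn_iter, hcb]
      congr 1
      ring
    have h2 : Function.Periodic (G.c j) (m * L * w) :=
      KK_period (Or.inl rfl) ha h1 fun t => by
        have := congrArg (fun g => fn g t) hw
        simpa [fn_rot] using this
    obtain ⟨z, hz⟩ := G.prime j _ h2
    have hz' : (n : ℝ) * (m * w) = z := by
      have : G.ℓ j * ((n : ℝ) * (m * w)) = G.ℓ j * z := by
        rw [hLn] at hz
        linarith
      exact mul_left_cancel₀ hℓ.ne' this
    refine Subgroup.mem_zpowers_iff.2 ⟨z, ?_⟩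
    rw [← hAz, ← hpβ]
    congr 1
    ext t
    rw [Pz_apply, hp, fn_iter, hcf]
    congr 1
    rw [← hz']
    ring

/-- **Riemannian form.** -/
theorem selfCentral_riem (hF : RF) (hE : RE)
    {E : Type} [NormedAddCommGroup E] [NormedSpace ℝ E] [FiniteDimensional ℝ E]
    {M : Type} [MetricSpace M] [CompactSpace M] [ChartedSpace E M] [IsManifold 𝓘(ℝ, E) ∞ M]
    [RiemannianBundle (fun x : M => TangentSpace 𝓘(ℝ, E) x)]
    [IsContMDiffRiemannianBundle 𝓘(ℝ, E) ∞ E (fun x : M => TangentSpace 𝓘(ℝ, E) x)]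
    [IsRiemannianManifold 𝓘(ℝ, E) M] (x₀ : M)
    (hπ : Infinite (ConjClasses (FundamentalGroup M x₀)))
    (hfin : (primeClosedGeodesicImages M).Finite) : SelfCentral (FundamentalGroup M x₀) := by
  have : PathConnectedSpace M := ⟨⟨x₀⟩, H126U.joined_of_riemannian E⟩
  obtain ⟨ρ, hρ, hs, _⟩ := Geo.exists_uniqSeg E M
  obtain ⟨G⟩ := exists_geoList (nonBranching_of_riemannian (E := E) (M := M)) hfin
  exact selfCentral_metric hF hE M ρ hρ hs G x₀ hπ

end Vale.Agent.P216.H949
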