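import Vale.Agent.P216.H949.Spec
import Vale.Agent.P216.H921B.Comp

/-!
# P216, centralizers: a loop of loops pushed down to the circle of the shortest geodesic
-/

set_option linter.all false

open Set Topology unitInterval

namespace Vale.Agent.P216.H949

open Vale.Agent.P216.L250 Vale.Agent.P216.H494 Vale.Agent.P216.H971B
open Vale.Agent.P216.H126B (Q RQ pthN pw)
open Path.Homotopic.Quotient (mk)

/-- A path near the critical circles which starts near the circle of `g₀` stays near it. -/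
theorem stay {M : Type} [MetricSpace M] {G : GeoList M} {a ε : ℝ} {g₀ : LM M}
    (hsep : ∀ z ∈ Geo1 G a, ∀ θ : ℝ, dist z (rot θ g₀) < 2 * ε → ∃ θ', z = rot θ' g₀)
    (Γ : I → LM M) (hc : Continuous Γ) (h0 : ∃ u, dist (Γ 0) (rot u g₀) < ε)
    (hn : ∀ s, ∃ z ∈ Geo1 G a, dist (Γ s) z < ε) : ∀ s, ∃ u, dist (Γ s) (rot u g₀) < ε := by
  set A : Set I := {s | ∃ u, dist (Γ s) (rot u g₀) < ε} with hA
  set B : Set I := {s | ∃ z, (z ∈ Geo1 G a ∧ ¬ ∃ θ', z = rot θ' g₀) ∧ dist (Γ s) z < ε} with hB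
  have hAo : IsOpen A := by
    have : A = ⋃ u : ℝ, Γ ⁻¹' Metric.ball (rot u g₀) ε := by
      ext s; simp [hA]
    rw [this]
    exact isOpen_iUnion fun u => Metric.isOpen_ball.preimage hc
  have hBo : IsOpen B := by
    have : B = ⋃ z : {z // z ∈ Geo1 G a ∧ ¬ ∃ θ', z = rot θ' g₀},
        Γ ⁻¹' Metric.ball (z : LM M) ε := by
      ext s
      simp only [hB, mem_setOf_eq, mem_iUnion, mem_preimage, Metric.mem_ball, Subtype.exists]
      constructor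
      · rintro ⟨z, hz, hd⟩; exact ⟨z, hz, hd⟩
      · rintro ⟨z, hz, hd⟩; exact ⟨z, hz, hd⟩
    rw [this]
    exact isOpen_iUnion fun u => Metric.isOpen_ball.preimage hc
  have hAB : Aᶜ = B := by
    ext s
    constructor
    · intro hs
      obtain ⟨z, hz, hd⟩ := hn s
      refine ⟨z, ⟨hz, ?_⟩, hd⟩
      rintro ⟨θ', rfl⟩
      exact hs ⟨θ', hd⟩
    · rintro ⟨z, ⟨hz, hnz⟩, hd⟩ ⟨u, hu⟩
      refine hnz (hsep z hz u ?_)
      have := dist_triangle_left z (rot u g₀) (Γ s)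
      linarith
  have hcl : IsClopen A := ⟨⟨by rw [hAB]; exact hBo⟩, hAo⟩
  have := hcl.eq_univ ⟨0, h0⟩
  intro s
  have hs : s ∈ A := by rw [this]; trivial
  exact hs

theorem path_joined {X : Type} [TopologicalSpace X] {x y : X} (γ : Path x y) (s : I) :
    Joined (γ s) x := by
  refine Joined.symm ⟨⟨⟨fun t => γ (t * s), by fun_prop⟩, by simp, by simp⟩⟩

theorem rE (hA : RA) (hC : RC) (hD : RD) : RE := by
  intro M _ _ ρ hρ h G a T g₀ ha haT hg₀ hZ hno x₀ β hTr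
  obtain ⟨p, Γ, hpβ, hp, hΓ⟩ := hTr
  obtain ⟨ε₁, hε₁, hC1⟩ := hC M ρ hρ h g₀
  obtain ⟨ε₂, hε₂, hD1⟩ := hD M ρ hρ h g₀
  obtain ⟨ε₃, hε₃, hsep⟩ := hA M G a ha g₀ hg₀
  obtain ⟨ε, hε, he1, he2, he3⟩ : ∃ ε > 0, ε ≤ ε₁ ∧ ε ≤ ε₂ ∧ 2 * ε ≤ ε₃ :=
    ⟨min ε₁ (min ε₂ (ε₃ / 2)), lt_min hε₁ (lt_min hε₂ (by positivity)), min_le_left _ _,
      (min_le_right _ _).trans (min_le_left _ _), by
        have := (min_le_right ε₁ (min ε₂ (ε₃ / 2))).trans (min_le_right _ _)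
        linarith⟩
  obtain ⟨ε₄, hε₄, hnear⟩ := H921B.exists_near h hρ ha.le g₀ hε
  obtain ⟨a', ha1, ha2, ha3⟩ : ∃ a', a < a' ∧ a' ≤ T ∧ a' ≤ a + ε₄ :=
    ⟨min (a + ε₄) T, lt_min (by linarith) haT, min_le_right _ _, min_le_left _ _⟩
  have ha' : 0 < a' := ha.trans ha1
  obtain ⟨D, d1, d2, d3, d4, d5⟩ := V893.Dsc.exists_desc hρ h G g₀ ha' ha2
    (fun b hb g hg => hno b (ha1.trans_le hb.1) hb.2 g hg)
  have hg₀a : g₀ ∈ XE M a := by
    rcases hg₀ with h1 | h1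
    · exact KK_subset_XE (Or.inl rfl) ha.le h1
    · exact KK_subset_XE (Or.inr rfl) ha.le h1
  have hg₀T : g₀ ∈ XE M T := XE_mono ha.le haT.le hg₀a
  have hx : fn g₀ 0 = x₀ := by
    have := hp 0
    rw [p.source, Γ.source] at this
    exact this.symm
  subst hx
  have hj : ∀ s, Joined (Γ s) g₀ := path_joined Γ
  -- the two paths of loops
  have hFc : Continuous fun z : I × I => D z.1 (Γ z.2) := by
    refine d1.comp_continuous (f := fun z : I × I => ((z.1 : ℝ), Γ z.2)) (by fun_prop) ?_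
    exact fun z => ⟨z.1.2, hΓ z.2⟩
  have hev : Continuous fun g : LM M => fn g 0 :=
    ContinuousEvalConst.continuous_eval_const _
  have hGam0 : Γ 0 = g₀ := Γ.source
  have hGam1 : Γ 1 = g₀ := Γ.target
  have hDc : Continuous fun s : I => D s g₀ := by
    have := hFc.comp (f := fun s : I => (s, (0 : I))) (by fun_prop)
    simpa [Function.comp_def, hGam0] using this
  let Λd : Path g₀ (D 1 g₀) := ⟨⟨fun s : I => D s g₀, hDc⟩, by
      show D ((0 : I) : ℝ) g₀ = g₀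
      exact d2 g₀, by
      show D ((1 : I) : ℝ) g₀ = D 1 g₀
      rfl⟩
  have hqc : Continuous fun s : I => D 1 (Γ s) := by
    have := hFc.comp (f := fun s : I => ((1 : I), s)) (by fun_prop)
    simpa [Function.comp_def] using this
  let Λq : Path (D 1 g₀) (D 1 g₀) := ⟨⟨fun s : I => D 1 (Γ s), hqc⟩, by
      show D 1 (Γ 0) = D 1 g₀
      rw [hGam0], by
      show D 1 (Γ 1) = D 1 g₀
      rw [hGam1]⟩
  let pd : Path (fn g₀ 0) (fn (D 1 g₀) 0) := ⟨⟨fun s : I => fn (D s g₀) 0, hev.comp hDc⟩, by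
      show fn (D ((0 : I) : ℝ) g₀) 0 = fn g₀ 0
      rw [show D ((0 : I) : ℝ) g₀ = g₀ from d2 g₀], rfl⟩
  let pq : Path (fn (D 1 g₀) 0) (fn (D 1 g₀) 0) := ⟨⟨fun s : I => fn (D 1 (Γ s)) 0, hev.comp hqc⟩, by
      show fn (D 1 (Γ 0)) 0 = fn (D 1 g₀) 0
      rw [hGam0], by
      show fn (D 1 (Γ 1)) 0 = fn (D 1 g₀) 0
      rw [hGam1]⟩
  let F : C(I × I, M) := ⟨fun z => fn (D z.1 (Γ z.2)) 0, hev.comp hFc⟩
  have hsq : (p.trans pd).Homotopic (pd.trans pq) := by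
    refine H126B.sq_homotopic F p pq pd pd ?_ ?_ ?_ ?_
    · intro t
      show p t = fn (D ((0 : I) : ℝ) (Γ t)) 0
      rw [hp t, show D ((0 : I) : ℝ) (Γ t) = Γ t from d2 _]
    · intro t; rfl
    · intro s
      show fn (D s g₀) 0 = fn (D s (Γ 0)) 0
      rw [hGam0]
    · intro s
      show fn (D s g₀) 0 = fn (D s (Γ 1)) 0
      rw [hGam1]
  have hsq' : β.trans (mk pd) = (mk pd).trans (mk pq) := by
    rw [← hpβ, ← Path.Homotopic.Quotient.mk_trans, ← Path.Homotopic.Quotient.mk_trans]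
    exact Path.Homotopic.Quotient.eq.2 hsq
  have hsep' : ∀ z ∈ Geo1 G a, ∀ θ : ℝ, dist z (rot θ g₀) < 2 * ε → ∃ θ', z = rot θ' g₀ :=
    fun z hz θ hd => hsep z hz θ (hd.trans_le he3)
  -- the first path stays in the shortest loops
  have hmemd : ∀ s : I, D s g₀ ∈ Ecl M a g₀ := fun s =>
    ⟨d3 a ha.le haT.le s s.2 g₀ hg₀a, (d4 s s.2 g₀ hg₀T).symm⟩
  have hUd : ∀ s : I, ∃ u, dist (D s g₀) (rot u g₀) < ε := by
    refine stay hsep' (fun s : I => D s g₀) hDc ⟨0, ?_⟩ fun s => ⟨_, hZ (hmemd s), ?_⟩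
    · show dist (D ((0 : I) : ℝ) g₀) (rot 0 g₀) < ε
      rw [show D ((0 : I) : ℝ) g₀ = g₀ from d2 g₀, rot_zero, dist_self]
      exact hε
    · rw [dist_self]
      exact hε
  have hUq : ∀ s : I, ∃ u, dist (D 1 (Γ s)) (rot u g₀) < ε := by
    refine stay hsep' (fun s : I => D 1 (Γ s)) hqc ?_ fun s => ?_
    · show ∃ u, dist (D 1 (Γ 0)) (rot u g₀) < ε
      rw [hGam0]
      exact hUd 1
    · have h1 : D 1 (Γ s) ∈ Ecl M (a + ε₄) g₀ :=
        ⟨XE_mono ha'.le ha3 (d5 _ (hΓ s) (hj s)),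
          (d4 1 ⟨zero_le_one, le_rfl⟩ _ (hΓ s)).symm.trans (hj s)⟩
      obtain ⟨z, hz, hd⟩ := hnear _ h1
      exact ⟨z, hZ hz, hd⟩
  have hK0 : KS ρ ε g₀ g₀ (Path.Homotopic.Quotient.refl (fn g₀ 0)) := by
    refine ⟨0, fn g₀ 0, Path.refl _, Path.refl _, fun t => ?_, fun t => ?_, rfl, ?_, ?_⟩
    · rw [zero_mul]; rfl
    · show dist (fn g₀ 0) (fn g₀ 0) < ρ / 4
      rw [dist_self]; positivity
    · rw [rot_zero, dist_self]; exact hε
    · rw [Path.Homotopic.Quotient.mk_refl, Path.Homotopic.Quotient.refl_trans]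
  have hK1 := hC1 ε hε he1 (fn g₀ 0) (fn g₀ 0) (fn (D 1 g₀) 0) g₀ (D 1 g₀) Λd pd _
    (fun s => rfl) hUd hK0
  rw [Path.Homotopic.Quotient.refl_trans] at hK1
  have hK2 := hC1 ε hε he1 (fn g₀ 0) (fn (D 1 g₀) 0) (fn (D 1 g₀) 0) (D 1 g₀) (D 1 g₀) Λq pq _
    (fun s => rfl) hUq hK1
  obtain ⟨w, p', hw, hp', he⟩ := hD1 ε hε he2 (fn g₀ 0) (fn (D 1 g₀) 0) (D 1 g₀) _ _ hK1 hK2
  refine ⟨w, p', hw, hp', ?_⟩
  rw [he] at hsq'
  have h2 := congrArg (fun x => x.trans (mk pd).symm) hsq'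
  simp only [Path.Homotopic.Quotient.trans_assoc, Path.Homotopic.Quotient.trans_symm,
    Path.Homotopic.Quotient.trans_refl] at h2
  exact h2.symm

end Vale.Agent.P216.H949
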