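import Vale.Agent.P216.H126B.Homot2
import Vale.Agent.P216.V893.DscC
import Vale.Agent.P216.H215.Z10c

/-!
# P216, centralizers of straight closed geodesics: definitions and literal rows
-/

set_option linter.all false

open Set Topology unitInterval

namespace Vale.Agent.P216.H949

open Vale.Agent.P216.L250 Vale.Agent.P216.H494 Vale.Agent.P216.H971B
open Vale.Agent.P216.H126B (Q RQ pthN pw)
open Path.Homotopic.Quotient (mk)

/-- A path of loops of level `T` from `g` to `g'` whose base point path has the class `q`. -/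
def Tr {M : Type} [MetricSpace M] (T : ℝ) {x y : M} (g g' : LM M) (q : Q x y) : Prop :=
  ∃ (p : Path x y) (Γ : Path g g'), mk p = q ∧ (∀ s, p s = fn (Γ s) 0) ∧ ∀ s, Γ s ∈ XE M T

/-- The class `q` is an arc of `g₀` from time `0` to time `u`, followed by a short path, and
`g` is `ε`-close to the rotation of `g₀` by `u`. -/
def KS {M : Type} [MetricSpace M] (ρ ε : ℝ) (g₀ g : LM M) {a y : M} (q : Q a y) : Prop :=
  ∃ (u : ℝ) (z : M) (p₁ : Path a z) (p₂ : Path z y), (∀ t : I, p₁ t = fn g₀ (u * t)) ∧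
    (∀ t, dist (p₂ t) z < ρ / 4) ∧ fn g 0 = y ∧ dist g (rot u g₀) < ε ∧
    q = (mk p₁).trans (mk p₂)

/-- **RA** (separation of the circles of closed geodesics of length `a`). -/
def RA : Prop := ∀ (M : Type) [MetricSpace M] [CompactSpace M] (G : GeoList M) (a : ℝ), 0 < a →
  ∀ g ∈ Geo1 G a, ∃ ε > 0, ∀ z ∈ Geo1 G a, ∀ θ : ℝ, dist z (rot θ g) < ε → ∃ θ', z = rot θ' g

/-- **RB** (periods). -/
def RB : Prop := ∀ (M : Type) [MetricSpace M] (g : LM M) (η : ℝ), 0 < η → ∃ ε > 0, ∀ u v : ℝ,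
  dist (rot u g) (rot v g) < ε → ∃ w, rot w g = rot v g ∧ |u - w| < η

/-- **RC** (following a path near the circle of `g₀`). -/
def RC : Prop := ∀ (M : Type) [MetricSpace M] [CompactSpace M] (ρ : ℝ), 0 < ρ →
  LS.UniqSeg M ρ → ∀ g₀ : LM M, ∃ ε₀ > 0, ∀ ε, 0 < ε → ε ≤ ε₀ → ∀ (a x y : M) (g g' : LM M)
  (Γ : Path g g') (p : Path x y) (q : Q a x), (∀ s, p s = fn (Γ s) 0) →
  (∀ s, ∃ u, dist (Γ s) (rot u g₀) < ε) → KS ρ ε g₀ g q → KS ρ ε g₀ g' (q.trans (mk p))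

/-- **RD** (two classes at the same loop differ by a closed arc of `g₀`). -/
def RD : Prop := ∀ (M : Type) [MetricSpace M] [CompactSpace M] (ρ : ℝ), 0 < ρ →
  LS.UniqSeg M ρ → ∀ g₀ : LM M, ∃ ε₀ > 0, ∀ ε, 0 < ε → ε ≤ ε₀ → ∀ (a y : M) (g : LM M)
  (q q' : Q a y), KS ρ ε g₀ g q → KS ρ ε g₀ g q' →
    ∃ (w : ℝ) (p : Path a a), rot w g₀ = g₀ ∧ (∀ t : I, p t = fn g₀ (w * t)) ∧
      q' = (mk p).trans q

/-- **RF** (the family): `β` commutes with the class of `c ^ k`; bounded excess. -/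
def RF : Prop := ∀ (M : Type) [MetricSpace M] [CompactSpace M] (ρ : ℝ), 0 < ρ →
  LS.UniqSeg M ρ → ∀ (c : LM M) (L : ℝ), 0 < L →
  (∀ s t : ℝ, dist (fn c s) (fn c t) ≤ L * |s - t|) → ∀ (k : ℕ), 1 ≤ k →
  ∀ β : Q (fn c 0) (fn c 0), (mk (pthN c k)).trans β = β.trans (mk (pthN c k)) →
  ∃ C : ℝ, 0 ≤ C ∧ ∀ j : ℕ, 1 ≤ j →
    Tr (((k * j : ℕ) : ℝ) * L + C) (iter (k * j) c) (iter (k * j) c) β

/-- **RE** (no closed geodesic of the class with length in `(a, T]`, shortest length `a`). -/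
def RE : Prop := ∀ (M : Type) [MetricSpace M] [CompactSpace M] (ρ : ℝ), 0 < ρ →
  LS.UniqSeg M ρ → ∀ (G : GeoList M) (a T : ℝ) (g₀ : LM M), 0 < a → a < T →
  g₀ ∈ Geo1 G a → Ecl M a g₀ ⊆ Geo1 G a →
  (∀ b, a < b → b ≤ T → ∀ x ∈ Geo1 G b, ¬ Joined x g₀) →
  ∀ (x₀ : M) (β : Q x₀ x₀), Tr T g₀ g₀ β →
    ∃ (w : ℝ) (p : Path x₀ x₀), rot w g₀ = g₀ ∧ (∀ t : I, p t = fn g₀ (w * t)) ∧ mk p = β

end Vale.Agent.P216.H949
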