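import Vale.Agent.P216.H949.Fin

/-!
# P216: malnormally covered groups, subgroups of finite index
-/

set_option linter.all false

namespace Vale.Agent.P216.H949

variable {G : Type} [Group G]

/-- representatives of the right cosets -/
theorem exists_reps (H : Subgroup G) [hH : H.FiniteIndex] :
    ∃ S : Set G, S.Finite ∧ ∀ t : G, ∃ s ∈ S, ∃ u : H, t = u * s := by
  have hq : Finite (Quotient (QuotientGroup.rightRel H)) :=
    Finite.of_equiv _ (QuotientGroup.quotientRightRelEquivQuotientLeftRel H).symm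
  refine ⟨Set.range fun q : Quotient (QuotientGroup.rightRel H) => q.out, Set.finite_range _,
    fun t => ⟨_, ⟨Quotient.mk _ t, rfl⟩, ?_⟩⟩
  have h1 : (QuotientGroup.rightRel H) (Quotient.mk (QuotientGroup.rightRel H) t).out t :=
    Quotient.mk_out t
  rw [QuotientGroup.rightRel_apply] at h1
  exact ⟨⟨_, h1⟩, by simp⟩

theorem Mal.conj' {a : G} (h : Mal a) (s : G) : Mal (s * a * s⁻¹) := by
  refine ⟨fun m hm1 => h.1 m ?_, fun t ht m n' hm1 he => ?_⟩
  · rw [conj_zpow] at hm1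
    have := congrArg (fun z => s⁻¹ * z * s) hm1
    simpa [mul_assoc] using this
  · rw [conj_zpow, conj_zpow] at he
    refine ht ?_
    have h3 : (s⁻¹ * t * s) * a ^ m * (s⁻¹ * t * s)⁻¹ = a ^ n' := by
      have := congrArg (fun z => s⁻¹ * z * s) he
      simp only [mul_assoc, inv_mul_cancel_left, inv_mul_cancel, mul_one, mul_inv_rev,
        inv_inv] at this ⊢
      exact this
    obtain ⟨j, hj⟩ := Subgroup.mem_zpowers_iff.1 (h.mem hm1 h3)
    refine Subgroup.mem_zpowers_iff.2 ⟨j, ?_⟩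
    rw [conj_zpow, hj]
    group

/-- The part of `⟨a⟩` in a subgroup of finite index. -/
theorem Mal.inter {a : G} (h : Mal a) (H : Subgroup G) [hH : H.FiniteIndex] :
    ∃ b : H, Mal b ∧ ∀ n : ℤ, ∀ hn : a ^ n ∈ H, ∃ q : ℤ, (⟨a ^ n, hn⟩ : H) = b ^ q := by
  classical
  have hex : ∃ k : ℕ, 0 < k ∧ a ^ k ∈ H := by
    obtain ⟨n, hn0, _, hn⟩ := Subgroup.exists_pow_mem_of_index_ne_zero hH.index_ne_zero a
    exact ⟨n, hn0, hn⟩
  set k := Nat.find hex with hk
  obtain ⟨hk0, hkH⟩ := Nat.find_spec hex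
  have hdvd : ∀ n : ℤ, a ^ n ∈ H → (k : ℤ) ∣ n := by
    intro n hn
    by_contra hcon
    have hkz : (0 : ℤ) < k := by exact_mod_cast hk0
    have h1 : 0 < n % k := lt_of_le_of_ne (Int.emod_nonneg _ hkz.ne') fun h0 =>
      hcon (Int.dvd_of_emod_eq_zero h0.symm)
    have h2 : n % k < k := Int.emod_lt_of_pos _ hkz
    have h3 : a ^ (n % k) ∈ H := by
      have e : n % k = n + (k : ℤ) * (-(n / k)) := by
        have := Int.emod_add_mul_ediv n k
        linarith
      rw [e, zpow_add, zpow_mul]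
      exact H.mul_mem hn (H.zpow_mem (by rw [zpow_natCast]; exact hkH) _)
    obtain ⟨r, hr⟩ := Int.eq_ofNat_of_zero_le h1.le
    rw [hr] at h1 h2 h3
    rw [zpow_natCast] at h3
    have := Nat.find_min' hex ⟨by exact_mod_cast h1, h3⟩
    have h4 : r < k := by exact_mod_cast h2
    omega
  have hq : ∀ n : ℤ, ∀ hn : a ^ n ∈ H, ∃ q : ℤ, (⟨a ^ n, hn⟩ : H) = (⟨a ^ k, hkH⟩ : H) ^ q := by
    intro n hn
    obtain ⟨q, hq⟩ := hdvd n hn
    refine ⟨q, Subtype.ext ?_⟩
    rw [Subgroup.coe_zpow]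
    show a ^ n = (a ^ k) ^ q
    rw [hq, zpow_mul, zpow_natCast]
  refine ⟨⟨a ^ k, hkH⟩, ⟨fun m hm => ?_, fun t ht m n hm he => ht ?_⟩, hq⟩
  · have h1 : (a ^ k) ^ m = 1 := by
      have := congrArg Subtype.val hm
      rw [Subgroup.coe_zpow] at this
      exact this
    rw [← zpow_natCast, ← zpow_mul] at h1
    rcases mul_eq_zero.1 (h.1 _ h1) with h2 | h2
    · exact absurd h2 (by exact_mod_cast hk0.ne')
    · exact h2
  · have h1 : (t : G) * a ^ ((k : ℤ) * m) * (t : G)⁻¹ = a ^ ((k : ℤ) * n) := by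
      have := congrArg Subtype.val he
      rw [Subgroup.coe_mul, Subgroup.coe_mul, Subgroup.coe_zpow, Subgroup.coe_zpow,
        Subgroup.coe_inv] at this
      rw [zpow_mul, zpow_mul, zpow_natCast]
      exact this
    obtain ⟨j, hj⟩ := Subgroup.mem_zpowers_iff.1
      (h.mem (mul_ne_zero (by exact_mod_cast hk0.ne') hm) h1)
    obtain ⟨q, hq'⟩ := hq j (by rw [hj]; exact t.2)
    refine Subgroup.mem_zpowers_iff.2 ⟨q, ?_⟩
    rw [← hq']
    exact Subtype.ext hj

theorem Cov0.subgroup (h : Cov0 G) (H : Subgroup G) [hH : H.FiniteIndex] : Cov0 H := by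
  classical
  obtain ⟨A, hA, hm, hf⟩ := h
  obtain ⟨S, hS, hSt⟩ := exists_reps H
  have hb : ∀ p : A × S, ∃ b : H, Mal b ∧ ∀ n : ℤ, ∀ hn : ((p.2 : G) * p.1 * (p.2 : G)⁻¹) ^ n ∈ H,
      ∃ q : ℤ, (⟨_, hn⟩ : H) = b ^ q := fun p => ((hm _ p.1.2).conj' _).inter H
  choose b hb1 hb2 using hb
  have := hA.to_subtype
  have := hS.to_subtype
  refine ⟨Set.range b, Set.finite_range _, ?_, ?_⟩
  · rintro _ ⟨p, rfl⟩
    exact hb1 p
  · -- classes of `H` over the exceptional classes of `G`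
    let π : ConjClasses H → ConjClasses G := ConjClasses.map H.subtype
    have hfib : ∀ c : ConjClasses G, (π ⁻¹' {c}).Finite := by
      intro c
      obtain ⟨g, rfl⟩ := ConjClasses.exists_rep c
      let F : S → ConjClasses H := fun s =>
        if hs : (s : G) * g * (s : G)⁻¹ ∈ H then ConjClasses.mk ⟨_, hs⟩ else ConjClasses.mk 1
      refine (Set.finite_range F).subset ?_
      intro d hd
      obtain ⟨x, rfl⟩ := ConjClasses.exists_rep d
      have h1 : ConjClasses.mk (x : G) = ConjClasses.mk g := hd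
      obtain ⟨t, ht⟩ := isConj_iff.1 (ConjClasses.mk_eq_mk_iff_isConj.1 h1.symm)
      obtain ⟨s, hs, u, rfl⟩ := hSt t
      have h2 : (s : G) * g * (s : G)⁻¹ = (u : G)⁻¹ * x * u := by
        rw [← ht]; group
      have h3 : (s : G) * g * (s : G)⁻¹ ∈ H := by
        rw [h2]
        exact (u⁻¹ * x * u).2
      refine ⟨⟨s, hs⟩, ?_⟩
      show F _ = _
      simp only [F]
      rw [dif_pos h3, ConjClasses.mk_eq_mk_iff_isConj, isConj_iff]
      refine ⟨u, Subtype.ext ?_⟩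
      rw [Subgroup.coe_mul, Subgroup.coe_mul, Subgroup.coe_inv]
      show (u : G) * (s * g * s⁻¹) * (u : G)⁻¹ = x
      rw [h2]; group
    refine (hf.preimage' fun c _ => hfib c).subset ?_
    intro d hd
    obtain ⟨x, rfl⟩ := ConjClasses.exists_rep d
    show ∀ a ∈ A, ∀ n : ℤ, ConjClasses.mk (a ^ n) ≠ ConjClasses.mk (x : G)
    intro a ha n hc
    obtain ⟨t, ht⟩ := isConj_iff.1 (ConjClasses.mk_eq_mk_iff_isConj.1 hc)
    obtain ⟨s, hs, u, rfl⟩ := hSt t
    have h2 : (s * a * s⁻¹) ^ n = (u : G)⁻¹ * x * u := by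
      rw [← ht, conj_zpow]; group
    have h3 : (s * a * s⁻¹) ^ n ∈ H := by
      rw [h2]
      exact (u⁻¹ * x * u).2
    obtain ⟨q, hq⟩ := hb2 (⟨a, ha⟩, ⟨s, hs⟩) n h3
    refine hd _ ⟨(⟨a, ha⟩, ⟨s, hs⟩), rfl⟩ q ?_
    rw [← hq, ConjClasses.mk_eq_mk_iff_isConj, isConj_iff]
    refine ⟨u, Subtype.ext ?_⟩
    rw [Subgroup.coe_mul, Subgroup.coe_mul, Subgroup.coe_inv]
    show (u : G) * (s * a * s⁻¹) ^ n * (u : G)⁻¹ = x
    rw [h2]; group

end Vale.Agent.P216.H949
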